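import Vale.Agent.P032.H738.Ns

/-!
# P032: palettes at the apexes of a neighbour of order four (helper353)

`exists_pal353` : the third centre rule, existence form: near `p` the circle `S(c)` has constant
palettes inside `T p` without a given colour of another point of `S(p)`.

`y` a point with four colours in two pairs (`PQ738`) on the circle of a two-pair centre `z`, `p` an
apex of `z, y`:

* `he_seen353` : `T y = {a, b, e, f}`, `{e, f}` no pair of `y`: `p` is a limit of exact `cd`-arcs;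
* `prod353` : no exact `X`-arcs of `S(z)` near `p + z - y` if `X` contains the complement of `T y` and
  no pair of `y` is inside `T p \ X`;
* `noA353` : `{e, f}` is a pair of `y`: if one of `a, b` is in `T y`, then `a, b` are not both in `T p`.
-/

open Set Filter Topology Metric

noncomputable section

namespace Vale.Agent.P032.Six

open Vale.Agent.P032.S5.H767 Vale.Agent.P032.S5.H122 Vale.Agent.P032.Sweep

variable {U : Fin 6 → Set ℂ} {T : ℂ → Set (Fin 6)} {z y p : ℂ} {a b c d e f : Fin 6}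

/-- **third centre rule, existence form** -/
theorem exists_pal353 (h : Irr U T) {q p v : ℂ} {t : Fin 6} (hpq : dist p q = 1)
    (hpv : dist p v = 1) (h1 : v ≠ q) (h2 : v + q ≠ 2 * p) (ht : t ∈ T v) :
    ∃ P, P ⊆ T p ∧ t ∉ P ∧ p ∈ closure (Ex T q P) := by
  by_contra hcon
  push Not at hcon
  have h3 : ∀ P : Set (Fin 6), ∀ᶠ x in 𝓝 p, P ⊆ T p → t ∉ P → x ∉ Ex T q P := by
    intro P
    by_cases hP : P ⊆ T p ∧ t ∉ P
    · have h4 := hcon P hP.1 hP.2
      filter_upwards [isClosed_closure.isOpen_compl.mem_nhds h4] with x hx _ _ hx2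
      exact hx (subset_closure hx2)
    · exact Eventually.of_forall fun x k1 k2 => absurd ⟨k1, k2⟩ hP
  obtain ⟨N, hN, hNo, hpN⟩ := _root_.mem_nhds_iff.1 ((eventually_all.2 h3).and (h.nhd p))
  have hev : ∀ᶠ x in 𝓝[sphere q 1] p, t ∈ T x := by
    filter_upwards [mem_nhdsWithin_of_mem_nhds (hNo.mem_nhds hpN), self_mem_nhdsWithin]
      with x hxN hxq
    by_contra htx
    have hV : N ∩ {w | t ∉ T w} ∈ 𝓝 x :=
      inter_mem (hNo.mem_nhds hxN) ((h.closed t).isOpen_compl.mem_nhds htx)
    obtain ⟨w, ⟨⟨hwN, hwt⟩, hwq⟩, hwc⟩ := h.const (S := sphere q 1) (y := x) hxq hV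
    exact (hN hwN).1 (T w) (hN hwN).2 hwt ⟨hwq, hwc⟩
  rcases h.third hpq hev hpv ht with h5 | h5
  · exact h1 h5
  · exact h2 h5

/-- the palettes of exact arcs of `S(z)` -/
theorem pal_z353 (C : Ctr U T z a b c d e f) {P : Set (Fin 6)} (hP : p ∈ closure (Ex T z P)) :
    e ∈ P ∨ f ∈ P ∨ P = {a, b} ∨ P = {c, d} := by
  obtain ⟨q, hq⟩ : (Ex T z P).Nonempty := closure_nonempty_iff.1 ⟨_, hP⟩
  have hT : T q = P := ex_self hq
  by_cases hs : P ⊆ T z
  · rcases C.pairs q hq.1 (by rw [hT]; exact hq.2) (by rw [hT]; exact hs) with h1 | h1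
    · exact Or.inr (Or.inr (Or.inl (hT.symm.trans h1)))
    · exact Or.inr (Or.inr (Or.inr (hT.symm.trans h1)))
  · obtain ⟨i, hi, hiz⟩ := Set.not_subset.1 hs
    rcases C.miss hiz with rfl | rfl
    · exact Or.inl hi
    · exact Or.inr (Or.inl hi)

/-- the palettes of exact arcs of `S(y)` -/
theorem pal_y353 {P₁ P₂ P : Set (Fin 6)} (hy : PQ738 T y P₁ P₂) (hP : p ∈ closure (Ex T y P)) :
    (∃ i ∈ P, i ∉ T y) ∨ P₁ ⊆ P ∨ P₂ ⊆ P := by
  obtain ⟨q, hq⟩ : (Ex T y P).Nonempty := closure_nonempty_iff.1 ⟨_, hP⟩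
  have hT : T q = P := ex_self hq
  have h1 := hy.pt q hq.1
  rwa [hT] at h1

/-- the six colours -/
theorem nd_all353 (nd : [a, b, c, d, e, f].Nodup) :
    (a ≠ b ∧ a ≠ c ∧ a ≠ d ∧ a ≠ e ∧ a ≠ f) ∧ (b ≠ c ∧ b ≠ d ∧ b ≠ e ∧ b ≠ f) ∧
      (c ≠ d ∧ c ≠ e ∧ c ≠ f) ∧ (d ≠ e ∧ d ≠ f) ∧ e ≠ f := by
  simp only [List.nodup_cons, List.mem_cons, List.not_mem_nil, or_false, not_or, List.nodup_nil,
    and_true, not_false_eq_true] at nd
  exact nd

/-- a pair inside two colours -/
theorem pair_in353 {P : Set (Fin 6)} {x w : Fin 6} (hxw : x ≠ w) (hP : P.ncard = 2)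
    (hs : ∀ i ∈ P, i = x ∨ i = w) : P = {x, w} := by
  refine Set.eq_of_subset_of_ncard_le (fun i hi => ?_) (by rw [hP, Set.ncard_pair hxw])
    (Set.toFinite _)
  rcases hs i hi with h | h
  · exact Or.inl h
  · exact Or.inr h

/-- a pair is not inside one colour -/
theorem pair_one353 {P : Set (Fin 6)} {x : Fin 6} (hP : P.ncard = 2) (hs : ∀ i ∈ P, i = x) :
    False := by
  have h1 : P ⊆ {x} := fun i hi => hs i hi
  have h2 := Set.ncard_le_ncard h1 (Set.toFinite _)
  rw [hP, Set.ncard_singleton] at h2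
  omega

/-- at most three colours, two of them known: there is a third one -/
theorem third_of353 {M : Set (Fin 6)} (h3 : M.ncard ≤ 3) {x w : Fin 6} (hxw : x ≠ w) (hx : x ∈ M)
    (hw : w ∈ M) : ∃ g, ∀ i ∈ M, i = x ∨ i = w ∨ i = g := by
  by_cases hsub : ∀ i ∈ M, i = x ∨ i = w
  · exact ⟨x, fun i hi => (hsub i hi).imp id Or.inl⟩
  · push Not at hsub
    obtain ⟨g, hg, hgx, hgw⟩ := hsub
    refine ⟨g, fun i hi => ?_⟩
    by_contra hcon
    push Not at hcon
    exact four_false h3 hx hw hg hi hxw hgx.symm (fun h => hcon.1 h.symm) hgw.symm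
      (fun h => hcon.2.1 h.symm) (fun h => hcon.2.2 h.symm)

/-- the pairs of a point -/
theorem PQ738.mem353 {P Q : Set (Fin 6)} (h : PQ738 T y P Q) {i : Fin 6} :
    i ∈ T y ↔ i ∈ P ∨ i ∈ Q := by rw [← h.un]; rfl

theorem PQ738.four353 {P Q : Set (Fin 6)} (h : PQ738 T y P Q) : (T y).ncard = 4 := by
  rw [← h.un, Set.ncard_union_eq h.dj (Set.toFinite _) (Set.toFinite _), h.cP, h.cQ]

/-- the pair of one colour pair determines the other pair -/
theorem PQ738.other353 {P Q : Set (Fin 6)} (h : PQ738 T y P Q) {w x v u : Fin 6}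
    (hT : ∀ i, i ∈ T y → i = w ∨ i = x ∨ i = v ∨ i = u) (hP : P = {w, x}) (hvu : v ≠ u) :
    Q = {v, u} := by
  refine pair_in353 hvu h.cQ fun i hi => ?_
  have hiP : i ∉ P := fun h1 => Set.disjoint_left.1 h.dj h1 hi
  rw [hP] at hiP
  simp only [mem_insert_iff, mem_singleton_iff, not_or] at hiP
  rcases hT i (h.mem353.2 (Or.inr hi)) with h1 | h1 | h1 | h1
  · exact absurd h1 hiP.1
  · exact absurd h1 hiP.2
  · exact Or.inl h1
  · exact Or.inr h1

/-- a set with four colours -/
theorem four_eq353 {M : Set (Fin 6)} (h4 : M.ncard ≤ 4) {w x v u : Fin 6}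
    (nd : [w, x, v, u].Nodup) (hw : w ∈ M) (hx : x ∈ M) (hv : v ∈ M) (hu : u ∈ M) (i : Fin 6)
    (hi : i ∈ M) : i = w ∨ i = x ∨ i = v ∨ i = u := by
  by_contra hcon
  push Not at hcon
  have h1 : ({w, x, v, u, i} : Finset (Fin 6)).card = 5 := by
    simp only [List.nodup_cons, List.mem_cons, List.not_mem_nil, or_false, not_or, List.nodup_nil,
      and_true, not_false_eq_true] at nd
    obtain ⟨⟨n1, n2, n3⟩, ⟨n4, n5⟩, n6⟩ := nd
    obtain ⟨m1, m2, m3, m4⟩ := hcon
    rw [Finset.card_insert_of_notMem, Finset.card_insert_of_notMem, Finset.card_insert_of_notMem,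
      Finset.card_insert_of_notMem, Finset.card_singleton]
    · simpa using Ne.symm m4
    · simp only [Finset.mem_insert, Finset.mem_singleton, not_or]
      exact ⟨n6, Ne.symm m3⟩
    · simp only [Finset.mem_insert, Finset.mem_singleton, not_or]
      exact ⟨n4, n5, Ne.symm m2⟩
    · simp only [Finset.mem_insert, Finset.mem_singleton, not_or]
      exact ⟨n1, n2, n3, Ne.symm m1⟩
  have h2 : (({w, x, v, u, i} : Finset (Fin 6)) : Set (Fin 6)) ⊆ M := by
    intro j hj
    simp only [Finset.coe_insert, Finset.coe_singleton, mem_insert_iff, mem_singleton_iff] at hj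
    rcases hj with rfl | rfl | rfl | rfl | rfl <;> assumption
  have h3 := Set.ncard_le_ncard h2 (Set.toFinite _)
  rw [Set.ncard_coe_finset, h1] at h3
  omega

/-- **the apex of a link of the type `HE`**: exact `cd`-arcs accumulate at the apex -/
theorem he_seen353 (C : Ctr U T z a b c d e f) {P Q : Set (Fin 6)} (hy : PQ738 T y P Q)
    (hP : P ≠ {e, f}) (hQ : Q ≠ {e, f}) (hyz : dist y z = 1) (hpz : dist p z = 1)
    (hpy : dist p y = 1) (ha : a ∈ T y) (hb : b ∈ T y) (he : e ∈ T y) (hf : f ∈ T y)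
    (h3 : (T p).ncard ≤ 3 ∨ T p = T z) : p ∈ closure (Ex T z {c, d}) := by
  obtain ⟨⟨ab, ac, ad, ae, af⟩, ⟨bc, bd, be, bf⟩, ⟨cd, ce, cf⟩, ⟨de, df⟩, ef⟩ := nd_all353 C.nd
  obtain ⟨k1, k2⟩ := S5.H767.tri hpz hyz
  obtain ⟨m1, m2⟩ := S5.H767.tri hpy (y' := z) (by rw [dist_comm]; exact hyz)
  have hpz' : dist p z = 1 := hpz
  rcases h3 with h3 | h3
  · obtain ⟨P1, hP1, he1, hc1⟩ := exists_pal353 C.irr hpz hpy (Ne.symm k1)
      (by rw [add_comm]; exact k2) he
    obtain ⟨P2, hP2, hf2, hc2⟩ := exists_pal353 C.irr hpz hpy (Ne.symm k1)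
      (by rw [add_comm]; exact k2) hf
    have g1 : f ∈ P1 ∨ P1 = {a, b} ∨ P1 = {c, d} := by
      rcases pal_z353 C hc1 with h | h
      · exact absurd h he1
      · exact h
    have g2 : e ∈ P2 ∨ P2 = {a, b} ∨ P2 = {c, d} := by
      rcases pal_z353 C hc2 with h | h | h
      · exact Or.inl h
      · exact absurd h hf2
      · exact Or.inr h
    have habp : a ∈ T p → b ∈ T p → False := by
      intro hap hbp
      obtain ⟨x, hx⟩ := third_of353 h3 ab hap hbp
      obtain ⟨w, hwp, hwy⟩ := Set.not_subset.1 (ns1_738 C hy hP hQ hyz hpz hpy h3)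
      have hwx : w = x := by
        rcases hx w hwp with h | h | h
        · exact absurd (h ▸ ha) hwy
        · exact absurd (h ▸ hb) hwy
        · exact h
      subst hwx
      have hwz : w ∈ T z := by
        by_contra hcon
        rcases C.miss hcon with h | h
        · exact hwy (h ▸ he)
        · exact hwy (h ▸ hf)
      obtain ⟨R, hR, hwR, hcR⟩ := exists_pal353 C.irr hpy hpz k1 k2 hwz
      have hRab : ∀ i ∈ R, i = a ∨ i = b := by
        intro i hi
        rcases hx i (hR hi) with h | h | h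
        · exact Or.inl h
        · exact Or.inr h
        · exact absurd (h ▸ hi) hwR
      have key : ∀ {P Q : Set (Fin 6)}, PQ738 T y P Q → Q ≠ {e, f} → P ⊆ R → False := by
        intro P Q hy hQ hPR
        have hPab : P = {a, b} := pair_in353 ab hy.cP fun i hi => hRab i (hPR hi)
        refine hQ (hy.other353 (w := a) (x := b) ?_ hPab ef)
        exact four_eq353 hy.four353.le (by simp [ab, ae, af, be, bf, ef]) ha hb he hf
      rcases pal_y353 hy hcR with ⟨i, hi, hiy⟩ | h | h
      · rcases hRab i hi with rfl | rfl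
        · exact hiy ha
        · exact hiy hb
      · exact key hy hQ h
      · exact key hy.symm hP h
    rcases g1 with g1 | g1 | g1
    · rcases g2 with g2 | g2 | g2
      · exact (ns2_738 C hy hP hQ hyz hpz hpy h3 he hf (hP2 g2) (hP1 g1)).elim
      · rw [g2] at hP2
        exact (habp (hP2 (Or.inl rfl)) (hP2 (Or.inr rfl))).elim
      · rw [g2] at hc2; exact hc2
    · rw [g1] at hP1
      exact (habp (hP1 (Or.inl rfl)) (hP1 (Or.inr rfl))).elim
    · rw [g1] at hc1; exact hc1
  · obtain ⟨P1, hP1, ha1, hc1⟩ := exists_pal353 C.irr hpz hpy (Ne.symm k1)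
      (by rw [add_comm]; exact k2) ha
    have hez : e ∉ T z := by
      rw [C.pal]
      simp only [mem_insert_iff, mem_singleton_iff, not_or]
      exact ⟨Ne.symm ae, Ne.symm be, Ne.symm ce, Ne.symm de⟩
    have hfz : f ∉ T z := by
      rw [C.pal]
      simp only [mem_insert_iff, mem_singleton_iff, not_or]
      exact ⟨Ne.symm af, Ne.symm bf, Ne.symm cf, Ne.symm df⟩
    rcases pal_z353 C hc1 with h | h | h | h
    · exact absurd (h3 ▸ hP1 h) hez
    · exact absurd (h3 ▸ hP1 h) hfz
    · exact absurd (by rw [h]; exact Or.inl rfl) ha1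
    · rw [h] at hc1; exact hc1

/-- **the product rule at `p + z - y`** -/
theorem prod353 (h : Irr U T) {P Q X : Set (Fin 6)} (hy : PQ738 T y P Q) (hyz : dist y z = 1)
    (hpz : dist p z = 1) (hpy : dist p y = 1) (hX : ∀ i, i ∉ T y → i ∈ X)
    (hP : ¬ P ⊆ T p \ X) (hQ : ¬ Q ⊆ T p \ X) : p + z - y ∉ closure (Ex T z X) := by
  intro hcl
  set v : ℂ := p + z - y with hv
  have hvy : v ≠ y := by
    intro h1
    have h2 : p - y = y - z := by rw [hv] at h1; linear_combination h1
    have h3 : p = 2 * y - z := by linear_combination h2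
    have h4 : dist p z = 2 := by
      rw [dist_eq_norm, h3, show 2 * y - z - z = 2 * (y - z) by ring, norm_mul, ← dist_eq_norm,
        hyz]; simp
    rw [h4] at hpz; norm_num at hpz
  have hvy2 : v + y ≠ 2 * z := by
    intro h1
    have h2 : p = z := by rw [hv] at h1; linear_combination h1
    rw [h2, dist_self] at hpz
    exact zero_ne_one hpz
  have hc : Tendsto (fun g : ℂ => y + (g - z)) (𝓝 v) (𝓝 p) := by
    have h1 : Continuous fun g : ℂ => y + (g - z) := by fun_prop
    have h2 := h1.tendsto v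
    rwa [show y + (v - z) = p by rw [hv]; ring] at h2
  have hev : ∀ᶠ g in 𝓝 v, T (y + (g - z)) ⊆ T p ∧ g ≠ y ∧ g + y ≠ 2 * z := by
    have e2 : ∀ᶠ g in 𝓝 v, g + y ≠ 2 * z := by
      have h1 : Continuous fun g : ℂ => g + y := by fun_prop
      exact (isOpen_ne.preimage h1).mem_nhds hvy2
    have e3 : ∀ᶠ g in 𝓝 v, g ≠ y := isOpen_ne.mem_nhds hvy
    exact (hc.eventually (h.nhd p)).and (e3.and e2)
  obtain ⟨g, ⟨hg1, hg2, hg3⟩, hgX⟩ := mem_closure_iff_nhds.1 hcl _ hev
  have hno : ∀ t ∈ X, t ∉ T (y + (g - z)) := fun t ht htT =>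
    H187.product h.mx hyz (H187.Ex_Cr h hgX) ht hg2 hg3 (h.sub _ htT)
  have hdist : dist (y + (g - z)) y = 1 := by
    rw [dist_eq_norm, add_sub_cancel_left, ← dist_eq_norm]; exact hgX.1
  have hsub : ∀ {R : Set (Fin 6)}, R ⊆ T (y + (g - z)) → R ⊆ T p \ X := fun hR i hi =>
    ⟨hg1 (hR hi), fun hiX => hno i hiX (hR hi)⟩
  rcases hy.pt _ hdist with ⟨i, hi, hiy⟩ | h1 | h1
  · exact hno i (hX i hiy) hi
  · exact hP (hsub h1)
  · exact hQ (hsub h1)

/-- **the apexes of a neighbour with the pair `{e, f}`** -/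
theorem noA353 (C : Ctr U T z a b c d e f) {P Q : Set (Fin 6)} (hy : PQ738 T y P Q)
    (hP : P = {e, f}) (hyz : dist y z = 1) (hpz : dist p z = 1) (hpy : dist p y = 1)
    (h3 : (T p).ncard ≤ 3) (hap : a ∈ T p) (hbp : b ∈ T p) (hab : a ∈ T y ∨ b ∈ T y) : False := by
  -- first the case `a ∈ T y`
  have key : ∀ {a b : Fin 6}, Ctr U T z a b c d e f → a ∈ T p → b ∈ T p → a ∈ T y → False := by
    intro a b C hap hbp hay
    obtain ⟨⟨ab, ac, ad, ae, af⟩, ⟨bc, bd, be, bf⟩, ⟨cd, ce, cf⟩, ⟨de, df⟩, ef⟩ := nd_all353 C.nd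
    obtain ⟨k1, k2⟩ := S5.H767.tri hpz hyz
    obtain ⟨x, hx⟩ := third_of353 h3 ab hap hbp
    -- the third colour is `e` or `f`
    have hxef : (x = e ∨ x = f) ∧ x ∈ T p := by
      obtain ⟨R, hR, haR, hcR⟩ := exists_pal353 C.irr hpz hpy (Ne.symm k1)
        (by rw [add_comm]; exact k2) hay
      rcases pal_z353 C hcR with h | h | h | h
      · have h5 := hR h
        rcases hx e h5 with h4 | h4 | h4
        · exact absurd h4.symm ae
        · exact absurd h4.symm be
        · exact ⟨Or.inl h4.symm, h4 ▸ h5⟩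
      · have h5 := hR h
        rcases hx f h5 with h4 | h4 | h4
        · exact absurd h4.symm af
        · exact absurd h4.symm bf
        · exact ⟨Or.inr h4.symm, h4 ▸ h5⟩
      · exact absurd (by rw [h]; exact Or.inl rfl) haR
      · exfalso
        have h5 : c ∈ T p := hR (by rw [h]; exact Or.inl rfl)
        have h6 : d ∈ T p := hR (by rw [h]; exact Or.inr rfl)
        have h7 : x = c := by
          rcases hx c h5 with h4 | h4 | h4
          · exact absurd h4.symm ac
          · exact absurd h4.symm bc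
          · exact h4.symm
        have h8 : x = d := by
          rcases hx d h6 with h4 | h4 | h4
          · exact absurd h4.symm ad
          · exact absurd h4.symm bd
          · exact h4.symm
        exact cd (h7.symm.trans h8)
    obtain ⟨hxef, hxp⟩ := hxef
    have haz : a ∈ T z := by rw [C.pal]; exact Or.inl rfl
    have hbz : b ∈ T z := by rw [C.pal]; exact Or.inr (Or.inl rfl)
    have hxy : x ∈ T y := by
      rw [hy.mem353, hP]
      rcases hxef with rfl | rfl
      · exact Or.inl (Or.inl rfl)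
      · exact Or.inl (Or.inr rfl)
    have hxa : a ≠ x := by
      rcases hxef with rfl | rfl
      · exact ae
      · exact af
    have hxb : b ≠ x := by
      rcases hxef with rfl | rfl
      · exact be
      · exact bf
    -- no pair of `y` inside `{i, x}` with `i ∈ {a, b}`
    have hno : ∀ (R : Set (Fin 6)) (i : Fin 6), (i = a ∨ i = b) → (∀ j ∈ R, j = i ∨ j = x) →
        ¬ P ⊆ R ∧ ¬ Q ⊆ R := by
      intro R i hi hR
      constructor
      · intro hPR
        rw [hP] at hPR
        have h5 := hR e (hPR (Or.inl rfl))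
        have h6 := hR f (hPR (Or.inr rfl))
        rcases hi with rfl | rfl
        · rcases h5 with h5 | h5
          · exact ae h5.symm
          · rcases h6 with h6 | h6
            · exact af h6.symm
            · exact ef (h5.trans h6.symm)
        · rcases h5 with h5 | h5
          · exact be h5.symm
          · rcases h6 with h6 | h6
            · exact bf h6.symm
            · exact ef (h5.trans h6.symm)
      · intro hQR
        refine pair_one353 (x := i) hy.cQ fun j hj => ?_
        rcases hR j (hQR hj) with h5 | h5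
        · exact h5
        · exfalso
          have h6 : j ∈ P := by
            rw [hP, h5]
            rcases hxef with rfl | rfl
            · exact Or.inl rfl
            · exact Or.inr rfl
          exact Set.disjoint_left.1 hy.dj h6 hj
    -- `b ∉ T y`
    have hby : b ∉ T y := by
      intro hby
      obtain ⟨R, hR, haR, hcR⟩ := exists_pal353 C.irr hpy hpz k1 k2 haz
      have hR2 : ∀ j ∈ R, j = b ∨ j = x := by
        intro j hj
        rcases hx j (hR hj) with h5 | h5 | h5
        · exact absurd (h5 ▸ hj) haR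
        · exact Or.inl h5
        · exact Or.inr h5
      rcases pal_y353 hy hcR with ⟨i, hi, hiy⟩ | h5 | h5
      · rcases hR2 i hi with rfl | rfl
        · exact hiy hby
        · exact hiy hxy
      · exact (hno R b (Or.inr rfl) hR2).1 h5
      · exact (hno R b (Or.inr rfl) hR2).2 h5
    obtain ⟨R, hR, hbR, hcR⟩ := exists_pal353 C.irr hpy hpz k1 k2 hbz
    have hR2 : ∀ j ∈ R, j = a ∨ j = x := by
      intro j hj
      rcases hx j (hR hj) with h5 | h5 | h5
      · exact Or.inl h5
      · exact absurd (h5 ▸ hj) hbR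
      · exact Or.inr h5
    rcases pal_y353 hy hcR with ⟨i, hi, hiy⟩ | h5 | h5
    · rcases hR2 i hi with rfl | rfl
      · exact hiy hay
      · exact hiy hxy
    · exact (hno R a (Or.inl rfl) hR2).1 h5
    · exact (hno R a (Or.inl rfl) hR2).2 h5
  rcases hab with h | h
  · exact key C hap hbp h
  · refine key (a := b) (b := a) ⟨C.irr, ?_, ?_, ?_⟩ hbp hap h
    · rw [C.pal, insert_comm]
    · obtain ⟨⟨ab, ac, ad, ae, af⟩, ⟨bc, bd, be, bf⟩, ⟨cd, ce, cf⟩, ⟨de, df⟩, ef⟩ :=
        nd_all353 C.nd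
      simp [ab.symm, ac, ad, ae, af, bc, bd, be, bf, cd, ce, cf, de, df, ef]
    · intro w h1 h2 h3
      rw [pair_comm b a]
      exact C.pairs w h1 h2 h3

end Vale.Agent.P032.Six
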