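import Vale.Agent.P032.H738.LinkFin2

/-!
# P032: one corner without swap (finite part, helper353)

As `H738.cornerX`, without swap of the two free letters at the corner and without condition on the
slots beside the corner.
-/

namespace Vale.Agent.P032.H353

open Vale.Agent.P032.H98 (labN lab imp imp_mp codA codB cp cp_div cp_mod AdjOK OpOK Ct)
open Vale.Agent.P032.H738

/-- the check of the corners without swap -/
def chkN : Bool :=
  all16.all fun p1 => (nxA p1).all fun p2 => (nxA p2).all fun p3 =>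
    (nxA p3).all fun p4 => imp (opB p1 p4) ((nxA p4).all fun p5 =>
      imp (opB p2 p5) (imp (ct3 p1 p3 p5) (imp (ct3 p3 p5 p1)
        (imp (ct3 p5 p1 p3) (all16.all fun p0 => imp (opB p0 p3) (imp (adA p5 p0)
          (imp (adA p0 p1) (imp (ct3 p2 p4 p0) (imp (ct3 p4 p0 p2)
        (eqB (labN (codA p0 p1 p2 p3 p4 p5)) (labN (codB p0 p1 p2 p3 p4 p5))))))))))))

theorem chkN_true : chkN = true := by decide +kernel

/-- **one corner without swap**: the class does not change, or exactly one of the two classes is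
big -/
theorem cornerN (h h' : Fin 6 → Fin 4) (ct : ∀ j, j ≠ 0 → Ct (h j) (h' j) ∨
      (h (j + 2) ≤ 1 ∧ h' (j + 2) ≤ 1 ∧ h (j + 4) ≤ 1 ∧ h' (j + 4) ≤ 1))
    (adj : ∀ j, AdjOK (h j) (h' j) (h (j + 1)) (h' (j + 1)))
    (op : ∀ j, OpOK (h j) (h' j) (h (j + 3)) (h' (j + 3))) :
    lab h = lab h' ∨ (big (lab h) ↔ ¬ big (lab h')) := by
  have k1 := List.all_eq_true.1 chkN_true _ (mem_all (h 1) (h' 1))
  have k2 := List.all_eq_true.1 k1 _ (mem_nxA _ _ _ _ (adj 1))
  have k3 := List.all_eq_true.1 k2 _ (mem_nxA _ _ _ _ (adj 2))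
  have k4 := imp_mp (List.all_eq_true.1 k3 _ (mem_nxA _ _ _ _ (adj 3))) (opB_of _ _ _ _ (op 1))
  have k5 := List.all_eq_true.1 k4 _ (mem_nxA _ _ _ _ (adj 4))
  have k5' := imp_mp (imp_mp (imp_mp (imp_mp k5
    (opB_of _ _ _ _ (op 2))) (ct3_of (ct 1 (by decide)))) (ct3_of (ct 3 (by decide))))
    (ct3_of (ct 5 (by decide)))
  have k0 := List.all_eq_true.1 k5' _ (mem_all (h 0) (h' 0))
  have k6 := imp_mp (imp_mp (imp_mp (imp_mp (imp_mp k0 (opB_of _ _ _ _ (op 0)))
    (adA_of _ _ _ _ (adj 5))) (adA_of _ _ _ _ (adj 0))) (ct3_of (ct 2 (by decide))))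
    (ct3_of (ct 4 (by decide)))
  have k7 := eqB_imp k6
  unfold codA codB at k7
  simp only [cp_div, cp_mod] at k7
  exact k7

end Vale.Agent.P032.H353
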