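import Vale.Agent.P032.H98.Star
import Vale.Agent.P032.H353.Apex
import Vale.Agent.P032.H353.CornerFin

/-!
# P032: a two-pair point has at least two ends of the same free colour (helper353)

`z` a two-pair point with the pairs `ab | cd` and the free colours `e, f`.  `Harm353 T e f y` : `y` has
four colours in two pairs, `e` is one of them, `{e, f}` is no pair (types `K_e`, `EE`, `HE`).

`Irr.one_corner353` : `y₀` any point.  It is impossible that all points `y ≠ y₀` of `S(z)` have at most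
three colours (and then not the colour `f` if they are in the closed `ab`- and `cd`-arcs), or the
palette of `z`, or are harmless (with apexes of order at most three or with the palette of `z`), and
`y₀` has at most three colours, or the palette of `z`, or four colours in two pairs with apexes of
order at most three.
-/

open Set Filter Topology Metric

noncomputable section

namespace Vale.Agent.P032.Six

open Vale.Agent.P032.S5.H767 Vale.Agent.P032.S5.H122 Vale.Agent.P032.Sweep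

variable {U : Fin 6 → Set ℂ} {T : ℂ → Set (Fin 6)} {z y p y₀ : ℂ} {a b c d e f : Fin 6}

/-- a harmless neighbour with four colours (types `K_e`, `EE`, `HE`) -/
def Harm353 (T : ℂ → Set (Fin 6)) (e f : Fin 6) (y : ℂ) : Prop :=
  ∃ P Q, PQ738 T y P Q ∧ P ≠ {e, f} ∧ Q ≠ {e, f} ∧ e ∈ T y

/-- the two pairs in the other order -/
theorem Ctr.swap353 (C : Ctr U T z a b c d e f) : Ctr U T z c d a b e f := by
  refine ⟨C.irr, ?_, ?_, ?_⟩
  · rw [C.pal]; ext i; simp only [mem_insert_iff, mem_singleton_iff]; tauto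
  · obtain ⟨⟨ab, ac, ad, ae, af⟩, ⟨bc, bd, be, bf⟩, ⟨cd, ce, cf⟩, ⟨de, df⟩, ef⟩ :=
      nd_all353 C.nd
    simp [ab, ac.symm, ad.symm, ae, af, bc.symm, bd.symm, be, bf, cd, ce, cf, de, df, ef]
  · intro w h1 h2 h3
    exact (C.pairs w h1 h2 h3).symm

/-- three colours `x, w, v` in `T p` and in `T y`, at most three in `T p` -/
theorem sub_of_three353 {M N : Set (Fin 6)} (h3 : M.ncard ≤ 3) {x w v : Fin 6} (xw : x ≠ w)
    (xv : x ≠ v) (wv : w ≠ v) (h1 : x ∈ M) (h2 : w ∈ M) (h4 : v ∈ M) (k1 : x ∈ N) (k2 : w ∈ N)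
    (k4 : v ∈ N) : M ⊆ N := by
  intro i hi
  by_contra hcon
  exact four_false h3 h1 h2 h4 hi xw xv (fun h => hcon (h ▸ k1)) wv (fun h => hcon (h ▸ k2))
    (fun h => hcon (h ▸ k4))

/-- **swaps between a neighbour of order four and an apex of order at most three**: only `e` and
`f`, and only if `{e, f}` is a pair -/
theorem swap_exc353 (C : Ctr U T z a b c d e f) {P Q : Set (Fin 6)} (hy : PQ738 T y P Q)
    (hyz : dist y z = 1) (hpz : dist p z = 1) (hpy : dist p y = 1) (h3 : (T p).ncard ≤ 3)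
    {l m : Fin 4} (hlm : l ≠ m) (hl : y ∈ Lt T z a b c d e f l) (hm : y ∈ Lt T z a b c d e f m)
    (hl' : p ∈ Lt T z a b c d e f l) (hm' : p ∈ Lt T z a b c d e f m) :
    (P = {e, f} ∨ Q = {e, f}) ∧ l ≤ 1 ∧ m ≤ 1 := by
  obtain ⟨⟨ab, ac, ad, ae, af⟩, ⟨bc, bd, be, bf⟩, ⟨cd, ce, cf⟩, ⟨de, df⟩, ef⟩ := nd_all353 C.nd
  have cl := Lt_col C.irr hl
  have cm := Lt_col C.irr hm
  have cl' := Lt_col C.irr hl'
  have cm' := Lt_col C.irr hm'
  -- a pair letter together with a single letter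
  have key : ∀ {x : Fin 6}, (x = e ∨ x = f) → x ∈ T y → x ∈ T p →
      ((a ∈ T y ∧ b ∈ T y ∧ a ∈ T p ∧ b ∈ T p) ∨ (c ∈ T y ∧ d ∈ T y ∧ c ∈ T p ∧ d ∈ T p)) →
      False := by
    intro x hx hxy hxp h
    by_cases hef : P = {e, f} ∨ Q = {e, f}
    · have hno : ∀ {P Q : Set (Fin 6)}, PQ738 T y P Q → P = {e, f} → False := by
        intro P Q hy hP
        rcases h with ⟨h1, h2, h4, h5⟩ | ⟨h1, h2, h4, h5⟩
        · exact noA353 C hy hP hyz hpz hpy h3 h4 h5 (Or.inl h1)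
        · exact noA353 (Ctr.swap353 C) hy hP hyz hpz hpy h3 h4 h5 (Or.inl h1)
      rcases hef with hef | hef
      · exact hno hy hef
      · exact hno hy.symm hef
    · push Not at hef
      refine ns1_738 C hy hef.1 hef.2 hyz hpz hpy h3 ?_
      rcases h with ⟨h1, h2, h4, h5⟩ | ⟨h1, h2, h4, h5⟩
      · refine sub_of_three353 h3 ab ?_ ?_ h4 h5 hxp h1 h2 hxy
        · rcases hx with rfl | rfl
          · exact ae
          · exact af
        · rcases hx with rfl | rfl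
          · exact be
          · exact bf
      · refine sub_of_three353 h3 cd ?_ ?_ h4 h5 hxp h1 h2 hxy
        · rcases hx with rfl | rfl
          · exact ce
          · exact cf
        · rcases hx with rfl | rfl
          · exact de
          · exact df
  have h0 : ∀ {w : ℂ}, col a b c d e f 0 ⊆ T w → e ∈ T w := fun h => h rfl
  have h1 : ∀ {w : ℂ}, col a b c d e f 1 ⊆ T w → f ∈ T w := fun h => h rfl
  have h2 : ∀ {w : ℂ}, col a b c d e f 2 ⊆ T w → a ∈ T w ∧ b ∈ T w := fun h =>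
    ⟨h (Or.inl rfl), h (Or.inr rfl)⟩
  have h4 : ∀ {w : ℂ}, col a b c d e f 3 ⊆ T w → c ∈ T w ∧ d ∈ T w := fun h =>
    ⟨h (Or.inl rfl), h (Or.inr rfl)⟩
  have hEF : e ∈ T y → f ∈ T y → e ∈ T p → f ∈ T p → P = {e, f} ∨ Q = {e, f} := by
    intro k1 k2 k3 k4
    by_contra hcon
    push Not at hcon
    exact ns2_738 C hy hcon.1 hcon.2 hyz hpz hpy h3 k1 k2 k3 k4
  have hl4 : l = 0 ∨ l = 1 ∨ l = 2 ∨ l = 3 := by fin_cases l <;> decide
  have hm4 : m = 0 ∨ m = 1 ∨ m = 2 ∨ m = 3 := by fin_cases m <;> decide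
  rcases hl4 with rfl | rfl | rfl | rfl <;> rcases hm4 with rfl | rfl | rfl | rfl
  · exact absurd rfl hlm
  · exact ⟨hEF (h0 cl) (h1 cm) (h0 cl') (h1 cm'), by decide, by decide⟩
  · exact (key (Or.inl rfl) (h0 cl) (h0 cl')
      (Or.inl ⟨(h2 cm).1, (h2 cm).2, (h2 cm').1, (h2 cm').2⟩)).elim
  · exact (key (Or.inl rfl) (h0 cl) (h0 cl')
      (Or.inr ⟨(h4 cm).1, (h4 cm).2, (h4 cm').1, (h4 cm').2⟩)).elim
  · exact ⟨hEF (h0 cm) (h1 cl) (h0 cm') (h1 cl'), by decide, by decide⟩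
  · exact absurd rfl hlm
  · exact (key (Or.inr rfl) (h1 cl) (h1 cl')
      (Or.inl ⟨(h2 cm).1, (h2 cm).2, (h2 cm').1, (h2 cm').2⟩)).elim
  · exact (key (Or.inr rfl) (h1 cl) (h1 cl')
      (Or.inr ⟨(h4 cm).1, (h4 cm).2, (h4 cm').1, (h4 cm').2⟩)).elim
  · exact (key (Or.inl rfl) (h0 cm) (h0 cm')
      (Or.inl ⟨(h2 cl).1, (h2 cl).2, (h2 cl').1, (h2 cl').2⟩)).elim
  · exact (key (Or.inr rfl) (h1 cm) (h1 cm')
      (Or.inl ⟨(h2 cl).1, (h2 cl).2, (h2 cl').1, (h2 cl').2⟩)).elim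
  · exact absurd rfl hlm
  · exact (four_false h3 (h2 cl').1 (h2 cl').2 (h4 cm').1 (h4 cm').2 ab ac ad bc bd cd).elim
  · exact (key (Or.inl rfl) (h0 cm) (h0 cm')
      (Or.inr ⟨(h4 cl).1, (h4 cl).2, (h4 cl').1, (h4 cl').2⟩)).elim
  · exact (key (Or.inr rfl) (h1 cm) (h1 cm')
      (Or.inr ⟨(h4 cl).1, (h4 cl).2, (h4 cl').1, (h4 cl').2⟩)).elim
  · exact (four_false h3 (h2 cm').1 (h2 cm').2 (h4 cl').1 (h4 cl').2 ab ac ad bc bd cd).elim
  · exact absurd rfl hlm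

/-- **the points at `120` degrees from a neighbour of the type `HE`**: no pair letters -/
theorem he_two353 (C : Ctr U T z a b c d e f) (hz : DPt T z a b c d) {P Q : Set (Fin 6)}
    (hy : PQ738 T y P Q) (hP : P ≠ {e, f}) (hQ : Q ≠ {e, f}) (hyz : dist y z = 1)
    (ha : a ∈ T y) (hb : b ∈ T y) (he : e ∈ T y) (hf : f ∈ T y) {p p' : ℂ} (hpz : dist p z = 1)
    (hpy : dist p y = 1) (hpz' : dist p' z = 1) (hpy' : dist p' y = 1)
    (h3 : (T p).ncard ≤ 3 ∨ T p = T z) (h3' : (T p').ncard ≤ 3 ∨ T p' = T z) {v : ℂ}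
    (hv : v = p + z - y) (hv' : v = 2 * z - p') :
    v ∉ closure (Ex T z {a, b}) ∧ v ∉ closure (Ex T z {c, d}) := by
  obtain ⟨⟨ab, ac, ad, ae, af⟩, ⟨bc, bd, be, bf⟩, ⟨cd, ce, cf⟩, ⟨de, df⟩, ef⟩ := nd_all353 C.nd
  have s1 := he_seen353 C hy hP hQ hyz hpz hpy ha hb he hf h3
  have s2 := he_seen353 C hy hP hQ hyz hpz' hpy' ha hb he hf h3'
  have t1 : ({c, d} : Set (Fin 6)) ⊆ T p := sub_of_closure C.irr s1
  have t2 : ({c, d} : Set (Fin 6)) ⊆ T p' := sub_of_closure C.irr s2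
  have hTy := four_eq353 hy.four353.le (by simp [ab, ae, af, be, bf, ef]) ha hb he hf
  constructor
  · rw [hv']
    exact C.irr.anti_clo hz hpz' (t2 (Or.inl rfl)) (t2 (Or.inr rfl))
  · rw [hv]
    have hout : ∀ i, i ∉ T y → i ∈ ({c, d} : Set (Fin 6)) := by
      intro i hi
      rcases C.all i with rfl | rfl | rfl | rfl | rfl | rfl
      · exact absurd ha hi
      · exact absurd hb hi
      · exact Or.inl rfl
      · exact Or.inr rfl
      · exact absurd he hi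
      · exact absurd hf hi
    have key : ∀ {P Q : Set (Fin 6)}, PQ738 T y P Q → Q ≠ {e, f} → ¬ P ⊆ T p \ {c, d} := by
      intro P Q hy hQ hPs
      rcases h3 with h3 | h3
      · obtain ⟨g, hg⟩ := third_of353 h3 cd (t1 (Or.inl rfl)) (t1 (Or.inr rfl))
        refine pair_one353 (x := g) hy.cP fun i hi => ?_
        obtain ⟨h1, h2⟩ := hPs hi
        rcases hg i h1 with h4 | h4 | h4
        · exact absurd (Or.inl h4) h2
        · exact absurd (Or.inr h4) h2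
        · exact h4
      · have hPab : P = {a, b} := by
          refine pair_in353 ab hy.cP fun i hi => ?_
          obtain ⟨h1, h2⟩ := hPs hi
          rw [h3, C.pal] at h1
          rcases h1 with h1 | h1 | h1
          · exact Or.inl h1
          · exact Or.inr h1
          · exact absurd h1 h2
        exact hQ (hy.other353 (w := a) (x := b) hTy hPab ef)
    exact prod353 C.irr hy hyz hpz hpy hout (key hy hQ) (key hy.symm hP)

/-- **the points at `120` degrees from a neighbour with the pair `{e, f}`**: not the pair letter of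
the apex between -/
theorem ref353 (C : Ctr U T z a b c d e f) {P Q : Set (Fin 6)} (hy : PQ738 T y P Q)
    (hP : P = {e, f}) (hyz : dist y z = 1) (hpz : dist p z = 1) (hpy : dist p y = 1)
    (h3 : (T p).ncard ≤ 3) (hap : a ∈ T p) (hbp : b ∈ T p) :
    p + z - y ∉ closure (Ex T z {a, b}) := by
  obtain ⟨⟨ab, ac, ad, ae, af⟩, ⟨bc, bd, be, bf⟩, ⟨cd, ce, cf⟩, ⟨de, df⟩, ef⟩ := nd_all353 C.nd
  have hay : a ∉ T y := fun h => noA353 C hy hP hyz hpz hpy h3 hap hbp (Or.inl h)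
  have hby : b ∉ T y := fun h => noA353 C hy hP hyz hpz hpy h3 hap hbp (Or.inr h)
  have hout : ∀ i, i ∉ T y → i ∈ ({a, b} : Set (Fin 6)) := by
    have h1 : ((T y)ᶜ).ncard = 2 := by
      have h2 := Set.ncard_add_ncard_compl (T y)
      rw [hy.four353, Nat.card_eq_fintype_card, Fintype.card_fin] at h2
      omega
    have h2 : ({a, b} : Set (Fin 6)) = (T y)ᶜ := by
      refine Set.eq_of_subset_of_ncard_le ?_ (by rw [h1, Set.ncard_pair ab]) (Set.toFinite _)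
      rintro i (rfl | hi)
      · exact hay
      · rw [mem_singleton_iff] at hi; subst hi; exact hby
    intro i hi
    rw [h2]; exact hi
  have key : ∀ {R : Set (Fin 6)}, R.ncard = 2 → ¬ R ⊆ T p \ {a, b} := by
    intro R hR hs
    obtain ⟨g, hg⟩ := third_of353 h3 ab hap hbp
    refine pair_one353 (x := g) hR fun i hi => ?_
    obtain ⟨h1, h2⟩ := hs hi
    rcases hg i h1 with h4 | h4 | h4
    · exact absurd (Or.inl h4) h2
    · exact absurd (Or.inr h4) h2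
    · exact h4
  exact prod353 C.irr hy hyz hpz hpy hout (key hy.cP) (key hy.cQ)

/-! ### The structure -/

/-- all neighbours except `y₀` satisfy the conditions of the mode of `e` -/
structure St353 (U : Fin 6 → Set ℂ) (T : ℂ → Set (Fin 6)) (z : ℂ) (a b c d e f : Fin 6) (y₀ : ℂ) :
    Prop where
  irr : Irr U T
  dpt : DPt T z a b c d
  nd : [a, b, c, d, e, f].Nodup
  hJ : ∀ y, dist y z = 1 → y ≠ y₀ → (T y).ncard ≤ 3 ∨ T y = T z ∨ Harm353 T e f y
  hAp : ∀ y p, dist y z = 1 → dist p z = 1 → dist p y = 1 → y ≠ y₀ → Harm353 T e f y →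
    (T p).ncard ≤ 3 ∨ T p = T z
  h0 : (T y₀).ncard ≤ 3 ∨ T y₀ = T z ∨ ((∃ P Q, PQ738 T y₀ P Q) ∧
    ∀ p, dist p z = 1 → dist p y₀ = 1 → (T p).ncard ≤ 3)
  hA : ∀ y ∈ closure (Ex T z {a, b}), y ≠ y₀ → (T y).ncard ≤ 3 → f ∉ T y
  hC : ∀ y ∈ closure (Ex T z {c, d}), y ≠ y₀ → (T y).ncard ≤ 3 → f ∉ T y

namespace St353

theorem ctr (S : St353 U T z a b c d e f y₀) : Ctr U T z a b c d e f where
  irr := S.irr
  pal := S.dpt.pal
  nd := S.nd
  pairs := fun y hy hloc hsub => S.irr.twoPairs S.dpt y hy hloc hsub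

theorem swap (S : St353 U T z a b c d e f y₀) : St353 U T z c d a b e f y₀ :=
  ⟨S.irr, S.dpt.swap, (Ctr.swap353 S.ctr).nd, S.hJ, S.hAp, S.h0, S.hC, S.hA⟩

/-- the letters which are available at a point -/
theorem mem_Lt (S : St353 U T z a b c d e f y₀) {j : Fin 6} {l : Fin 4} {u : ℝ}
    (hu : u ∈ St98.X T z a b e f ((), j) l) : St98.pj z u j ∈ Lt T z a b c d e f l := by
  obtain ⟨P, hP, h1, h2⟩ := Xl_pal hu
  have hsub : P ⊆ T (St98.pj z u j) := sub_of_closure S.irr h2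
  have hP : lt98 a b e f P = l := hP
  unfold lt98 at hP
  by_cases he : e ∈ P
  · rw [if_pos he] at hP
    subst hP
    exact ⟨St98.dist_pj z u j, hsub he⟩
  rw [if_neg he] at hP
  by_cases hf : f ∈ P
  · rw [if_pos hf] at hP
    subst hP
    exact ⟨St98.dist_pj z u j, hsub hf⟩
  rw [if_neg hf] at hP
  by_cases hab : P = {a, b}
  · rw [if_pos hab] at hP
    subst hP
    subst hab
    exact h2
  rw [if_neg hab] at hP
  subst hP
  have hcd : P = {c, d} := by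
    rcases pal_z353 S.ctr h2 with h | h | h | h
    · exact absurd h he
    · exact absurd h hf
    · exact absurd h hab
    · exact h
  rw [hcd] at h2
  exact h2

/-- `A` and `C` are not available at opposite slots -/
theorem opp (S : St353 U T z a b c d e f y₀) {j : Fin 6} {u : ℝ}
    (h2 : u ∈ St98.X T z a b e f ((), j) 2) (h3 : u ∈ St98.X T z a b e f ((), j + 3) 3) :
    False := by
  have k2 : St98.pj z u j ∈ closure (Ex T z {a, b}) := S.mem_Lt h2
  have k3 : St98.pj z u (j + 3) ∈ closure (Ex T z {c, d}) := S.mem_Lt h3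
  have hsub : ({c, d} : Set (Fin 6)) ⊆ T (St98.pj z u (j + 3)) := sub_of_closure S.irr k3
  refine S.irr.anti_clo S.dpt (St98.dist_pj z u (j + 3)) (hsub (by simp)) (hsub (by simp)) ?_
  rw [St98.pj_add3, sub_sub_cancel]
  exact k2

theorem sw (S : St353 U T z a b c d e f y₀) : Sw (St98.X T z a b e f) St98.Leg := by
  refine sw_of S.irr dense_univ fun u _ hu => ?_
  have hav : ∀ j : Fin 6, u ∈ St98.X T z a b e f ((), j) (lt98 a b e f (T (St98.pj z u j))) :=
    fun j => (Xl_Lc (hu ((), j))).2 rfl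
  constructor
  · intro j hj
    have hj : lt98 a b e f (T (St98.pj z u j)) = lt98 a b e f (T (St98.pj z u (j + 1))) := hj
    have hdis : Disjoint (T (St98.pj z u j)) (T (St98.pj z u (j + 1))) := by
      rw [St98.pj_succ]; exact dj_sixty S.irr (hu ((), j))
    obtain ⟨t, ht⟩ := col_nonempty (a := a) (b := b) (c := c) (d := d) (e := e) (f := f)
      (lt98 a b e f (T (St98.pj z u j)))
    have h1 := Lt_col S.irr (S.mem_Lt (hav j)) ht
    have h2 := Lt_col S.irr (S.mem_Lt (hav (j + 1))) (hj ▸ ht)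
    exact Set.disjoint_left.1 hdis h1 h2
  · rintro j ⟨h2, h3⟩
    have h2 : lt98 a b e f (T (St98.pj z u j)) = 2 := h2
    have h3 : lt98 a b e f (T (St98.pj z u (j + 3))) = 3 := h3
    exact S.opp (h2 ▸ hav j) (h3 ▸ hav (j + 3))

/-- the point between two points of the hexagon -/
theorem pj_mid (z : ℂ) (u : ℝ) (j : Fin 6) :
    St98.pj z u (j + 2) = St98.pj z u (j + 1) + z - St98.pj z u j := by
  have e2 : j + 2 = j + 1 + 1 := by rw [add_assoc]; rfl
  have h1 : St98.pj z u (j + 2) = pt z (0 + u + (j.val : ℝ) + 2) := by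
    rw [e2, St98.pj_succ]
    have h2 : ((j + 1 : Fin 6).val : ℝ) = (j.val : ℝ) + 1 ∨
        ((j + 1 : Fin 6).val : ℝ) + 6 = (j.val : ℝ) + 1 := by
      have : (j + 1 : Fin 6).val = j.val + 1 ∨ (j + 1 : Fin 6).val + 6 = j.val + 1 := by
        revert j; decide
      rcases this with h | h
      · left; rw [h]; push_cast; ring
      · right
        have h4 : (((j + 1 : Fin 6).val + 6 : ℕ) : ℝ) = ((j.val + 1 : ℕ) : ℝ) := by rw [h]
        push_cast at h4; exact h4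
    rcases h2 with h2 | h2
    · rw [h2]; congr 1; ring
    · rw [show 0 + u + (j.val : ℝ) + 2 = 0 + u + ((j + 1 : Fin 6).val : ℝ) + 1 + 6 by
        linear_combination -h2, pt_six]
  rw [h1, St98.pj_succ, St98.pj]
  have h3 : ∀ s : ℝ, pt z (s + 2) = pt z (s + 1) + z - pt z s := by
    intro s
    have k1 : pt z (s + 2) = z + cis (s * (Real.pi / 3)) * cis (Real.pi / 3) ^ 2 := by
      unfold pt
      rw [show (s + 2) * (Real.pi / 3) = s * (Real.pi / 3) + Real.pi / 3 + Real.pi / 3 by ring,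
        cis_add, cis_add]
      ring
    have k2 : pt z (s + 1) = z + cis (s * (Real.pi / 3)) * cis (Real.pi / 3) := by
      unfold pt
      rw [show (s + 1) * (Real.pi / 3) = s * (Real.pi / 3) + Real.pi / 3 by ring, cis_add]
    have k3 : cis (Real.pi / 3) ^ 2 = cis (Real.pi / 3) - 1 := by
      rw [cis_third]
      have h5 : (√3 : ℝ) ^ 2 = 3 := Real.sq_sqrt (by norm_num)
      apply Complex.ext
      · simp [pow_two]
        nlinarith
      · simp [pow_two]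
        ring
    rw [k1, k2, k3]
    unfold pt
    ring
  exact h3 _

theorem add5 (j : Fin 6) : j + 5 + 1 = j := by rw [add_assoc]; exact add_zero j

theorem add4 (j : Fin 6) : j + 4 + 2 = j := by rw [add_assoc]; exact add_zero j

theorem add41 (j : Fin 6) : j + 4 + 1 = j + 5 := by rw [add_assoc]; rfl

theorem add31 (j : Fin 6) : j + 5 + 3 = j + 2 := by rw [add_assoc]; rfl

theorem add13 (j : Fin 6) : j + 1 + 3 = j + 4 := by rw [add_assoc]; rfl

theorem dist_pj_pred (z : ℂ) (u : ℝ) (j : Fin 6) :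
    dist (St98.pj z u (j + 5)) (St98.pj z u j) = 1 := by
  have h1 := St98.dist_pj_succ z u (j + 5)
  rwa [add5] at h1

/-- the points `j + 2`, `j + 4` -/
theorem pj_two (z : ℂ) (u : ℝ) (j : Fin 6) :
    St98.pj z u (j + 2) = St98.pj z u (j + 1) + z - St98.pj z u j ∧
      St98.pj z u (j + 2) = 2 * z - St98.pj z u (j + 5) := by
  refine ⟨pj_mid z u j, ?_⟩
  have h1 := St98.pj_add3 z u (j + 5)
  rwa [add31] at h1

theorem pj_four (z : ℂ) (u : ℝ) (j : Fin 6) :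
    St98.pj z u (j + 4) = St98.pj z u (j + 5) + z - St98.pj z u j ∧
      St98.pj z u (j + 4) = 2 * z - St98.pj z u (j + 1) := by
  constructor
  · have h1 := pj_mid z u (j + 4)
    rw [add4, add41] at h1
    rw [h1]; ring
  · have h1 := St98.pj_add3 z u (j + 1)
    rwa [add13] at h1

/-- no letter `e`, `f` at a point with the palette of `z` -/
theorem noEF_of_eq (S : St353 U T z a b c d e f y₀) {y : ℂ} (hy : T y = T z) {l : Fin 4}
    (hl : y ∈ Lt T z a b c d e f l) : l = 2 ∨ l = 3 := by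
  obtain ⟨⟨ab, ac, ad, ae, af⟩, ⟨bc, bd, be, bf⟩, ⟨cd, ce, cf⟩, ⟨de, df⟩, ef⟩ := nd_all353 S.nd
  have he : e ∉ T y := by
    rw [hy, S.dpt.pal]
    simp only [mem_insert_iff, mem_singleton_iff, not_or]
    exact ⟨Ne.symm ae, Ne.symm be, Ne.symm ce, Ne.symm de⟩
  have hf : f ∉ T y := by
    rw [hy, S.dpt.pal]
    simp only [mem_insert_iff, mem_singleton_iff, not_or]
    exact ⟨Ne.symm af, Ne.symm bf, Ne.symm cf, Ne.symm df⟩
  have h4 : l = 0 ∨ l = 1 ∨ l = 2 ∨ l = 3 := by fin_cases l <;> decide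
  rcases h4 with rfl | rfl | h4 | h4
  · exact absurd hl.2 he
  · exact absurd hl.2 hf
  · exact Or.inl h4
  · exact Or.inr h4

/-- a point which is not `y₀`, with the letters `f` and `A`: no pair letters at `120` degrees -/
theorem far_A (S : St353 U T z a b c d e f y₀) {y p p' : ℂ} (hy0 : y ≠ y₀)
    (h1 : y ∈ Lt T z a b c d e f 1) (h2 : y ∈ Lt T z a b c d e f 2) (hpz : dist p z = 1)
    (hpy : dist p y = 1) (hpz' : dist p' z = 1) (hpy' : dist p' y = 1) {v : ℂ}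
    (hv : v = p + z - y) (hv' : v = 2 * z - p') :
    v ∉ closure (Ex T z {a, b}) ∧ v ∉ closure (Ex T z {c, d}) := by
  have hyz := Lt_dist h1
  have c2 := Lt_col S.irr h2
  rcases S.hJ y hyz hy0 with h3 | h3 | ⟨P, Q, hPQ, hP, hQ, he⟩
  · exact absurd h1.2 (S.hA y h2 hy0 h3)
  · rcases S.noEF_of_eq h3 h1 with h4 | h4 <;> exact absurd h4 (by decide)
  · exact he_two353 S.ctr S.dpt hPQ hP hQ hyz (c2 (Or.inl rfl)) (c2 (Or.inr rfl)) he h1.2 hpz hpy
      hpz' hpy' (S.hAp y p hyz hpz hpy hy0 ⟨P, Q, hPQ, hP, hQ, he⟩)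
      (S.hAp y p' hyz hpz' hpy' hy0 ⟨P, Q, hPQ, hP, hQ, he⟩) hv hv'

/-- the same for the letters `f` and `A` or `C` -/
theorem far (S : St353 U T z a b c d e f y₀) {y p p' : ℂ} (hy0 : y ≠ y₀)
    (h1 : y ∈ Lt T z a b c d e f 1) (h2 : y ∈ Lt T z a b c d e f 2 ∨ y ∈ Lt T z a b c d e f 3)
    (hpz : dist p z = 1) (hpy : dist p y = 1) (hpz' : dist p' z = 1) (hpy' : dist p' y = 1)
    {v : ℂ} (hv : v = p + z - y) (hv' : v = 2 * z - p') {n : Fin 4}
    (hn : v ∈ Lt T z a b c d e f n) : n ≤ 1 := by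
  have key : v ∉ closure (Ex T z {a, b}) ∧ v ∉ closure (Ex T z {c, d}) := by
    rcases h2 with h2 | h2
    · exact S.far_A hy0 h1 h2 hpz hpy hpz' hpy' hv hv'
    · have h3 := S.swap.far_A hy0 (y := y) h1 h2 hpz hpy hpz' hpy' hv hv'
      exact ⟨h3.2, h3.1⟩
  have h4 : n = 0 ∨ n = 1 ∨ n = 2 ∨ n = 3 := by fin_cases n <;> decide
  rcases h4 with rfl | rfl | rfl | rfl
  · decide
  · decide
  · exact absurd hn key.1
  · exact absurd hn key.2

/-- **one slot**: possible pairs of letters at a slot which is not `y₀` -/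
theorem ct (S : St353 U T z a b c d e f y₀) {u : ℝ} {g g' : Unit × Fin 6 → Fin 4}
    (ha : Av (St98.X T z a b e f) u g) (ha' : Av (St98.X T z a b e f) u g') {j : Fin 6}
    (hj : St98.pj z u j ≠ y₀) : H98.Ct (g ((), j)) (g' ((), j)) ∨
      (g ((), j + 2) ≤ 1 ∧ g' ((), j + 2) ≤ 1 ∧ g ((), j + 4) ≤ 1 ∧ g' ((), j + 4) ≤ 1) := by
  by_cases hct : H98.Ct (g ((), j)) (g' ((), j))
  · exact Or.inl hct
  right
  have k := S.mem_Lt (ha ((), j))
  have k' := S.mem_Lt (ha' ((), j))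
  have hfA : St98.pj z u j ∈ Lt T z a b c d e f 1 ∧ (St98.pj z u j ∈ Lt T z a b c d e f 2 ∨
      St98.pj z u j ∈ Lt T z a b c d e f 3) := by
    have hct' : (g ((), j) = 1 ∧ g' ((), j) = 2) ∨ (g ((), j) = 1 ∧ g' ((), j) = 3) ∨
        (g ((), j) = 2 ∧ g' ((), j) = 1) ∨ (g ((), j) = 3 ∧ g' ((), j) = 1) := by
      unfold H98.Ct at hct
      tauto
    rcases hct' with ⟨h1, h2⟩ | ⟨h1, h2⟩ | ⟨h1, h2⟩ | ⟨h1, h2⟩
    · rw [h1] at k; rw [h2] at k'; exact ⟨k, Or.inl k'⟩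
    · rw [h1] at k; rw [h2] at k'; exact ⟨k, Or.inr k'⟩
    · rw [h1] at k; rw [h2] at k'; exact ⟨k', Or.inl k⟩
    · rw [h1] at k; rw [h2] at k'; exact ⟨k', Or.inr k⟩
  have dz := fun i : Fin 6 => St98.dist_pj z u i
  have d1 : dist (St98.pj z u (j + 1)) (St98.pj z u j) = 1 := by
    rw [dist_comm]; exact St98.dist_pj_succ z u j
  have d5 := dist_pj_pred z u j
  have t2 := pj_two z u j
  have t4 := pj_four z u j
  refine ⟨?_, ?_, ?_, ?_⟩
  · exact S.far hj hfA.1 hfA.2 (dz _) d1 (dz _) d5 t2.1 t2.2 (S.mem_Lt (ha ((), j + 2)))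
  · exact S.far hj hfA.1 hfA.2 (dz _) d1 (dz _) d5 t2.1 t2.2 (S.mem_Lt (ha' ((), j + 2)))
  · exact S.far hj hfA.1 hfA.2 (dz _) d5 (dz _) d1 t4.1 t4.2 (S.mem_Lt (ha ((), j + 4)))
  · exact S.far hj hfA.1 hfA.2 (dz _) d5 (dz _) d1 t4.1 t4.2 (S.mem_Lt (ha' ((), j + 4)))

/-- the apexes of an exceptional point -/
theorem exc (S : St353 U T z a b c d e f y₀) {y : ℂ} (hy : dist y z = 1)
    (h3 : ¬ (T y).ncard ≤ 3) (hz : T y ≠ T z) : ∃ P Q, PQ738 T y P Q ∧
      (P = {e, f} ∨ Q = {e, f} → y = y₀) ∧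
      (∀ p, dist p z = 1 → dist p y = 1 → (T p).ncard ≤ 3 ∨ (T p = T z ∧ y ≠ y₀)) := by
  by_cases hy0 : y = y₀
  · rcases S.h0 with h | h | ⟨⟨P, Q, hPQ⟩, h⟩
    · exact absurd (hy0 ▸ h) h3
    · exact absurd (hy0 ▸ h) hz
    · refine ⟨P, Q, hy0 ▸ hPQ, fun _ => hy0, fun p h1 h2 => Or.inl (h p h1 (hy0 ▸ h2))⟩
  · rcases S.hJ y hy hy0 with h | h | ⟨P, Q, hPQ, hP, hQ, he⟩
    · exact absurd h h3
    · exact absurd h hz
    · refine ⟨P, Q, hPQ, ?_, fun p h1 h2 => ?_⟩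
      · rintro (h | h)
        · exact absurd h hP
        · exact absurd h hQ
      · rcases S.hAp y p hy h1 h2 hy0 ⟨P, Q, hPQ, hP, hQ, he⟩ with h4 | h4
        · exact Or.inl h4
        · exact Or.inr ⟨h4, hy0⟩

/-- **swaps of neighbours**: `A`, `C`, or `e`, `f` at `y₀` -/
theorem noswap (S : St353 U T z a b c d e f y₀) {y y' : ℂ} {l m : Fin 4} (hlm : l ≠ m)
    (hyy : dist y y' = 1) (hl : y ∈ Lt T z a b c d e f l) (hm : y ∈ Lt T z a b c d e f m)
    (hl' : y' ∈ Lt T z a b c d e f l) (hm' : y' ∈ Lt T z a b c d e f m) :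
    ((l = 2 ∧ m = 3) ∨ (l = 3 ∧ m = 2)) ∨ (l ≤ 1 ∧ m ≤ 1 ∧
      ((y = y₀ ∧ (T y').ncard ≤ 3 ∧ ∃ P Q, PQ738 T y P Q ∧ P = {e, f}) ∨
      (y' = y₀ ∧ (T y).ncard ≤ 3 ∧ ∃ P Q, PQ738 T y' P Q ∧ P = {e, f}))) := by
  have hy := Lt_dist hl
  have hy' := Lt_dist hl'
  have fin : (l = 2 ∨ l = 3) → (m = 2 ∨ m = 3) → (l = 2 ∧ m = 3) ∨ (l = 3 ∧ m = 2) := by
    rintro (rfl | rfl) (rfl | rfl)
    · exact absurd rfl hlm
    · exact Or.inl ⟨rfl, rfl⟩
    · exact Or.inr ⟨rfl, rfl⟩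
    · exact absurd rfl hlm
  by_cases hz : T y = T z
  · exact Or.inl (fin (S.noEF_of_eq hz hl) (S.noEF_of_eq hz hm))
  by_cases hz' : T y' = T z
  · exact Or.inl (fin (S.noEF_of_eq hz' hl') (S.noEF_of_eq hz' hm'))
  by_cases h3 : (T y).ncard ≤ 3
  · by_cases h3' : (T y').ncard ≤ 3
    · exact (S.ctr.noswap hlm hyy h3 h3' hl hm hl' hm').elim
    · obtain ⟨P, Q, hPQ, hef, -⟩ := S.exc hy' h3' hz'
      obtain ⟨h5, h6, h7⟩ := swap_exc353 S.ctr hPQ hy' hy hyy h3 hlm hl' hm' hl hm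
      refine Or.inr ⟨h6, h7, Or.inr ⟨hef h5, h3, ?_⟩⟩
      rcases h5 with h5 | h5
      · exact ⟨P, Q, hPQ, h5⟩
      · exact ⟨Q, P, hPQ.symm, h5⟩
  · obtain ⟨P, Q, hPQ, hef, hap⟩ := S.exc hy h3 hz
    have hyy' : dist y' y = 1 := by rw [dist_comm]; exact hyy
    rcases hap y' hy' hyy' with h3' | h3'
    · obtain ⟨h5, h6, h7⟩ := swap_exc353 S.ctr hPQ hy hy' hyy' h3' hlm hl hm hl' hm'
      refine Or.inr ⟨h6, h7, Or.inl ⟨hef h5, h3', ?_⟩⟩
      rcases h5 with h5 | h5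
      · exact ⟨P, Q, hPQ, h5⟩
      · exact ⟨Q, P, hPQ.symm, h5⟩
    · exact absurd h3'.1 hz'

/-- the condition for opposite slots -/
theorem opOK (S : St353 U T z a b c d e f y₀) {u : ℝ} {g g' : Unit × Fin 6 → Fin 4}
    (ha : Av (St98.X T z a b e f) u g) (ha' : Av (St98.X T z a b e f) u g') (j : Fin 6) :
    H98.OpOK (g ((), j)) (g' ((), j)) (g ((), j + 3)) (g' ((), j + 3)) := by
  have e3 : j + 3 + 3 = j := by rw [add_assoc]; exact add_zero j
  constructor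
  · rintro ⟨h1, h2⟩
    have k1 : u ∈ St98.X T z a b e f ((), j) 2 := by
      rcases h1 with h1 | h1
      · rw [← h1]; exact ha ((), j)
      · rw [← h1]; exact ha' ((), j)
    have k2 : u ∈ St98.X T z a b e f ((), j + 3) 3 := by
      rcases h2 with h2 | h2
      · rw [← h2]; exact ha ((), j + 3)
      · rw [← h2]; exact ha' ((), j + 3)
    exact S.opp k1 k2
  · rintro ⟨h1, h2⟩
    have k1 : u ∈ St98.X T z a b e f ((), j + 3 + 3) 3 := by
      rw [e3]
      rcases h1 with h1 | h1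
      · rw [← h1]; exact ha ((), j)
      · rw [← h1]; exact ha' ((), j)
    have k2 : u ∈ St98.X T z a b e f ((), j + 3) 2 := by
      rcases h2 with h2 | h2
      · rw [← h2]; exact ha ((), j + 3)
      · rw [← h2]; exact ha' ((), j + 3)
    exact S.opp k2 k1

/-- neighbouring slots, none of them `y₀` -/
theorem adjOK (S : St353 U T z a b c d e f y₀) {u : ℝ} {g g' : Unit × Fin 6 → Fin 4}
    (hg : St98.Leg g) (hg' : St98.Leg g') (ha : Av (St98.X T z a b e f) u g)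
    (ha' : Av (St98.X T z a b e f) u g') (j : Fin 6) (h1 : St98.pj z u j ≠ y₀)
    (h2 : St98.pj z u (j + 1) ≠ y₀) :
    H98.AdjOK (g ((), j)) (g' ((), j)) (g ((), j + 1)) (g' ((), j + 1)) := by
  refine ⟨hg.1 j, hg'.1 j, ?_⟩
  rintro ⟨k1, k2, k3, k4⟩
  rcases S.noswap k1 (St98.dist_pj_succ z u j) (S.mem_Lt (ha ((), j))) (S.mem_Lt (ha' ((), j)))
    (by rw [k2]; exact S.mem_Lt (ha' ((), j + 1))) (by rw [k3]; exact S.mem_Lt (ha ((), j + 1)))
    with h | ⟨-, -, ⟨h, -⟩ | ⟨h, -⟩⟩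
  · exact k4 h
  · exact h1 h
  · exact h2 h

/-- **the step** at a time without `y₀` -/
theorem loc (S : St353 U T z a b c d e f y₀) {u : ℝ} (hu : ∀ j, St98.pj z u j ≠ y₀)
    {g g' : Unit × Fin 6 → Fin 4} (hg : St98.Leg g) (hg' : St98.Leg g')
    (ha : Av (St98.X T z a b e f) u g) (ha' : Av (St98.X T z a b e f) u g') :
    H98.lab (fun j => g ((), j)) = H98.lab (fun j => g' ((), j)) :=
  H738.tieX _ _ (fun j => S.ct ha ha' (hu j))
    (fun j => S.adjOK hg hg' ha ha' j (hu j) (hu (j + 1))) (fun j => S.opOK ha ha' j)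

/-- the pair letters next to `y₀` -/
theorem ref (S : St353 U T z a b c d e f y₀) {P Q : Set (Fin 6)} (hPQ : PQ738 T y₀ P Q)
    (hP : P = {e, f}) (hyz : dist y₀ z = 1) {p : ℂ} (hpz : dist p z = 1) (hpy : dist p y₀ = 1)
    (h3 : (T p).ncard ≤ 3) {X : Fin 4} (hX : X = 2 ∨ X = 3) (hp : p ∈ Lt T z a b c d e f X) :
    p + z - y₀ ∉ Lt T z a b c d e f X := by
  have hc := Lt_col S.irr hp
  rcases hX with rfl | rfl
  · exact ref353 S.ctr hPQ hP hyz hpz hpy h3 (hc (Or.inl rfl)) (hc (Or.inr rfl))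
  · exact ref353 (Ctr.swap353 S.ctr) hPQ hP hyz hpz hpy h3 (hc (Or.inl rfl)) (hc (Or.inr rfl))

/-- the apexes of `y₀` if it has the pair `{e, f}` -/
theorem apex0 (S : St353 U T z a b c d e f y₀) {P Q : Set (Fin 6)} (hPQ : PQ738 T y₀ P Q)
    (hP : P = {e, f}) : ∀ p, dist p z = 1 → dist p y₀ = 1 → (T p).ncard ≤ 3 := by
  have he : e ∈ T y₀ := hPQ.mem353.2 (Or.inl (by rw [hP]; exact Or.inl rfl))
  rcases S.h0 with h | h | ⟨-, h⟩
  · rw [hPQ.four353] at h; omega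
  · exfalso
    rw [h, S.dpt.pal] at he
    obtain ⟨⟨ab, ac, ad, ae, af⟩, ⟨bc, bd, be, bf⟩, ⟨cd, ce, cf⟩, ⟨de, df⟩, ef⟩ :=
      nd_all353 S.nd
    rcases he with he | he | he | he
    · exact ae he.symm
    · exact be he.symm
    · exact ce he.symm
    · exact de (mem_singleton_iff.1 he).symm
  · exact h

/-- **the step** at a time with `y₀` in the slot `0` -/
theorem loc0 (S : St353 U T z a b c d e f y₀) {u : ℝ} (h0 : St98.pj z u 0 = y₀)
    (hu : ∀ j, j ≠ 0 → St98.pj z u j ≠ y₀) {g g' : Unit × Fin 6 → Fin 4} (hg : St98.Leg g)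
    (hg' : St98.Leg g') (ha : Av (St98.X T z a b e f) u g) (ha' : Av (St98.X T z a b e f) u g') :
    H98.lab (fun j => g ((), j)) = H98.lab (fun j => g' ((), j)) ∨
      (H738.big (H98.lab (fun j => g ((), j))) ↔ ¬ H738.big (H98.lab (fun j => g' ((), j)))) := by
  have hyz : dist y₀ z = 1 := by rw [← h0]; exact St98.dist_pj z u 0
  by_cases hall : ∀ j, H98.AdjOK (g ((), j)) (g' ((), j)) (g ((), j + 1)) (g' ((), j + 1))
  · exact H353.cornerN _ _ (fun j hj => S.ct ha ha' (hu j hj)) hall (fun j => S.opOK ha ha' j)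
  push Not at hall
  obtain ⟨i, hadj⟩ := hall
  -- the pair `{e, f}` at `y₀`
  have hef : (∃ P Q, PQ738 T y₀ P Q ∧ P = {e, f}) ∧
      ∀ p, dist p z = 1 → dist p y₀ = 1 → (T p).ncard ≤ 3 := by
    unfold H98.AdjOK at hadj
    push Not at hadj
    obtain ⟨k1, k2, k3, k4⟩ := hadj (hg.1 i) (hg'.1 i)
    have k5 := S.noswap k1 (St98.dist_pj_succ z u i) (S.mem_Lt (ha ((), i)))
      (S.mem_Lt (ha' ((), i))) (by rw [k2]; exact S.mem_Lt (ha' ((), i + 1)))
      (by rw [k3]; exact S.mem_Lt (ha ((), i + 1)))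
    rcases k5 with h | ⟨-, -, ⟨h1, -, P, Q, h2, h4⟩ | ⟨h1, -, P, Q, h2, h4⟩⟩
    · exact absurd h (by tauto)
    · rw [h1] at h2
      exact ⟨⟨P, Q, h2, h4⟩, S.apex0 h2 h4⟩
    · rw [h1] at h2
      exact ⟨⟨P, Q, h2, h4⟩, S.apex0 h2 h4⟩
  obtain ⟨⟨P, Q, hPQ, hP⟩, hap⟩ := hef
  have href : ∀ s t : Fin 6, dist (St98.pj z u s) y₀ = 1 →
      St98.pj z u t = St98.pj z u s + z - y₀ → ∀ X : Fin 4, 2 ≤ X →
      (g ((), s) = X ∨ g' ((), s) = X) → g ((), t) ≠ X ∧ g' ((), t) ≠ X := by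
    intro s t h1 h2 X hX hor
    have hX' : X = 2 ∨ X = 3 := by
      have : ∀ X : Fin 4, 2 ≤ X → X = 2 ∨ X = 3 := by decide
      exact this X hX
    have hp : St98.pj z u s ∈ Lt T z a b c d e f X := by
      rcases hor with h | h
      · rw [← h]; exact S.mem_Lt (ha ((), s))
      · rw [← h]; exact S.mem_Lt (ha' ((), s))
    have hno : St98.pj z u t ∉ Lt T z a b c d e f X := by
      rw [h2]
      exact S.ref hPQ hP hyz (St98.dist_pj z u _) h1 (hap _ (St98.dist_pj z u _) h1) hX' hp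
    constructor
    · intro h
      exact hno (h ▸ S.mem_Lt (ha ((), t)))
    · intro h
      exact hno (h ▸ S.mem_Lt (ha' ((), t)))
  refine H738.cornerX _ _ 0 (fun j hj => S.ct ha ha' (hu j hj)) (fun j => ?_)
    (fun j => S.opOK ha ha' j) ?_ ?_
  · by_cases hadj : H98.AdjOK (g ((), j)) (g' ((), j)) (g ((), j + 1)) (g' ((), j + 1))
    · exact Or.inl hadj
    · right
      by_cases h1 : j = 0 ∨ j + 1 = 0
      · refine ⟨h1, hg.1 j, hg'.1 j, ?_⟩
        unfold H98.AdjOK at hadj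
        push Not at hadj
        obtain ⟨k1, k2, k3, k4⟩ := hadj (hg.1 j) (hg'.1 j)
        have k5 := S.noswap k1 (St98.dist_pj_succ z u j) (S.mem_Lt (ha ((), j)))
          (S.mem_Lt (ha' ((), j))) (by rw [k2]; exact S.mem_Lt (ha' ((), j + 1)))
          (by rw [k3]; exact S.mem_Lt (ha ((), j + 1)))
        rcases k5 with h | ⟨h5, h6, -⟩
        · exact absurd h (by tauto)
        · exact ⟨h5, h6, by rw [← k3]; exact h6, by rw [← k2]; exact h5⟩
      · push Not at h1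
        exact absurd (S.adjOK hg hg' ha ha' j (hu j h1.1) (hu (j + 1) h1.2)) hadj
  · refine href (0 + 1) (0 + 2) ?_ ?_
    · rw [← h0, dist_comm]; exact St98.dist_pj_succ z u 0
    · rw [← h0]; exact pj_mid z u 0
  · refine href (0 + 5) (0 + 4) ?_ ?_
    · rw [← h0]; exact dist_pj_pred z u 0
    · rw [← h0]; exact (pj_four z u 0).1

theorem false (S : St353 U T z a b c d e f y₀) (hy₀ : dist y₀ z = 1) : False := by
  have w := S.sw
  have key : ∀ u, ∀ h ∈ LC (St98.X T z a b e f) u ∪ RC (St98.X T z a b e f) u,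
      St98.Leg h ∧ Av (St98.X T z a b e f) u h := by
    rintro u h (hh | hh)
    · exact ⟨w.leg_of_LC hh, w.av_of_LC hh⟩
    · exact ⟨w.leg_of_RC hh, w.av_of_RC hh⟩
  -- the direction of `y₀`
  obtain ⟨s₀, hs₀⟩ : ∃ s : ℝ, pt z s = y₀ := by
    obtain ⟨t, ht⟩ := exists_cis (u := y₀ - z) (by rw [← dist_eq_norm]; exact hy₀)
    refine ⟨t / (Real.pi / 3), ?_⟩
    unfold pt
    rw [div_mul_cancel₀ _ (by positivity), ← ht]
    ring
  have hslot : ∀ (u : ℝ) (j : Fin 6), St98.pj z u j = y₀ → ∃ n : ℤ,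
      u + (j.val : ℝ) = s₀ + 6 * (n : ℝ) := by
    intro u j h
    have h1 : pt z (0 + u + (j.val : ℝ)) = pt z s₀ := h.trans hs₀.symm
    obtain ⟨n, hn⟩ := pt_eq_iff h1
    exact ⟨n, by rw [← hn]; ring⟩
  have h0 : St98.pj z s₀ 0 = y₀ := by
    show pt z (0 + s₀ + (((0 : Fin 6) : ℕ) : ℝ)) = y₀
    rw [← hs₀]; congr 1; simp
  have h0' : ∀ j : Fin 6, j ≠ 0 → St98.pj z s₀ j ≠ y₀ := by
    intro j hj h
    obtain ⟨n, hn⟩ := hslot s₀ j h
    have h1 : ((j.val : ℤ) : ℝ) = ((6 * n : ℤ) : ℝ) := by push_cast; linarith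
    have h2 : (j.val : ℤ) = 6 * n := by exact_mod_cast h1
    have h3 := j.isLt
    have h4 : j.val ≠ 0 := fun h => hj (Fin.ext h)
    omega
  have hI : ∀ u ∈ Ioo s₀ (s₀ + 1), ∀ j : Fin 6, St98.pj z u j ≠ y₀ := by
    intro u hu j h
    obtain ⟨n, hn⟩ := hslot u j h
    have h1 : ((6 * n - (j.val : ℤ) : ℤ) : ℝ) = u - s₀ := by push_cast; linarith
    have h2 : (0 : ℝ) < ((6 * n - (j.val : ℤ) : ℤ) : ℝ) := by rw [h1]; linarith [hu.1]
    have h3 : ((6 * n - (j.val : ℤ) : ℤ) : ℝ) < 1 := by rw [h1]; linarith [hu.2]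
    have h4 : (0 : ℤ) < 6 * n - (j.val : ℤ) := by exact_mod_cast h2
    have h5 : 6 * n - (j.val : ℤ) < (1 : ℤ) := by exact_mod_cast h3
    omega
  obtain ⟨h, hh⟩ := w.LC_ne s₀
  obtain ⟨h', hh'⟩ := w.RC_ne s₀
  have h1 := w.turn (σ := rt Unit) (fun s l u => Xl_per s l u)
    (R := fun g g' => H98.lab (fun j => g ((), j)) = H98.lab (fun j => g' ((), j)))
    (fun _ _ _ h1 h2 => h1.trans h2) s₀
    (fun u hu g hg g' hg' => S.loc (hI u hu) (key u g hg).1 (key u g' hg').1 (key u g hg).2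
      (key u g' hg').2) h hh h' hh'
  have k := key s₀ h (Or.inl hh)
  have k' := key s₀ h' (Or.inr hh')
  have h2 := S.loc0 h0 h0' k.1 k'.1 k.2 k'.2
  have hrot := H98.rot (fun j => h ((), j)) k.1.1 k.1.2
  have hbig := H738.rot_big (fun j => h ((), j)) k.1.1 k.1.2
  have h3 : H98.lab (fun j => h' ((), j)) = H98.lab (fun j => h ((), j + 1)) := h1
  rcases h2 with h2 | h2
  · exact hrot (h3.symm.trans h2.symm)
  · rw [h3] at h2
    tauto

end St353

/-- **A two-pair point has at least two ends of the free colour `f`**: plain points of the closed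
`ab`- and `cd`-arcs with the colour `f`, or corners. -/
theorem Irr.one_corner353 (h : Irr U T) (hz : DPt T z a b c d) (nd : [a, b, c, d, e, f].Nodup)
    (hy₀ : dist y₀ z = 1)
    (hJ : ∀ y, dist y z = 1 → y ≠ y₀ → (T y).ncard ≤ 3 ∨ T y = T z ∨ Harm353 T e f y)
    (hAp : ∀ y p, dist y z = 1 → dist p z = 1 → dist p y = 1 → y ≠ y₀ → Harm353 T e f y →
      (T p).ncard ≤ 3 ∨ T p = T z)
    (h0 : (T y₀).ncard ≤ 3 ∨ T y₀ = T z ∨ ((∃ P Q, PQ738 T y₀ P Q) ∧
      ∀ p, dist p z = 1 → dist p y₀ = 1 → (T p).ncard ≤ 3))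
    (hA : ∀ y ∈ closure (Ex T z {a, b}), y ≠ y₀ → (T y).ncard ≤ 3 → f ∉ T y)
    (hC : ∀ y ∈ closure (Ex T z {c, d}), y ≠ y₀ → (T y).ncard ≤ 3 → f ∉ T y) : False :=
  St353.false ⟨h, hz, nd, hJ, hAp, h0, hA, hC⟩ hy₀

/-- an end of the free colour `f`: a plain point of the closed pair arcs with the colour `f`, or a
neighbour of order four which is not harmless (`K_f`, `E1`, `H`) -/
def End353 (T : ℂ → Set (Fin 6)) (z : ℂ) (a b c d e f : Fin 6) (y : ℂ) : Prop :=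
  dist y z = 1 ∧ T y ≠ T z ∧ (((T y).ncard ≤ 3 ∧ f ∈ T y ∧
    (y ∈ closure (Ex T z {a, b}) ∨ y ∈ closure (Ex T z {c, d}))) ∨
    (¬ (T y).ncard ≤ 3 ∧ ¬ Harm353 T e f y))

/-- **two ends of the free colour `f`** -/
theorem Irr.two_ends353 (h : Irr U T) (hz : DPt T z a b c d) (nd : [a, b, c, d, e, f].Nodup)
    (hJ : ∀ y, dist y z = 1 → (T y).ncard ≤ 3 ∨ T y = T z ∨ ∃ P Q, PQ738 T y P Q)
    (hAp : ∀ y p, dist y z = 1 → dist p z = 1 → dist p y = 1 → ¬ (T y).ncard ≤ 3 → T y ≠ T z →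
      (T p).ncard ≤ 3 ∨ (T p = T z ∧ Harm353 T e f y)) :
    ∃ y y', y ≠ y' ∧ End353 T z a b c d e f y ∧ End353 T z a b c d e f y' := by
  by_contra hcon
  push Not at hcon
  have hfz : f ∉ T z := by
    obtain ⟨⟨ab, ac, ad, ae, af⟩, ⟨bc, bd, be, bf⟩, ⟨cd, ce, cf⟩, ⟨de, df⟩, ef⟩ := nd_all353 nd
    rw [hz.pal]
    simp only [mem_insert_iff, mem_singleton_iff, not_or]
    exact ⟨Ne.symm af, Ne.symm bf, Ne.symm cf, Ne.symm df⟩
  have hez : e ∉ T z := by
    obtain ⟨⟨ab, ac, ad, ae, af⟩, ⟨bc, bd, be, bf⟩, ⟨cd, ce, cf⟩, ⟨de, df⟩, ef⟩ := nd_all353 nd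
    rw [hz.pal]
    simp only [mem_insert_iff, mem_singleton_iff, not_or]
    exact ⟨Ne.symm ae, Ne.symm be, Ne.symm ce, Ne.symm de⟩
  obtain ⟨y₀, hy₀, huniq⟩ : ∃ y₀, dist y₀ z = 1 ∧ ∀ y, End353 T z a b c d e f y → y = y₀ := by
    by_cases hex : ∃ y, End353 T z a b c d e f y
    · obtain ⟨y, hy⟩ := hex
      exact ⟨y, hy.1, fun y' hy' => by
        by_contra hne
        exact hcon y' y hne hy' hy⟩
    · push Not at hex
      exact ⟨pt z 0, dist_pt z 0, fun y hy => absurd hy (hex y)⟩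
  have hharm : ∀ y, Harm353 T e f y → ¬ (T y).ncard ≤ 3 ∧ T y ≠ T z := by
    rintro y ⟨P, Q, hPQ, -, -, he⟩
    refine ⟨by rw [hPQ.four353]; omega, fun h1 => hez (h1 ▸ he)⟩
  refine h.one_corner353 hz nd hy₀ (fun y hy hne => ?_) (fun y p hy hp hpy hne hH => ?_) ?_ ?_ ?_
  · by_cases h3 : (T y).ncard ≤ 3
    · exact Or.inl h3
    by_cases h4 : T y = T z
    · exact Or.inr (Or.inl h4)
    right; right
    by_contra hH
    exact hne (huniq y ⟨hy, h4, Or.inr ⟨h3, hH⟩⟩)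
  · obtain ⟨h3, h4⟩ := hharm y hH
    rcases hAp y p hy hp hpy h3 h4 with h5 | h5
    · exact Or.inl h5
    · exact Or.inr h5.1
  · by_cases h3 : (T y₀).ncard ≤ 3
    · exact Or.inl h3
    by_cases h4 : T y₀ = T z
    · exact Or.inr (Or.inl h4)
    by_cases hH : Harm353 T e f y₀
    · -- `y₀` harmless: all the points satisfy the conditions
      exfalso
      have hno : ∀ y, ¬ End353 T z a b c d e f y := by
        intro y hy
        have h5 := huniq y hy
        subst h5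
        rcases hy.2.2 with h6 | h6
        · exact h3 h6.1
        · exact h6.2 hH
      obtain ⟨y₁, hy₁, h3₁⟩ : ∃ y₁, dist y₁ z = 1 ∧ ((T y₁).ncard ≤ 3 ∨ T y₁ = T z) := by
        obtain ⟨g, hg⟩ := hz.arc1
        have hgT : T g = {a, b} := ex_self hg
        exact ⟨g, hg.1, Or.inl (by rw [hgT, Set.ncard_pair hz.ab]; omega)⟩
      refine h.one_corner353 hz nd hy₁ (fun y hy _ => ?_) (fun y p hy hp hpy _ hHy => ?_) ?_ ?_ ?_
      · by_cases k3 : (T y).ncard ≤ 3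
        · exact Or.inl k3
        by_cases k4 : T y = T z
        · exact Or.inr (Or.inl k4)
        right; right
        by_contra k5
        exact hno y ⟨hy, k4, Or.inr ⟨k3, k5⟩⟩
      · obtain ⟨k3, k4⟩ := hharm y hHy
        rcases hAp y p hy hp hpy k3 k4 with h5 | h5
        · exact Or.inl h5
        · exact Or.inr h5.1
      · rcases h3₁ with h5 | h5
        · exact Or.inl h5
        · exact Or.inr (Or.inl h5)
      · intro y hy _ k3 hf
        exact hno y ⟨dist_of_closure hy, fun h1 => hfz (h1 ▸ hf), Or.inl ⟨k3, hf, Or.inl hy⟩⟩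
      · intro y hy _ k3 hf
        exact hno y ⟨dist_of_closure hy, fun h1 => hfz (h1 ▸ hf), Or.inl ⟨k3, hf, Or.inr hy⟩⟩
    · refine Or.inr (Or.inr ⟨?_, fun p hp hpy => ?_⟩)
      · rcases hJ y₀ hy₀ with h5 | h5 | h5
        · exact absurd h5 h3
        · exact absurd h5 h4
        · exact h5
      · rcases hAp y₀ p hy₀ hp hpy h3 h4 with h5 | h5
        · exact h5
        · exact absurd h5.2 hH
  · intro y hy hne h3 hf
    exact hne (huniq y ⟨dist_of_closure hy, fun h1 => hfz (h1 ▸ hf), Or.inl ⟨h3, hf, Or.inl hy⟩⟩)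
  · intro y hy hne h3 hf
    exact hne (huniq y ⟨dist_of_closure hy, fun h1 => hfz (h1 ▸ hf), Or.inl ⟨h3, hf, Or.inr hy⟩⟩)

end Vale.Agent.P032.Six
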