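import Vale.Agent.P032.H538.State1
import Vale.Agent.P032.H227.Cont
import Vale.Agent.P032.H98.AntiP

/-!
# P032, helper353: the zeros `{a, b, e}`, `{a, b, f}` of the state at a two-pair point (row B4)

World `DSt` (538), `NoComp`; `V` a two-pair point with the pairs `ab | mn` and plain ends
`{m, n, e}`, `{m, n, f}` of its exact `mn`-arcs.

* `no_face353` : no face `{a, b, e}` in the closed disc about `V`, from a plain end `{m, n, f}`; for
  points with four colours this needs the distance `2` from the plain end.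
* `DSt.zero353`, `DSt.zeros353` : `lamT a V b e = 0`, `lamT b V a e = 0`, the same for `f`.
-/

open Set Filter Topology Metric

noncomputable section

namespace Vale.Agent.P032.Six

open Vale.Agent.P032.S5.H767 Vale.Agent.P032.Carr

variable {U : Fin 6 → Set ℂ} {T : ℂ → Set (Fin 6)} {V : ℂ} {a b m n e f : Fin 6}

/-- every colour is one of the six names -/
theorem all_names353 (nd : [a, b, m, n, e, f].Nodup) (i : Fin 6) :
    i = a ∨ i = b ∨ i = m ∨ i = n ∨ i = e ∨ i = f := by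
  have h1 : (Finset.univ : Finset (Fin 6)) = [a, b, m, n, e, f].toFinset :=
    (Finset.eq_univ_of_card _ (by rw [List.toFinset_card_of_nodup nd]; rfl)).symm
  have h2 := Finset.mem_univ i
  rw [h1] at h2
  simpa using h2

/-- the free letters exchanged -/
theorem nodup_ef353 (h : [a, b, m, n, e, f].Nodup) : [a, b, m, n, f, e].Nodup := by
  simp only [List.nodup_cons, List.mem_cons, List.not_mem_nil, or_false, not_or,
    List.nodup_nil, and_true, not_false_eq_true] at h ⊢
  obtain ⟨⟨hab, hac, had, hae, haf⟩, ⟨hbc, hbd, hbe, hbf⟩, ⟨hcd, hce, hcf⟩, ⟨hde, hdf⟩, hef⟩ := h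
  exact ⟨⟨hab, hac, had, haf, hae⟩, ⟨hbc, hbd, hbf, hbe⟩, ⟨hcd, hcf, hce⟩, ⟨hdf, hde⟩, Ne.symm hef⟩

/-- the complement of the other three names -/
theorem compl353 (nd : [a, b, m, n, e, f].Nodup) :
    ({a, b, e} : Set (Fin 6))ᶜ = {m, n, f} := by
  have hall := all_names353 nd
  simp only [List.nodup_cons, List.mem_cons, List.not_mem_nil, or_false, not_or, List.nodup_nil,
    and_true, not_false_eq_true] at nd
  obtain ⟨⟨ab, ac, ad, ae, af⟩, ⟨bc, bd, be, bf⟩, ⟨cd, ce, cf⟩, ⟨de, df⟩, ef⟩ := nd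
  ext i
  simp only [mem_compl_iff, mem_insert_iff, mem_singleton_iff, not_or]
  constructor
  · rintro ⟨h1, h2, h3⟩
    rcases hall i with h4 | h4 | h4 | h4 | h4 | h4
    · exact absurd h4 h1
    · exact absurd h4 h2
    · exact Or.inl h4
    · exact Or.inr (Or.inl h4)
    · exact absurd h4 h3
    · exact Or.inr (Or.inr h4)
  · rintro (rfl | rfl | rfl)
    · exact ⟨Ne.symm ac, Ne.symm bc, ce⟩
    · exact ⟨Ne.symm ad, Ne.symm bd, de⟩
    · exact ⟨Ne.symm af, Ne.symm bf, Ne.symm ef⟩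

/-- the antipode of a plain `mn`-end has not both colours `a`, `b` -/
theorem anti353 (h : Irr U T) (hD : DPt T V a b m n) {u y : ℂ}
    (hy : y ∈ closure (Ex T V {m, n})) (ha : a ∈ T u) (hb : b ∈ T u) (hu : u + y = 2 * V) :
    False := by
  have hyV : dist y V = 1 := dist_of_closure hy
  have huV : dist u V = 1 := by
    have h1 : u = 2 * V - y := by linear_combination hu
    rw [h1, dist_eq_norm, show 2 * V - y - V = -(y - V) by ring, norm_neg, ← dist_eq_norm]
    exact hyV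
  refine h.anti_clo hD.swap huV ha hb ?_
  rw [show 2 * V - u = y by linear_combination -hu]
  exact hy

/-- a point of the closed disc at distance two from a point of the circle is its antipode -/
theorem mid353 {u y : ℂ} (hyV : dist y V = 1) (huV : dist u V ≤ 1) (h2 : 2 ≤ dist u y) :
    u + y = 2 * V := by
  have htri := dist_triangle u V y
  rw [dist_comm V y, hyV] at htri
  have huV1 : dist u V = 1 := by linarith
  have h3 : ‖(u - V) + (V - y)‖ = ‖u - V‖ + ‖V - y‖ := by
    rw [show (u - V) + (V - y) = u - y by ring, ← dist_eq_norm, ← dist_eq_norm, ← dist_eq_norm,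
      dist_comm V y, hyV]
    linarith
  have h5 : SameRay ℝ (u - V) (V - y) := sameRay_iff_norm_add.2 h3
  have h6 : u - V = V - y := by
    rw [sameRay_iff_norm_smul_eq] at h5
    rw [← dist_eq_norm, ← dist_eq_norm, huV1, dist_comm V y, hyV, one_smul, one_smul] at h5
    exact h5.symm
  linear_combination h6

/-- **no face `{a, b, e}` in the closed disc about `V`**, if there is a plain end `{m, n, f}` -/
theorem no_face353 (h : Irr U T) (h4 : ∀ z, (T z).ncard ≤ 4) (hN : NoComp T)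
    (nd : [a, b, m, n, e, f].Nodup) (hD : DPt T V a b m n)
    {y : ℂ} (hy : y ∈ closure (Ex T V {m, n})) (hyT : T y = {m, n, f}) {u : ℂ}
    (huV : dist u V ≤ 1) (hu : ({a, b, e} : Set (Fin 6)) ⊆ T u)
    (hfar : 4 ≤ (T u).ncard → 2 ≤ dist u y) : False := by
  have hcc := compl353 nd
  have nd' := nd
  simp only [List.nodup_cons, List.mem_cons, List.not_mem_nil, or_false, not_or, List.nodup_nil,
    and_true, not_false_eq_true] at nd'
  obtain ⟨⟨ab, ac, ad, ae, af⟩, ⟨bc, bd, be, bf⟩, ⟨cd, ce, cf⟩, ⟨de, df⟩, ef⟩ := nd'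
  have c3 : ({a, b, e} : Set (Fin 6)).ncard = 3 := Set.ncard_eq_three.2 ⟨a, b, e, ab, ae, be, rfl⟩
  have hyV : dist y V = 1 := dist_of_closure hy
  have h2 : 2 ≤ dist u y := by
    rcases le_or_gt (T u).ncard 3 with hu3 | hu4
    · have hTu : T u = {a, b, e} :=
        (Set.eq_of_subset_of_ncard_le hu (by rw [c3]; exact hu3) (Set.toFinite _)).symm
      exact H227.comp_far' h hN (by rw [hTu, c3]) (by rw [hTu, hyT, hcc]) fun q _ _ => h4 q
    · exact hfar hu4
  exact anti353 h hD hy (hu (by simp)) (hu (by simp)) (mid353 hyV huV h2)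

variable {g : ℂ → Set (Fin 6)} {Z : Set ℂ} {c : ℂ} {R δ₀ : ℝ}

/-- **(B4), one letter.** The state vanishes at `{a, b, e}` -/
theorem DSt.zero353 (D : DSt U T Z g c R δ₀) (hN : NoComp T) (hR : dist V c ≤ R - 1)
    (nd : [a, b, m, n, e, f].Nodup) (hD : DPt T V a b m n)
    {y : ℂ} (hy : y ∈ closure (Ex T V {m, n})) (hyT : T y = {m, n, f})
    (hfar : ∀ u, dist u V ≤ 1 → 4 ≤ (T u).ncard → FcD T g u {a, b, e} → 2 ≤ dist u y) :
    lamT T Z g δ₀ a V b e = 0 ∧ lamT T Z g δ₀ b V a e = 0 := by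
  have ha : a ∈ T V := by rw [hD.pal]; simp
  have hb : b ∈ T V := by rw [hD.pal]; simp
  refine ⟨?_, ?_⟩
  · by_contra hne
    obtain ⟨u, hu, hF, -⟩ := D.supp hR ha hne
    have hu := mem_closedBall.1 hu
    exact no_face353 D.df.irr D.df.le4 hN nd hD hy hyT hu hF.1 fun h4 => hfar u hu h4 hF
  · by_contra hne
    obtain ⟨u, hu, hF, -⟩ := D.supp hR hb hne
    have hu := mem_closedBall.1 hu
    have e1 : ({b, a, e} : Set (Fin 6)) = {a, b, e} := Set.insert_comm _ _ _
    rw [e1] at hF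
    exact no_face353 D.df.irr D.df.le4 hN nd hD hy hyT hu hF.1 fun h4 => hfar u hu h4 hF

/-- **(B4), both letters**, in all orders of the arguments -/
theorem DSt.zeros353 (D : DSt U T Z g c R δ₀) (hN : NoComp T) (hR : dist V c ≤ R - 1)
    (nd : [a, b, m, n, e, f].Nodup) (hD : DPt T V a b m n)
    (hye : ∃ y ∈ closure (Ex T V {m, n}), T y = {m, n, e})
    (hyf : ∃ y ∈ closure (Ex T V {m, n}), T y = {m, n, f})
    (hfar : ∀ l, l = e ∨ l = f → ∀ u y, dist u V ≤ 1 → 4 ≤ (T u).ncard → FcD T g u {a, b, l} →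
      y ∈ closure (Ex T V {m, n}) → T y = ({a, b, l} : Set (Fin 6))ᶜ → 2 ≤ dist u y) :
    ∀ l, l = e ∨ l = f → lamT T Z g δ₀ a V b l = 0 ∧ lamT T Z g δ₀ a V l b = 0 ∧
      lamT T Z g δ₀ b V a l = 0 ∧ lamT T Z g δ₀ b V l a = 0 := by
  obtain ⟨ye, hye, hyeT⟩ := hye
  obtain ⟨yf, hyf, hyfT⟩ := hyf
  have key : ∀ l, l = e ∨ l = f → lamT T Z g δ₀ a V b l = 0 ∧ lamT T Z g δ₀ b V a l = 0 := by
    rintro l (rfl | rfl)
    · refine D.zero353 hN hR nd hD hyf hyfT fun u hu h4 hF => ?_
      exact hfar l (Or.inl rfl) u yf hu h4 hF hyf (by rw [hyfT, compl353 nd])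
    · refine D.zero353 hN hR (nodup_ef353 nd) hD hye hyeT fun u hu h4 hF => ?_
      exact hfar l (Or.inr rfl) u ye hu h4 hF hye (by rw [hyeT, compl353 (nodup_ef353 nd)])
  intro l hl
  obtain ⟨h1, h2⟩ := key l hl
  refine ⟨h1, ?_, h2, ?_⟩
  · rw [DSt.symm]; exact h1
  · rw [DSt.symm]; exact h2

end Vale.Agent.P032.Six
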