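import Vale.Agent.P032.H353.Corner

/-!
# P032, helper353: plain ends of a free colour at a quasi-full two-pair point (row C4, (P2))

Over `Irr.two_ends353`: if at most one neighbour of order four has the free colour `f` (and not
`e`), the circle has a plain end with the colour `f`.
-/

open Set Filter Topology Metric

noncomputable section

namespace Vale.Agent.P032.Six

open Vale.Agent.P032.S5.H767 Vale.Agent.P032.S5.H122 Vale.Agent.P032.Sweep

variable {U : Fin 6 → Set ℂ} {T : ℂ → Set (Fin 6)} {z y p : ℂ} {a b c d e f : Fin 6}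

/-- the palette of a plain end -/
theorem pal_end353 (h : Irr U T) {i j l : Fin 6} (hij : i ≠ j) (hil : i ≠ l) (hjl : j ≠ l)
    (hy : y ∈ closure (Ex T z {i, j})) (h3 : (T y).ncard ≤ 3) (hl : l ∈ T y) :
    T y = {i, j, l} := by
  have hc : ({i, j} : Set (Fin 6)) ⊆ T y := sub_of_closure h hy
  symm
  refine Set.eq_of_subset_of_ncard_le ?_ ?_ (Set.toFinite _)
  · rintro m (rfl | rfl | rfl)
    · exact hc (by simp)
    · exact hc (by simp)
    · exact hl
  · rw [Set.ncard_eq_three.2 ⟨i, j, l, hij, hil, hjl, rfl⟩]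
    exact h3

/-- **(P2), first half.** A two-pair point whose neighbours of order four have two pairs and
apexes of order at most three, with at most one neighbour `K_f`, has a plain `f`-end. -/
theorem Irr.plain353 (h : Irr U T) (hz : DPt T z a b c d) (nd : [a, b, c, d, e, f].Nodup)
    (hK : ∀ y, dist y z = 1 → (T y).ncard ≤ 3 ∨ T y = T z ∨
      ∃ P Q, PQ738 T y P Q ∧ P ≠ {e, f} ∧ Q ≠ {e, f} ∧ (e ∈ T y ∨ f ∈ T y))
    (hAp : ∀ y p, dist y z = 1 → dist p z = 1 → dist p y = 1 → ¬ (T y).ncard ≤ 3 → T y ≠ T z →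
      (T p).ncard ≤ 3)
    (h1 : ∀ y y', dist y z = 1 → dist y' z = 1 → ¬ (T y).ncard ≤ 3 → ¬ (T y').ncard ≤ 3 →
      f ∈ T y → f ∈ T y' → e ∉ T y → e ∉ T y' → y = y') :
    (∃ y, y ∈ closure (Ex T z {a, b}) ∧ T y = {a, b, f}) ∨
      ∃ y, y ∈ closure (Ex T z {c, d}) ∧ T y = {c, d, f} := by
  obtain ⟨⟨ab, ac, ad, ae, af⟩, ⟨bc, bd, be, bf⟩, ⟨cd, ce, cf⟩, ⟨de, df⟩, ef⟩ := nd_all353 nd
  obtain ⟨y, y', hne, hy, hy'⟩ := h.two_ends353 hz nd
    (fun y hy => by
      rcases hK y hy with h2 | h2 | ⟨P, Q, h2, -⟩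
      · exact Or.inl h2
      · exact Or.inr (Or.inl h2)
      · exact Or.inr (Or.inr ⟨P, Q, h2⟩))
    (fun y p hy hp hpy h3 h4 => Or.inl (hAp y p hy hp hpy h3 h4))
  -- an end of order four has `f` and not `e`
  have key : ∀ y, End353 T z a b c d e f y → ¬ (T y).ncard ≤ 3 → f ∈ T y ∧ e ∉ T y := by
    intro y hy h3
    rcases hy.2.2 with h4 | h4
    · exact absurd h4.1 h3
    rcases hK y hy.1 with h2 | h2 | ⟨P, Q, h2, hP, hQ, h5⟩
    · exact absurd h2 h3
    · exact absurd h2 hy.2.1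
    · have he : e ∉ T y := fun he => h4.2 ⟨P, Q, h2, hP, hQ, he⟩
      exact ⟨h5.resolve_left he, he⟩
  have fin : ∀ y, End353 T z a b c d e f y → (T y).ncard ≤ 3 →
      (∃ y, y ∈ closure (Ex T z {a, b}) ∧ T y = {a, b, f}) ∨
        ∃ y, y ∈ closure (Ex T z {c, d}) ∧ T y = {c, d, f} := by
    intro y hy h3
    rcases hy.2.2 with h4 | h4
    · rcases h4.2.2 with h5 | h5
      · exact Or.inl ⟨y, h5, pal_end353 h ab af bf h5 h3 h4.2.1⟩
      · exact Or.inr ⟨y, h5, pal_end353 h cd cf df h5 h3 h4.2.1⟩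
    · exact absurd h3 h4.1
  by_cases k : (T y).ncard ≤ 3
  · exact fin y hy k
  by_cases k' : (T y').ncard ≤ 3
  · exact fin y' hy' k'
  obtain ⟨k1, k2⟩ := key y hy k
  obtain ⟨k3, k4⟩ := key y' hy' k'
  exact absurd (h1 y y' hy.1 hy'.1 k k' k1 k3 k2 k4) hne

end Vale.Agent.P032.Six
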