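import Vale.Agent.P032.H961.QF
import Vale.Agent.P032.H928.Ends
import Vale.Agent.P032.H353.Zero

/-!
# P032, helper353: plain ends of both free colours at a quasi-full point (961's `QF`)

`ends353` : plain ends `{m, n, e}`, `{m, n, f}` of the exact `mn`-arcs of `S(V)` (over 928's
`quasi_ends928`).
-/

open Set Filter Topology Metric

noncomputable section

namespace Vale.Agent.P032.Six

open Vale.Agent.P032.S5.H767 Vale.Agent.P032.H961 Vale.Agent.P032.H460

variable {U : Fin 6 → Set ℂ} {T : ℂ → Set (Fin 6)} {V V1 V2 : ℂ} {a b m n e f : Fin 6}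

/-- a link is a `J`- or a `K`-end -/
theorem link_jk353 (hV : QF0 T V a b m n e f V1 V2) : JKEnd T V a b m n e f V1 := by
  have nd := hV.nd
  have hall := all_names353 nd
  obtain ⟨g, hD | hD⟩ := hV.lk1
  · rcases hall g with h1 | h1 | h1 | h1 | h1 | h1
    · exact absurd h1.symm hD.ad
    · exact absurd h1.symm hD.cd
    · exact absurd h1.symm hD.bd
    · left
      rw [hD.pal, hV.pal, h1]
      ext i
      simp only [mem_insert_iff, mem_singleton_iff]
      tauto
    · exact Or.inr ⟨a, b, m, g, Or.inl ⟨rfl, rfl⟩, Or.inl rfl, Or.inl h1, hD⟩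
    · exact Or.inr ⟨a, b, m, g, Or.inl ⟨rfl, rfl⟩, Or.inl rfl, Or.inr h1, hD⟩
  · have hD : DPt T V1 b n a g := hD.swap12
    rcases hall g with h1 | h1 | h1 | h1 | h1 | h1
    · exact absurd h1.symm hD.cd
    · exact absurd h1.symm hD.ad
    · left
      rw [hD.pal, hV.pal, h1]
      ext i
      simp only [mem_insert_iff, mem_singleton_iff]
      tauto
    · exact absurd h1.symm hD.bd
    · exact Or.inr ⟨b, a, n, g, Or.inr ⟨rfl, rfl⟩, Or.inr rfl, Or.inl h1, hD⟩
    · exact Or.inr ⟨b, a, n, g, Or.inr ⟨rfl, rfl⟩, Or.inr rfl, Or.inr h1, hD⟩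

theorem jk_swap353 {v : ℂ} (hv : JKEnd T V a b n m e f v) : JKEnd T V a b m n e f v := by
  rcases hv with hv | ⟨x, x', y, g, hx, hy, hg, hD⟩
  · exact Or.inl hv
  · exact Or.inr ⟨x, x', y, g, hx, hy.symm, hg, hD⟩

/-- **(P2) plain ends with both free colours** at a quasi-full point -/
theorem ends353 (h : Irr U T) (hV : QF0 T V a b m n e f V1 V2) :
    (∃ y ∈ closure (Ex T V {m, n}), T y = {m, n, e}) ∧
      ∃ y ∈ closure (Ex T V {m, n}), T y = {m, n, f} := by
  obtain ⟨s, t, h1, h2, h3, h4, h5⟩ := hV.arc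
  have k1 : JKEnd T V a b m n e f V1 := link_jk353 hV
  have k2 : JKEnd T V a b m n e f V2 := jk_swap353 (link_jk353 hV.mirror)
  have c1 := hV.ord1
  have c2 := hV.ord2
  have hst : s + (t - s) = t := by ring
  have hab : a ≠ b := hV.dpt.ab
  have hs4 : (T (pt V s)).ncard = 4 := by
    rcases h3 with ⟨-, h3⟩ | ⟨h3, -⟩
    · rw [← h3]; exact c2
    · rw [← h3]; exact c1
  have ht4 : (T (pt V t)).ncard = 4 := by
    rcases h3 with ⟨h3, -⟩ | ⟨-, h3⟩
    · rw [← h3]; exact c1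
    · rw [← h3]; exact c2
  have l1 : JKEnd T V a b m n e f (pt V s) := by
    rcases h3 with ⟨-, h3⟩ | ⟨h3, -⟩
    · rw [← h3]; exact k2
    · rw [← h3]; exact k1
  have l2 : JKEnd T V a b m n e f (pt V (s + (t - s))) := by
    rw [hst]
    rcases h3 with ⟨h3, -⟩ | ⟨-, h3⟩
    · rw [← h3]; exact k1
    · rw [← h3]; exact k2
  refine h.quasi_ends928 hV.dpt hV.nd (u0 := s) (α := t - s) (by linarith) (by linarith)
    (fun x hx => h4 _ ⟨by linarith [hx.1], by linarith [hx.2]⟩) (fun q hq hqT => ?_) l1 l2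
    (fun y hy hy4 => ?_)
  · obtain ⟨u, hu, rfl⟩ := h5 q hq (by rw [hqT]; simp) (by rw [hqT]; simp)
    have hq2 : (T (pt V u)).ncard = 2 := by rw [hqT]; exact Set.ncard_pair hab
    refine ⟨u - s, ⟨sub_pos.2 (lt_of_le_of_ne hu.1 ?_), sub_lt_sub_right
      (lt_of_le_of_ne hu.2 ?_) s⟩, by ring_nf⟩
    · rintro rfl; omega
    · rintro rfl; omega
  · rw [hst]
    rcases hV.ord y hy hy4 with rfl | rfl
    · rcases h3 with ⟨h3, -⟩ | ⟨h3, -⟩
      · exact Or.inr h3
      · exact Or.inl h3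
    · rcases h3 with ⟨-, h3⟩ | ⟨-, h3⟩
      · exact Or.inl h3
      · exact Or.inr h3

end Vale.Agent.P032.Six
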