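import Vale.Agent.P032.H353.Zero
import Vale.Agent.P032.H295.Rim
import Vale.Agent.P032.H961.World
import Vale.Agent.P032.S5.H205.Contact
import Vale.Agent.P032.S5.H827.Edge

/-!
# P032, helper353: no face `{a, b, e}` in the disc of a quasi-full point (row B4, final form)

World `QIW T Inv` of H961 without invisible points (`hI`), `DF U T`, `NoComp T`, no `D`-star pair of
harmless points (`NoStar`), gauge `hg` : the separated pair of a quasi-full point is the plain pair.

* `DF.fc_far353` : a face `s` of a point which is no two-pair point and a three-point with the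
  complementary palette are at distance at least two;
* `qi_no_face353` : `V` quasi-full with a plain end `{m, n, f}`: no face `{a, b, e}` in the closed disc.
-/

open Set Filter Topology Metric

noncomputable section

namespace Vale.Agent.P032.Six

open Vale.Agent.P032.S5.H767 Vale.Agent.P032.H961

variable {U : Fin 6 → Set ℂ} {T : ℂ → Set (Fin 6)} {Inv : ℂ → ℂ → Prop} {V V1 V2 : ℂ}
  {a b m n e f : Fin 6}

/-- near a harmless point all points of order four are harmless -/
theorem DF.harm_nhd353 (h : DF U T) {q : ℂ} {A : Set (Fin 6)} (hq : Six.Harm T q A) :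
    ∀ᶠ y in 𝓝 q, 4 ≤ (T y).ncard → ∃ A', Six.Harm T y A' := by
  filter_upwards [h.isolated q] with y hy h4
  rcases h.harm_or h4 with h1 | ⟨a, b, c, d, hD⟩
  · exact h1
  · exfalso
    have h1 := hy ⟨a, b, c, d, hD⟩
    subst h1
    exact not_harm_of_dpt hq hD

/-- **distance-two rule**, a face of a harmless point against a three-point -/
theorem DF.fc_far353 (h : DF U T) (hN : NoComp T) (hS : NoStar T) {u y : ℂ} {s : Set (Fin 6)}
    (F : Fc T u s) (hs : s.ncard = 3) (hy : T y = sᶜ) (hu : ¬ ∃ a b c d, DPt T u a b c d)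
    (hq : ∀ q, dist u q = 1 → (∃ a b c d, DPt T q a b c d) → (T u).ncard ≤ 3) :
    2 ≤ dist u y := by
  have hs' : (sᶜ : Set (Fin 6)).ncard = 3 := by
    have h1 := Set.ncard_add_ncard_compl s
    have h2 : Nat.card (Fin 6) = 6 := by simp
    omega
  have hy3 : (T y).ncard = 3 := by rw [hy, hs']
  rcases le_or_gt (T u).ncard 3 with hu3 | hu4
  · have hTu : T u = s := F.eq_of_three hs hu3
    exact H227.comp_far' h.irr hN (by rw [hTu, hs]) (by rw [hTu, hy]) fun q _ _ => h.le4 q
  by_contra hlt
  push Not at hlt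
  have hne : u ≠ y := by
    rintro rfl
    omega
  obtain ⟨q, hqu, hqy, hne2⟩ := l2_exists_inter hlt hne
  have F' : Fc T y sᶜ := hy ▸ h.irr.fc_three hy3.le
  have h4q := Fc.four_le' h.irr F F' hne hqu hqy hne2
  obtain ⟨B, hB⟩ := (h.harm_or hu4).resolve_right hu
  obtain ⟨A, hA⟩ : ∃ A, Six.Harm T q A := by
    refine (h.harm_or h4q).resolve_right fun hD => ?_
    have := hq q (by rw [dist_comm]; exact hqu) hD
    omega
  have hqn := h.harm_nhd353 hA
  have k1 : A ⊆ s := by
    refine F.pair_sub h.irr F' hne hs hqu hqy hne2 hA hqn (Or.inr ⟨B, hB, ?_, fun hsub => ?_⟩)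
    · exact h.mn u hu4
    · rcases hB.unit_pair h.irr h.mn hA hqu hsub with h1 | ⟨h1, -⟩
      · exact h1.symm
      · exact absurd h1 (hS u B q A hB hA (by rw [dist_comm]; exact hqu))
  have k2 : A ⊆ sᶜ := by
    refine F'.pair_sub h.irr (by rw [compl_compl]; exact F) hne.symm hs' hqy hqu
      (by rw [add_comm]; exact hne2) hA hqn (Or.inl hy3.le)
  obtain ⟨i, hi⟩ := Set.nonempty_of_ncard_ne_zero (s := A) (by rw [hA.cardA]; omega)
  exact k2 hi (k1 hi)

/-- a point of order four on the circle of a two-pair point is a two-pair point -/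
theorem qiw_two353 (hw : QIW T Inv) (hI : ∀ x y, ¬ Inv x y) {u q : ℂ}
    (huq : dist u q = 1) (hq : ∃ a b c d, DPt T q a b c d) (h4 : 4 ≤ (T u).ncard) :
    ∃ a b c d, DPt T u a b c d := by
  obtain ⟨a, b, c, d, hD⟩ := hq
  obtain ⟨a', b', m', n', e', f', W1, W2, hQ⟩ := hw.qf hD
  rcases hQ.ord u huq h4 with rfl | rfl | h1
  · obtain ⟨g, h2 | h2⟩ := hQ.lk1
    · exact ⟨_, _, _, _, h2⟩
    · exact ⟨_, _, _, _, h2⟩
  · obtain ⟨g, h2 | h2⟩ := hQ.lk2
    · exact ⟨_, _, _, _, h2⟩
    · exact ⟨_, _, _, _, h2⟩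
  · exact absurd h1 (hI _ _)

/-- a face of the state at a point which is no two-pair point is a face -/
theorem FcD.fc353 {F : ℂ → Set (Fin 6)} (h : DF U T) (hc : ChF T F) {u : ℂ} {s : Set (Fin 6)}
    (hs : s.ncard = 3) (hu : ¬ ∃ a b c d, DPt T u a b c d) (hF : FcD T F u s) : Fc T u s := by
  rcases le_or_gt (T u).ncard 3 with hu3 | hu4
  · have h1 : T u = s := (Set.eq_of_subset_of_ncard_le hF.1 (by rw [hs]; exact hu3)
      (Set.toFinite _)).symm
    rw [← h1]
    exact h.irr.fc_three hu3
  · obtain ⟨A, hA⟩ := (h.harm_or hu4).resolve_right hu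
    have h1 := hF.2 hu4
    rw [hc.harm u A hA] at h1
    exact fc_harmless hF.1 hA.h1 h1

/-- the faces of the state at the ends of the connecting arc -/
theorem link_face353 {F : ℂ → Set (Fin 6)} (hw : QIW T Inv)
    (hg : ∀ {V : ℂ} {a b m n e f : Fin 6} {V1 V2 : ℂ}, QI T Inv V a b m n e f V1 V2 →
      F V = {m, n})
    (hV : QI T Inv V a b m n e f V1 V2) (hF : FcD T F V1 {a, b, e}) : False := by
  have nd := hV.nd
  simp only [List.nodup_cons, List.mem_cons, List.not_mem_nil, or_false, not_or, List.nodup_nil,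
    and_true, not_false_eq_true] at nd
  obtain ⟨⟨ab, ac, ad, ae, af⟩, ⟨bc, bd, be, bf⟩, ⟨cd, ce, cf⟩, ⟨de, df⟩, ef⟩ := nd
  have h2 := hF.2 hV.ord1.ge
  have he : e ∈ T V1 := hF.1 (by simp)
  obtain ⟨g, e', f', W, h1 | h1⟩ := hw.link hV
  · rw [hg h1] at h2
    rw [h1.pal] at he
    rcases he with he | he | he | he
    · exact ae he.symm
    · exact ce he.symm
    · refine h2 ?_
      rw [← he]
      rintro i (rfl | rfl) <;> simp
    · exact be (mem_singleton_iff.1 he).symm
  · rw [hg h1] at h2
    rw [h1.pal] at he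
    rcases he with he | he | he | he
    · exact de he.symm
    · exact be he.symm
    · exact ae he.symm
    · refine h2 ?_
      rw [← mem_singleton_iff.1 he]
      rintro i (rfl | rfl) <;> simp

/-- **(B4), final form.** `V` quasi-full with a plain end `{m, n, f}`: no face `{a, b, e}` in the closed
disc about `V` -/
theorem qi_no_face353 {F : ℂ → Set (Fin 6)} (h : DF U T) (hN : NoComp T) (hS : NoStar T)
    (hw : QIW T Inv) (hI : ∀ x y, ¬ Inv x y) (hc : ChF T F)
    (hg : ∀ {V : ℂ} {a b m n e f : Fin 6} {V1 V2 : ℂ}, QI T Inv V a b m n e f V1 V2 →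
      F V = {m, n})
    (hV : QI T Inv V a b m n e f V1 V2) {y : ℂ} (hy : y ∈ closure (Ex T V {m, n}))
    (hyT : T y = {m, n, f}) {u : ℂ} (huV : dist u V ≤ 1) (hF : FcD T F u {a, b, e}) : False := by
  have hcc := compl353 hV.nd
  have hyV : dist y V = 1 := dist_of_closure hy
  have ha : a ∈ T u := hF.1 (by simp)
  have hb : b ∈ T u := hF.1 (by simp)
  have nd := hV.nd
  simp only [List.nodup_cons, List.mem_cons, List.not_mem_nil, or_false, not_or, List.nodup_nil,
    and_true, not_false_eq_true] at nd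
  obtain ⟨⟨ab, ac, ad, ae, af⟩, ⟨bc, bd, be, bf⟩, ⟨cd, ce, cf⟩, ⟨de, df⟩, ef⟩ := nd
  have c3 : ({a, b, e} : Set (Fin 6)).ncard = 3 := Set.ncard_eq_three.2 ⟨a, b, e, ab, ae, be, rfl⟩
  have hy3 : (T y).ncard = 3 := by
    rw [hyT]; exact Set.ncard_eq_three.2 ⟨m, n, f, cd, cf, df, rfl⟩
  by_cases hu : ∃ a b c d, DPt T u a b c d
  swap
  · refine anti353 h.irr hV.dpt hy ha hb (mid353 hyV huV ?_)
    refine h.fc_far353 hN hS (hF.fc353 h hc c3 hu) c3 (by rw [hyT, hcc]) hu fun q hq hD => ?_
    by_contra hcon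
    exact hu (qiw_two353 hw hI hq hD (by omega))
  -- `u` a two-pair point
  rcases le_or_gt 2 (dist u y) with h2 | h2
  · exact anti353 h.irr hV.dpt hy ha hb (mid353 hyV huV h2)
  obtain ⟨a1, b1, c1, d1, hD⟩ := hu
  have h4u : 4 ≤ (T u).ncard := hD.ncard.ge
  rcases huV.lt_or_eq with huV | huV
  swap
  · rcases hV.ord u huV h4u with rfl | rfl | h1
    · exact link_face353 hw hg hV hF
    · exact link_face353 hw hg hV.mirror hF
    · exact hI _ _ h1
  have key : ∀ {a' b' m' n' e' f' : Fin 6} {W1 W2 : ℂ}, QI T Inv u a' b' m' n' e' f' W1 W2 →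
      n' ∉ ({a, b, e} : Set (Fin 6)) → False := by
    intro a' b' m' n' e' f' W1 W2 hW hn
    have d1 := hW.dpt
    have c3' : ({a', b', m'} : Set (Fin 6)).ncard = 3 :=
      Set.ncard_eq_three.2 ⟨a', b', m', d1.ab, d1.ac, d1.bc, rfl⟩
    have hsub : ({a, b, e} : Set (Fin 6)) ⊆ {a', b', m'} := by
      intro i hi
      have h3 := hF.1 hi
      rw [hW.pal] at h3
      rcases h3 with h3 | h3 | h3 | h3
      · exact Or.inl h3
      · exact Or.inr (Or.inl h3)
      · exact Or.inr (Or.inr h3)
      · exact absurd (mem_singleton_iff.1 h3 ▸ hi) hn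
    have heq : ({a, b, e} : Set (Fin 6)) = {a', b', m'} :=
      Set.eq_of_subset_of_ncard_le hsub (by rw [c3, c3']) (Set.toFinite _)
    have hyc : T y = ({a', b', m'} : Set (Fin 6))ᶜ := by rw [hyT, ← hcc, heq]
    obtain ⟨p, p', g1, g2, g3, g4, g5, g6, g7, g8⟩ := hW.mirror.contacts h.irr
      (fun p hp _ _ _ => absurd hp (hI _ _)) hy3.le hyc (by rw [dist_comm]; exact h2)
    have L : H295.Lens T y u p p' {a', b'} (closure (Ex T u {a', b'})) := by
      refine ⟨g4, g2, g5, g3, g1, ?_, hW.diam h.irr g7 g8, (hW.toQf h.irr).conn, g7, g8,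
        fun x hx => sub_of_closure h.irr hx⟩
      rintro rfl
      omega
    have hM : ∀ i, i ∈ T y ∨ i ∈ ({a', b'} : Set (Fin 6)) ∨ i = m' := by
      intro i
      by_cases hi : i ∈ T y
      · exact Or.inl hi
      · right
        rw [hyc, mem_compl_iff, not_not] at hi
        rcases hi with h3 | h3 | h3
        · exact Or.inl (Or.inl h3)
        · exact Or.inl (Or.inr h3)
        · exact Or.inr h3
    have hVy : dist V y = 1 := by rw [dist_comm]; exact hyV
    have hVu : dist V u < 1 := by rw [dist_comm]; exact huV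
    have k1 : m' ∉ T V := L.rim_three h.irr hy3.le hM hVy hVu
    have hm' : m' ∈ ({a, b, e} : Set (Fin 6)) := by rw [heq]; simp
    have hme : m' = e := by
      rcases hm' with h3 | h3 | h3
      · exact absurd (by rw [h3, hV.pal]; simp) k1
      · exact absurd (by rw [h3, hV.pal]; simp) k1
      · exact h3
    subst hme
    have hpair : ({a', b'} : Set (Fin 6)) = {a, b} := by
      ext i
      constructor
      · intro hi
        have h3 : i ∈ ({a, b, m'} : Set (Fin 6)) := by
          rw [heq]
          rcases hi with h3 | h3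
          · exact Or.inl h3
          · exact Or.inr (Or.inl h3)
        rcases h3 with h3 | h3 | h3
        · exact Or.inl h3
        · exact Or.inr h3
        · rw [mem_singleton_iff] at h3
          subst h3
          rcases hi with h4 | h4
          · exact absurd h4.symm d1.ac
          · exact absurd (mem_singleton_iff.1 h4).symm d1.bc
      · intro hi
        have h3 : i ∈ ({a', b', m'} : Set (Fin 6)) := by
          rw [← heq]
          rcases hi with h3 | h3
          · exact Or.inl h3
          · exact Or.inr (Or.inl h3)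
        rcases h3 with h3 | h3 | h3
        · exact Or.inl h3
        · exact Or.inr h3
        · rw [mem_singleton_iff] at h3
          subst h3
          rcases hi with h4 | h4
          · exact absurd h4.symm ae
          · exact absurd (mem_singleton_iff.1 h4).symm be
    refine L.rim_zero h.irr hy3.le hM (fun i hi => ?_) hVy hVu ?_ ⟨a', by simp⟩
    · rw [hyc, mem_compl_iff, not_not]
      rcases hi with h3 | h3
      · exact Or.inl h3
      · exact Or.inr (Or.inl h3)
    · rw [hpair]
      exact ⟨_, hV.mid_mem h.irr⟩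
  obtain ⟨a', b', m', n', e', f', W1, W2, hW⟩ := hw.qf hD
  have h3 := hF.2 h4u
  rw [hg hW, Set.not_subset] at h3
  obtain ⟨x, hx, hxn⟩ := h3
  rcases hx with hx | hx
  · exact key hW.mirror (hx ▸ hxn)
  · exact key hW (mem_singleton_iff.1 hx ▸ hxn)

end Vale.Agent.P032.Six
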