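import Vale.Agent.P032.H353.Par
import Vale.Agent.P032.H353.EndsQ
import Vale.Agent.P032.H353.Hz1
import Vale.Agent.P032.H802.Lt60
import Vale.Agent.P032.H747.StarQ
import Vale.Agent.P032.H758.Pure

/-!
# P032, helper353: plain ends, the four-term sum and the zeros at the points of the world `QIW`

World `QIW T Inv` of H961 without invisible points (`hI`).

* `qi_tri353` : if the ends `V1`, `V2` of the connecting arc are at distance one, then
  `T V1 = T V = T V2`;
* `qi_data353` : the arc data of H460 / H928 for `QI`;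
* `qi_ends353` : plain ends `{m, n, e}`, `{m, n, f}`;
* `qi_par353` : the four-term sum is `1`;
* `qi_zero353` : the zeros `{a, b, e}`, `{a, b, f}` (gauge `GaugeI758`).
-/

open Set Filter Topology Metric

noncomputable section

namespace Vale.Agent.P032.Six

open Vale.Agent.P032.S5.H767 Vale.Agent.P032.H961 Vale.Agent.P032.H460 Vale.Agent.P032.Carr

variable {U : Fin 6 → Set ℂ} {T : ℂ → Set (Fin 6)} {Inv : ℂ → ℂ → Prop} {V V1 V2 : ℂ}
  {a b c d m n e f : Fin 6}

/-- `cos (x * π / 3) ≥ 1 / 2`, `|x| < 5` : then `|x| ≤ 1` -/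
theorem cos_half353 {x : ℝ} (h5 : |x| < 5) (h : 1 / 2 ≤ Real.cos (x * (Real.pi / 3))) :
    |x| ≤ 1 := by
  by_contra hcon
  push Not at hcon
  have hpi := Real.pi_pos
  have key : ∀ y : ℝ, 1 < y → y ≤ 3 → Real.cos (y * (Real.pi / 3)) < 1 / 2 := by
    intro y h1 h2
    rw [← Real.cos_pi_div_three]
    refine Real.cos_lt_cos_of_nonneg_of_le_pi (by positivity) ?_ ?_
    · nlinarith
    · nlinarith
  have h1 : Real.cos (x * (Real.pi / 3)) = Real.cos (|x| * (Real.pi / 3)) := by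
    rw [← Real.cos_abs (x * (Real.pi / 3)), abs_mul, abs_of_pos (by positivity : 0 < Real.pi / 3)]
  rw [h1] at h
  rcases le_or_gt |x| 3 with h3 | h3
  · exact absurd h (not_le.2 (key _ hcon h3))
  · have h4 : Real.cos (|x| * (Real.pi / 3)) = Real.cos ((6 - |x|) * (Real.pi / 3)) := by
      rw [← Real.cos_two_pi_sub]
      congr 1
      ring
    rw [h4] at h
    exact absurd h (not_le.2 (key _ (by linarith) (by linarith)))

/-- the points of a unit circle near both ends of an arc of 60 degrees -/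
theorem arc_near353 {z r : ℂ} {s : ℝ} (hr : dist r z = 1) (h1 : dist r (pt z s) ≤ 1)
    (h2 : dist r (pt z (s + 1)) ≤ 1) : ∃ x ∈ Icc s (s + 1), r = pt z x := by
  have hpi := Real.pi_pos
  obtain ⟨w, rfl⟩ : ∃ w, r = pt z w := by
    obtain ⟨t0, ht0⟩ := exists_cis (u := r - z) (by rw [← dist_eq_norm]; exact hr)
    refine ⟨t0 / (Real.pi / 3), ?_⟩
    unfold pt
    rw [div_mul_cancel₀ _ (by positivity : Real.pi / 3 ≠ 0), ← ht0]; ring
  obtain ⟨k, hk⟩ : ∃ k : ℤ, |w - (s + 1 / 2) - 6 * k| ≤ 3 := by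
    refine ⟨round ((w - (s + 1 / 2)) / 6), ?_⟩
    have h1 := abs_sub_round ((w - (s + 1 / 2)) / 6)
    rw [abs_le] at h1 ⊢
    constructor <;> linarith [h1.1, h1.2]
  have hper : pt z (w - 6 * k) = pt z w := by
    unfold pt
    have h1 : cis ((w - 6 * k) * (Real.pi / 3)) = cis (w * (Real.pi / 3)) := by
      have e1 : (w - 6 * k) * (Real.pi / 3) = w * (Real.pi / 3) - k * (2 * Real.pi) := by ring
      unfold cis
      apply Complex.ext
      · rw [Complex.exp_ofReal_mul_I_re, Complex.exp_ofReal_mul_I_re, e1,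
          Real.cos_sub_int_mul_two_pi]
      · rw [Complex.exp_ofReal_mul_I_im, Complex.exp_ofReal_mul_I_im, e1,
          Real.sin_sub_int_mul_two_pi]
    rw [h1]
  rw [← hper] at h1 h2 ⊢
  obtain ⟨v, hv⟩ : ∃ v, v = w - 6 * k := ⟨_, rfl⟩
  rw [← hv] at h1 h2 ⊢
  rw [abs_le] at hk
  have key : ∀ t : ℝ, |v - t| < 5 → dist (pt z v) (pt z t) ≤ 1 → |v - t| ≤ 1 := by
    intro t h5 hd
    refine cos_half353 h5 ?_
    have h6 := H383.sq_dist_pt z v t
    have h7 : dist (pt z v) (pt z t) ^ 2 ≤ 1 := pow_le_one₀ dist_nonneg hd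
    rw [h6] at h7
    linarith
  have k1 := key s (by rw [abs_lt]; constructor <;> linarith [hk.1, hk.2]) h1
  have k2 := key (s + 1) (by rw [abs_lt]; constructor <;> linarith [hk.1, hk.2]) h2
  rw [abs_le] at k1 k2
  exact ⟨v, ⟨by linarith [k2.1, k2.2], by linarith [k1.1, k1.2]⟩, rfl⟩

/-- an arc of 60 degrees contains the points of the circle near both ends -/
theorem qi_full353 (h : Irr U T) (hV : QI0 T Inv V a b m n e f V1 V2) (hd : dist V1 V2 = 1)
    {r : ℂ} (hr : dist r V = 1) (h1 : dist r V1 ≤ 1) (h2 : dist r V2 ≤ 1) :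
    ({a, b} : Set (Fin 6)) ⊆ T r := by
  obtain ⟨s, t, hst, hts, hE, -, hcl⟩ := hV.arc' h
  have ht : t = s + 1 := by
    by_contra hne
    have h3 : t < s + 1 := lt_of_le_of_ne hts hne
    have h4 : dist (pt V t) (pt V s) < 1 := H383.dist_pt_lt V (abs_lt.2 ⟨by linarith, by linarith⟩)
    rcases hE with ⟨h5, h6⟩ | ⟨h5, h6⟩
    · rw [h5, h6] at hd; linarith
    · rw [h5, h6, dist_comm] at hd; linarith
  subst ht
  have hmem : r ∈ closure (Ex T V {a, b}) := by
    rw [hcl]
    have key : dist r (pt V s) ≤ 1 → dist r (pt V (s + 1)) ≤ 1 →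
        r ∈ pt V '' Icc s (s + 1) := by
      intro h5 h6
      obtain ⟨x, hx, rfl⟩ := arc_near353 hr h5 h6
      exact ⟨x, hx, rfl⟩
    rcases hE with ⟨h5, h6⟩ | ⟨h5, h6⟩
    · exact key (h6 ▸ h2) (h5 ▸ h1)
    · exact key (h5 ▸ h1) (h6 ▸ h2)
  exact sub_of_closure h hmem

/-- the middle of the arc is near both ends -/
theorem qi_mid353 (hV : QI0 T Inv V a b m n e f V1 V2) :
    dist (mid V V1 V2) V1 < 1 ∧ dist (mid V V1 V2) V2 < 1 := by
  obtain ⟨s, t, h1, h2, h3, -⟩ := hV.arc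
  have k1 : dist (pt V ((s + t) / 2)) (pt V t) < 1 :=
    H383.dist_pt_lt V (abs_lt.2 ⟨by linarith, by linarith⟩)
  have k2 : dist (pt V ((s + t) / 2)) (pt V s) < 1 :=
    H383.dist_pt_lt V (abs_lt.2 ⟨by linarith, by linarith⟩)
  rcases h3 with ⟨rfl, rfl⟩ | ⟨rfl, rfl⟩
  · rw [mid_pt h1 h2]; exact ⟨k1, k2⟩
  · rw [mid_comm, mid_pt h1 h2]; exact ⟨k2, k1⟩

/-- STAY at one end, SWITCH at the other: not with ends at distance one -/
theorem qi_mixed353 (h : Irr U T) {g g' e1 f1 e2 f2 : Fin 6}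
    (hV : QI T Inv V a b m n e f V1 V2) (hd : dist V1 V2 = 1)
    (h1 : QI T Inv V1 a m g b e1 f1 V2 V) (h2 : QI T Inv V2 m b a g' e2 f2 V1 V) : False := by
  have hq := hV.mid_mem h
  obtain ⟨k1, k2⟩ := qi_mid353 hV.toQI0
  have d1 := hV.dist1
  have d2 := hV.dist2
  refine h.no_tri802 (z := V) (y := V1) (p := V2) (q := mid V V1 V2) (a := a) (b := b) d1 d2 hd
    hq.1 (ex_self hq).le k1 k2 (fun r hr hrz hrp => ?_) (fun r hr hrz hry => ?_)
  · exact qi_full353 h h1.toQI0 d2 hr hrp hrz (by simp)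
  · exact qi_full353 h h2.toQI0 d1 hr hry hrz (by simp)

/-- **a connecting arc of 60 degrees** : both links are `J` -/
theorem qi_tri353 (h : Irr U T) (hw : QIW T Inv) (hI : ∀ x y, ¬ Inv x y)
    (hV : QI T Inv V a b m n e f V1 V2) (hd : dist V1 V2 = 1) : T V1 = T V ∧ T V2 = T V := by
  have hVV : ∀ {X : ℂ}, dist X V = 1 → X ≠ V := fun hX hc => by
    rw [hc, dist_self] at hX; exact zero_ne_one hX
  have nd := hV.nd
  simp only [List.nodup_cons, List.mem_cons, List.not_mem_nil, or_false, not_or, List.nodup_nil,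
    and_true, not_false_eq_true] at nd
  obtain ⟨⟨ab, am, an, ae, af⟩, ⟨bm, bn, be, bf⟩, ⟨mn, me, mf⟩, ⟨ne, nf⟩, ef⟩ := nd
  -- the other end of the arc of `V1` is `V2`
  have nb : ∀ {X Y : ℂ} {a1 b1 m1 n1 e1 f1 : Fin 6} {W : ℂ}, QI T Inv X a1 b1 m1 n1 e1 f1 W V →
      dist Y X = 1 → 4 ≤ (T Y).ncard → Y ≠ V → W = Y := by
    intro X Y a1 b1 m1 n1 e1 f1 W hX hY h4 hne
    rcases hX.ord Y hY h4 with h3 | h3 | h3
    · exact h3.symm
    · exact absurd h3 hne
    · exact absurd h3 (hI _ _)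
  have n1 := hVV hV.dist1
  have n2 := hVV hV.dist2
  have hd' : dist V2 V1 = 1 := by rw [dist_comm]; exact hd
  have pal : T V = {a, b, m, n} := hV.pal
  obtain ⟨g, e1, f1, W, h1⟩ := hw.link hV
  obtain ⟨g', e2, f2, W', h2⟩ := hw.link hV.mirror
  rcases h1 with h1 | h1
  · have hW := nb h1 hd' hV.ord2.ge n2
    subst hW
    rcases h2 with h2 | h2
    · -- STAY, STAY
      have hW' := nb h2 hd hV.ord1.ge n1
      subst hW'
      have hg : g = n := by
        obtain ⟨g2, e3, f3, X, h3 | h3⟩ := hw.link h1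
        · have h4 := hw.pair_unique h h2 h3
          rcases pair_cases h4 with ⟨-, h5⟩ | ⟨h5, h6⟩
          · exact h5
          · exact absurd h5 an
        · have h4 := hw.pair_unique h h2 h3
          rcases pair_cases h4 with ⟨h5, -⟩ | ⟨h5, -⟩
          · exact absurd h5.symm ab
          · exact absurd h5 bn
      have hg' : g' = m := by
        obtain ⟨g2, e3, f3, X, h3 | h3⟩ := hw.link h2
        · have h4 := hw.pair_unique h h1 h3
          rcases pair_cases h4 with ⟨-, h5⟩ | ⟨h5, h6⟩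
          · exact h5
          · exact absurd h5 am
        · have h4 := hw.pair_unique h h1 h3
          rcases pair_cases h4 with ⟨h5, -⟩ | ⟨h5, -⟩
          · exact absurd h5.symm ab
          · exact absurd h5 bm
      subst hg hg'
      rw [h1.pal, h2.pal, pal]
      constructor <;> (ext i; simp only [mem_insert_iff, mem_singleton_iff]; tauto)
    · -- STAY, SWITCH
      have hW' := nb h2 hd hV.ord1.ge n1
      subst hW'
      exact (qi_mixed353 h hV hd h1 h2).elim
  · have hW := nb h1 hd' hV.ord2.ge n2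
    subst hW
    rcases h2 with h2 | h2
    · -- SWITCH, STAY
      have hW' := nb h2 hd hV.ord1.ge n1
      subst hW'
      exact (qi_mixed353 h hV.mirror hd' h2 h1).elim
    · -- SWITCH, SWITCH
      have hW' := nb h2 hd hV.ord1.ge n1
      subst hW'
      have hg : g = m := by
        obtain ⟨g2, e3, f3, X, h3 | h3⟩ := hw.link h1
        · have h4 := hw.pair_unique h h2 h3
          rcases pair_cases h4 with ⟨h5, -⟩ | ⟨h5, -⟩
          · exact absurd h5.symm mn
          · exact absurd h5.symm bn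
        · have h4 := hw.pair_unique h h2 h3
          rcases pair_cases h4 with ⟨h5, -⟩ | ⟨h5, h6⟩
          · exact h5
          · exact absurd h6 bm
      have hg' : g' = n := by
        obtain ⟨g2, e3, f3, X, h3 | h3⟩ := hw.link h2
        · have h4 := hw.pair_unique h h1 h3
          rcases pair_cases h4 with ⟨h5, -⟩ | ⟨h5, -⟩
          · exact absurd h5 mn
          · exact absurd h5.symm bm
        · have h4 := hw.pair_unique h h1 h3
          rcases pair_cases h4 with ⟨h5, -⟩ | ⟨h5, h6⟩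
          · exact h5
          · exact absurd h6 bn
      subst hg hg'
      rw [h1.pal, h2.pal, pal]
      constructor <;> (ext i; simp only [mem_insert_iff, mem_singleton_iff]; tauto)

/-- a link is a `J`- or a `K`-end -/
theorem lk_jk353 (nd : [a, b, m, n, e, f].Nodup) (hz : DPt T V a b m n)
    (hl : ∃ g, DPt T V1 a m b g ∨ DPt T V1 n b a g) : JKEnd T V a b m n e f V1 := by
  have hall := all_names353 nd
  obtain ⟨g, hD | hD⟩ := hl
  · rcases hall g with h1 | h1 | h1 | h1 | h1 | h1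
    · exact absurd h1.symm hD.ad
    · exact absurd h1.symm hD.cd
    · exact absurd h1.symm hD.bd
    · left
      rw [hD.pal, hz.pal, h1]
      ext i
      simp only [mem_insert_iff, mem_singleton_iff]
      tauto
    · exact Or.inr ⟨a, b, m, g, Or.inl ⟨rfl, rfl⟩, Or.inl rfl, Or.inl h1, hD⟩
    · exact Or.inr ⟨a, b, m, g, Or.inl ⟨rfl, rfl⟩, Or.inl rfl, Or.inr h1, hD⟩
  · have hD : DPt T V1 b n a g := hD.swap12
    rcases hall g with h1 | h1 | h1 | h1 | h1 | h1
    · exact absurd h1.symm hD.cd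
    · exact absurd h1.symm hD.ad
    · left
      rw [hD.pal, hz.pal, h1]
      ext i
      simp only [mem_insert_iff, mem_singleton_iff]
      tauto
    · exact absurd h1.symm hD.bd
    · exact Or.inr ⟨b, a, n, g, Or.inr ⟨rfl, rfl⟩, Or.inr rfl, Or.inl h1, hD⟩
    · exact Or.inr ⟨b, a, n, g, Or.inr ⟨rfl, rfl⟩, Or.inr rfl, Or.inr h1, hD⟩

/-- **the arc data** -/
theorem qi_data353 (h : Irr U T) (hw : QIW T Inv) (hI : ∀ x y, ¬ Inv x y)
    (hV : QI T Inv V a b m n e f V1 V2) : ∃ u0 α : ℝ, 0 < α ∧ α ≤ 1 ∧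
    (∀ t ∈ Ioo (0 : ℝ) α, T (pt V (u0 + t)) = {a, b}) ∧
    (∀ q, dist q V = 1 → T q = {a, b} → ∃ t ∈ Ioo (0 : ℝ) α, q = pt V (u0 + t)) ∧
    JKEnd T V a b m n e f (pt V u0) ∧ JKEnd T V a b m n e f (pt V (u0 + α)) ∧
    (∀ y, dist y V = 1 → 4 ≤ (T y).ncard → y = pt V u0 ∨ y = pt V (u0 + α)) ∧
    (α = 1 → T (pt V u0) = T V ∧ T (pt V (u0 + α)) = T V) := by
  obtain ⟨s, t, h1, h2, h3, h4, h5⟩ := hV.arc
  have hst : s + (t - s) = t := by ring
  have hends : (pt V s = V1 ∧ pt V (s + (t - s)) = V2) ∨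
      (pt V s = V2 ∧ pt V (s + (t - s)) = V1) := by
    rw [hst]
    rcases h3 with ⟨h6, h7⟩ | ⟨h6, h7⟩
    · exact Or.inr ⟨h7.symm, h6.symm⟩
    · exact Or.inl ⟨h6.symm, h7.symm⟩
  have hab : a ≠ b := hV.dpt.ab
  have hT1 := hV.ord1
  have hT2 := hV.ord2
  have jk1 : JKEnd T V a b m n e f V1 := lk_jk353 hV.nd hV.dpt hV.lk1
  have jk2 : JKEnd T V a b m n e f V2 := jk_swap353 (lk_jk353 hV.mirror.nd hV.mirror.dpt hV.mirror.lk1)
  have hord : ∀ y, dist y V = 1 → 4 ≤ (T y).ncard → y = V1 ∨ y = V2 := by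
    intro y hy hy4
    rcases hV.ord y hy hy4 with h6 | h6 | h6
    · exact Or.inl h6
    · exact Or.inr h6
    · exact absurd h6 (hI _ _)
  refine ⟨s, t - s, by linarith, by linarith, fun r hr => h4 _ ⟨by linarith [hr.1], by
    linarith [hr.2]⟩, fun q hq hqT => ?_, ?_, ?_, fun y hy hy4 => ?_, fun hα => ?_⟩
  · obtain ⟨r, hr, hrq⟩ := h5 q hq hqT
    have hne : ∀ x, (T x).ncard = 4 → q ≠ x := by
      rintro x hx rfl
      rw [hqT, Set.ncard_pair hab] at hx
      omega
    refine ⟨r - s, ⟨?_, ?_⟩, ?_⟩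
    · rcases lt_or_eq_of_le hr.1 with h6 | h6
      · linarith
      · exfalso
        rw [← h6] at hrq
        rcases hends with ⟨h7, -⟩ | ⟨h7, -⟩
        · exact hne V1 hT1 (by rw [← hrq]; exact h7)
        · exact hne V2 hT2 (by rw [← hrq]; exact h7)
    · rcases lt_or_eq_of_le hr.2 with h6 | h6
      · linarith
      · exfalso
        rw [h6, ← hst] at hrq
        rcases hends with ⟨-, h7⟩ | ⟨-, h7⟩
        · exact hne V2 hT2 (by rw [← hrq]; exact h7)
        · exact hne V1 hT1 (by rw [← hrq]; exact h7)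
    · rw [← hrq]
      congr 1; ring
  · rcases hends with ⟨h7, -⟩ | ⟨h7, -⟩
    · rw [h7]; exact jk1
    · rw [h7]; exact jk2
  · rcases hends with ⟨-, h7⟩ | ⟨-, h7⟩
    · rw [h7]; exact jk2
    · rw [h7]; exact jk1
  · rcases hends with ⟨h7, h8⟩ | ⟨h7, h8⟩
    · rw [h7, h8]; exact hord y hy hy4
    · rw [h7, h8]; exact (hord y hy hy4).symm
  · have hd : dist V1 V2 = 1 := by
      have h6 := dist_pt_one V s
      have h7 : s + 1 = s + (t - s) := by linarith
      rw [h7] at h6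
      rcases hends with ⟨h8, h9⟩ | ⟨h8, h9⟩
      · rw [h8, h9] at h6
        exact h6
      · rw [h8, h9] at h6
        rw [dist_comm]; exact h6
    obtain ⟨k1, k2⟩ := qi_tri353 h hw hI hV hd
    rcases hends with ⟨h7, h8⟩ | ⟨h7, h8⟩
    · rw [h7, h8]; exact ⟨k1, k2⟩
    · rw [h7, h8]; exact ⟨k2, k1⟩

/-- a plain end, both links `J` -/
theorem jj_end353 (h : Irr U T) (hz : DPt T V a b c d) (nd : [a, b, c, d, e, f].Nodup)
    {u0 α : ℝ} (harc : ∀ t ∈ Ioo (0 : ℝ) α, T (pt V (u0 + t)) = {a, b})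
    (honly : ∀ q, dist q V = 1 → T q = {a, b} → ∃ t ∈ Ioo (0 : ℝ) α, q = pt V (u0 + t))
    (hl : T (pt V u0) = T V) (hr : T (pt V (u0 + α)) = T V)
    (h4 : ∀ y, dist y V = 1 → 4 ≤ (T y).ncard → y = pt V u0 ∨ y = pt V (u0 + α)) :
    ∃ y ∈ closure (Ex T V {c, d}), T y = {c, d, f} := by
  have hn := nd
  simp only [List.nodup_cons, List.mem_cons, List.not_mem_nil, or_false, not_or, List.nodup_nil,
    and_true, not_false_eq_true] at hn
  obtain ⟨⟨ab, ac, ad, ae, af⟩, ⟨bc, bd, be, bf⟩, ⟨cd, ce, cf⟩, ⟨de, df⟩, ef⟩ := hn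
  have hT : ∀ y, dist y V = 1 → (T y).ncard ≤ 3 ∨ T y = T V := by
    intro y hy
    by_cases k3 : (T y).ncard ≤ 3
    · exact Or.inl k3
    · right
      rcases h4 y hy (by omega) with rfl | rfl
      · exact hl
      · exact hr
  have hclos : closure (Ex T V {a, b}) ⊆ (fun t : ℝ => pt V (u0 + t)) '' Icc 0 α := by
    have h1 : IsClosed ((fun t : ℝ => pt V (u0 + t)) '' Icc 0 α) :=
      (isCompact_Icc.image ((continuous_pt V).comp (continuous_const_add u0))).isClosed
    refine closure_minimal (fun y hy => ?_) h1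
    obtain ⟨t, ht, hyt⟩ := honly y hy.1 (ex_self hy)
    exact ⟨t, ⟨ht.1.le, ht.2.le⟩, hyt.symm⟩
  rcases h.plain353 hz nd (fun y hy => by
      rcases hT y hy with h1 | h1
      · exact Or.inl h1
      · exact Or.inr (Or.inl h1))
    (fun y p hy _ _ k3 kT => by
      rcases hT y hy with h1 | h1
      · exact absurd h1 k3
      · exact absurd h1 kT)
    (fun y y' hy _ k3 _ hfy _ _ _ => by
      rcases hT y hy with h1 | h1
      · exact absurd h1 k3
      · rw [h1, hz.pal] at hfy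
        simp [Ne.symm af, Ne.symm bf, Ne.symm cf, Ne.symm df] at hfy) with
      ⟨y, hy, hyT⟩ | ⟨y, hy, hyT⟩
  · exfalso
    obtain ⟨t, ht, rfl⟩ := hclos hy
    have h4V : (T V).ncard = 4 := hz.ncard
    have h5 : (T (pt V (u0 + t))).ncard = 3 := by
      rw [hyT]; exact Set.ncard_eq_three.2 ⟨a, b, f, ab, af, bf, rfl⟩
    rcases eq_or_lt_of_le ht.1 with h1 | h1
    · subst h1
      rw [add_zero, hl] at h5
      omega
    rcases eq_or_lt_of_le ht.2 with h2 | h2
    · subst h2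
      rw [hr] at h5
      omega
    · have h6 : (T (pt V (u0 + t))).ncard = 2 := by
        rw [harc t ⟨h1, h2⟩, Set.ncard_pair ab]
      omega
  · exact ⟨y, hy, hyT⟩

/-- **(P2) plain ends with both free colours** -/
theorem qi_ends353 (h : Irr U T) (hw : QIW T Inv) (hI : ∀ x y, ¬ Inv x y)
    (hV : QI T Inv V a b m n e f V1 V2) :
    (∃ y ∈ closure (Ex T V {m, n}), T y = {m, n, e}) ∧
      ∃ y ∈ closure (Ex T V {m, n}), T y = {m, n, f} := by
  obtain ⟨u0, α, hα0, hα1, harc, honly, hl, hr, h4, hJ⟩ := qi_data353 h hw hI hV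
  rcases hα1.lt_or_eq with hα1 | hα1
  · exact h.quasi_ends928 hV.dpt hV.nd hα0 hα1 harc honly hl hr h4
  · obtain ⟨k1, k2⟩ := hJ hα1
    exact ⟨jj_end353 h hV.dpt (nodup_ef353 hV.nd) harc honly k1 k2 h4,
      jj_end353 h hV.dpt hV.nd harc honly k1 k2 h4⟩

variable {g : ℂ → Set (Fin 6)} {Z : Set ℂ} {o : ℂ} {R δ₀ : ℝ}

/-- **(B3)** the four-term sum -/
theorem qi_par353 (D : DSt U T Z g o R δ₀) (hR : dist V o ≤ R - 1) (hw : QIW T Inv)
    (hI : ∀ x y, ¬ Inv x y) (hV : QI T Inv V a b m n e f V1 V2) :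
    lamT T Z g δ₀ a V e f + lamT T Z g δ₀ b V e f + lamT T Z g δ₀ m V e f +
      lamT T Z g δ₀ n V e f = 1 := by
  have h := D.df.irr
  have hz := hV.dpt
  have hnd := hV.nd
  obtain ⟨u0, α, hα0, hα1, harc, honly, hl, hr, h4, hJ⟩ := qi_data353 h hw hI hV
  have int6 : ∀ (n : ℤ) (x : ℝ), x = n * 6 → -6 < x → x < 6 → x = 0 := by
    intro n x hx h1 h2
    rw [hx] at h1 h2
    have c1 : (n : ℝ) < 1 := by linarith
    have c2 : (-1 : ℝ) < n := by linarith
    have c3 : n < (1 : ℤ) := by exact_mod_cast c1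
    have c4 : (-1 : ℤ) < n := by exact_mod_cast c2
    have c5 : n = 0 := by omega
    rw [hx, c5]; simp
  have h3 : ∀ s : ℝ, -2 < s → s < 3 → s ≠ 0 → s ≠ α → (T (pt V (u0 + s))).ncard ≤ 3 := by
    intro s h1 h2 h5 h6
    by_contra hcc
    rcases h4 _ (dist_pt V (u0 + s)) (by omega) with h7 | h7
    · obtain ⟨n, hn⟩ := pt_inj460 h7
      exact h5 (int6 n s (by linarith) (by linarith) (by linarith))
    · obtain ⟨n, hn⟩ := pt_inj460 h7
      have := int6 n (s - α) (by linarith) (by linarith) (by linarith)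
      exact h6 (by linarith)
  have hsafe : ∀ y, (y = pt V u0 ∨ y = pt V (u0 + α)) → Safe T V e f y := by
    intro y hy
    rcases hα1.lt_or_eq with hα1 | hα1
    · have hlt : dist (pt V u0) (pt V (u0 + α)) ≠ 1 :=
        (H383.dist_pt_lt V (s := u0) (t := u0 + α) (abs_lt.2 ⟨by linarith, by linarith⟩)).ne
      rcases hy with rfl | rfl
      · refine jk_safe353 hnd hl fun x hx hxv => ?_
        by_contra hcc
        rcases h4 x hx (by omega) with rfl | rfl
        · rw [dist_self] at hxv; exact zero_ne_one hxv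
        · exact hlt (by rw [dist_comm]; exact hxv)
      · refine jk_safe353 hnd hr fun x hx hxv => ?_
        by_contra hcc
        rcases h4 x hx (by omega) with rfl | rfl
        · exact hlt hxv
        · rw [dist_self] at hxv; exact zero_ne_one hxv
    · obtain ⟨k1, k2⟩ := hJ hα1
      rcases hy with rfl | rfl
      · exact Or.inl k1
      · exact Or.inl k2
  refine D.sum_four_quasi hR hz hnd hα0 hα1 harc honly ?_ ?_ (fun y hy hy4 => hsafe y (h4 y hy hy4))
    (fun y hy hy4 => ?_)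
  · refine hl.pend h hz hnd (dist_pt V _) (dist_pt V _) ?_ ?_
    · have := dist_pt_one V (u0 - 1)
      rwa [sub_add_cancel] at this
    · rw [sub_eq_add_neg]
      exact h3 (-1) (by norm_num) (by norm_num) (by norm_num) (by linarith)
  · refine hr.pend h hz hnd (dist_pt V _) (dist_pt V _) ?_ ?_
    · rw [dist_comm]; exact dist_pt_one V _
    · rw [add_assoc]
      exact h3 (α + 1) (by linarith) (by linarith) (by linarith) (by linarith)
  · rcases h4 y hy hy4 with rfl | rfl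
    · exact jk_heg353 hz hnd hl
    · exact jk_heg353 hz hnd hr

/-- no face `{a, b, e}`, `{a, b, f}` in the closed disc about a point of the world -/
theorem qi_noface353 (h : DF U T) (hN : NoComp T) (hw : QIW T Inv) (hI : ∀ x y, ¬ Inv x y)
    (G : GaugeI758 T Inv g) (hV : QI T Inv V a b m n e f V1 V2) {u : ℂ} (huV : dist u V ≤ 1) :
    ¬ FcD T g u {a, b, e} ∧ ¬ FcD T g u {a, b, f} := by
  have hS : NoStar T := H747.noStar_QI h hw fun V y _ h1 _ => hI V y h1
  obtain ⟨⟨y, hy, hyT⟩, ⟨y', hy', hyT'⟩⟩ := qi_ends353 h.irr hw hI hV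
  refine ⟨fun hF => ?_, fun hF => ?_⟩
  · exact qi_no_face353 h hN hS hw hI G.ch (fun hQ => G.qi hQ) hV hy' hyT' huV hF
  · exact qi_no_face353 h hN hS hw hI G.ch (fun hQ => G.qi hQ) hV.swapEF hy hyT huV hF

/-- **(B4)** the zeros -/
theorem qi_zero353 (D : DSt U T Z g o R δ₀) (hR : dist V o ≤ R - 1) (hN : NoComp T)
    (hw : QIW T Inv) (hI : ∀ x y, ¬ Inv x y) (G : GaugeI758 T Inv g)
    (hV : QI T Inv V a b m n e f V1 V2) {l : Fin 6} (hl : l = e ∨ l = f) :
    lamT T Z g δ₀ a V b l = 0 ∧ lamT T Z g δ₀ b V a l = 0 := by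
  have key : ∀ u, dist u V ≤ 1 → ¬ FcD T g u {a, b, l} := by
    intro u hu
    rcases hl with rfl | rfl
    · exact (qi_noface353 D.df hN hw hI G hV hu).1
    · exact (qi_noface353 D.df hN hw hI G hV hu).2
  have ha : a ∈ T V := by rw [hV.pal]; simp
  have hb : b ∈ T V := by rw [hV.pal]; simp
  refine ⟨?_, ?_⟩
  · by_contra hne
    obtain ⟨u, hu, hF, -⟩ := D.supp hR ha hne
    exact key u (mem_closedBall.1 hu) hF
  · by_contra hne
    obtain ⟨u, hu, hF, -⟩ := D.supp hR hb hne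
    rw [Set.insert_comm] at hF
    exact key u (mem_closedBall.1 hu) hF

end Vale.Agent.P032.Six
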