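import Mathlib

/-!
# P032: three labels in a row with one exceptional direction

On an open interval the sets `Q t ⊆ {0, 1, 2}` do not contain both `0` and `2`, and `Q t`,
`Q (t + 1)` are incomparable for `t ≠ δ - 1`, `t ≠ δ`.  Then the label `1` is absent at distance more
than `5` from one of the ends, except at two times.
-/

open Set Filter Topology

noncomputable section

namespace Vale.Agent.P032.H353

/-- the data -/
structure Cv353 (Q : ℝ → Set (Fin 3)) (p q δ : ℝ) : Prop where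
  ne : ∀ t ∈ Ioo p q, (Q t).Nonempty
  no : ∀ t ∈ Ioo p q, ¬ (0 ∈ Q t ∧ 2 ∈ Q t)
  usc : ∀ t ∈ Ioo p q, ∀ᶠ s in 𝓝 t, Q s ⊆ Q t
  inc : ∀ t, p < t → t + 1 < q → t ≠ δ - 1 → t ≠ δ → ¬ Q t ⊆ Q (t + 1)
  inc' : ∀ t, p < t → t + 1 < q → t ≠ δ - 1 → t ≠ δ → ¬ Q (t + 1) ⊆ Q t

open Classical in
/-- height of a set of labels -/
def ht353 (X : Set (Fin 3)) : ℤ :=
  if 0 ∈ X then (if 1 ∈ X then 1 else 0) else if 1 ∈ X then (if 2 ∈ X then 3 else 2) else 4

theorem fin3_353 {X Y : Set (Fin 3)} (h0 : 0 ∈ X → 0 ∈ Y) (h1 : 1 ∈ X → 1 ∈ Y)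
    (h2 : 2 ∈ X → 2 ∈ Y) : X ⊆ Y := by
  intro i hi
  fin_cases i
  · exact h0 hi
  · exact h1 hi
  · exact h2 hi

theorem ne353 {X : Set (Fin 3)} (h : X.Nonempty) : 0 ∈ X ∨ 1 ∈ X ∨ 2 ∈ X := by
  obtain ⟨i, hi⟩ := h
  fin_cases i
  · exact Or.inl hi
  · exact Or.inr (Or.inl hi)
  · exact Or.inr (Or.inr hi)

theorem ht_rng353 (X : Set (Fin 3)) : 0 ≤ ht353 X ∧ ht353 X ≤ 4 := by
  unfold ht353
  split_ifs <;> omega

/-- the label `1` is absent at the extreme heights -/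
theorem ht_mem353 {X : Set (Fin 3)} (h : 1 ∈ X) : 1 ≤ ht353 X ∧ ht353 X ≤ 3 := by
  unfold ht353
  split_ifs <;> omega

theorem ht_sub353 {X Y : Set (Fin 3)} (hX : X.Nonempty) (hY : ¬ (0 ∈ Y ∧ 2 ∈ Y)) (h : X ⊆ Y) :
    |ht353 X - ht353 Y| ≤ 1 := by
  have h0 := @h 0
  have h1 := @h 1
  have h2 := @h 2
  rcases ne353 hX with hX | hX | hX <;> unfold ht353 <;> split_ifs <;> norm_num <;> tauto

/-- the five cases -/
theorem ht_cases353 {X : Set (Fin 3)} (hX : X.Nonempty) (h : ¬ (0 ∈ X ∧ 2 ∈ X)) :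
    (ht353 X = 0 ∧ 0 ∈ X ∧ 1 ∉ X ∧ 2 ∉ X) ∨ (ht353 X = 1 ∧ 0 ∈ X ∧ 1 ∈ X ∧ 2 ∉ X) ∨
      (ht353 X = 2 ∧ 0 ∉ X ∧ 1 ∈ X ∧ 2 ∉ X) ∨ (ht353 X = 3 ∧ 0 ∉ X ∧ 1 ∈ X ∧ 2 ∈ X) ∨
      (ht353 X = 4 ∧ 0 ∉ X ∧ 1 ∉ X ∧ 2 ∈ X) := by
  have n1 := ne353 hX
  by_cases h0 : 0 ∈ X
  · have h2 : 2 ∉ X := fun h2 => h ⟨h0, h2⟩
    by_cases h1 : 1 ∈ X
    · exact Or.inr (Or.inl ⟨by unfold ht353; rw [if_pos h0, if_pos h1], h0, h1, h2⟩)
    · exact Or.inl ⟨by unfold ht353; rw [if_pos h0, if_neg h1], h0, h1, h2⟩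
  · by_cases h1 : 1 ∈ X
    · by_cases h2 : 2 ∈ X
      · exact Or.inr (Or.inr (Or.inr (Or.inl
          ⟨by unfold ht353; rw [if_neg h0, if_pos h1, if_pos h2], h0, h1, h2⟩)))
      · exact Or.inr (Or.inr (Or.inl
          ⟨by unfold ht353; rw [if_neg h0, if_pos h1, if_neg h2], h0, h1, h2⟩))
    · have h2 : 2 ∈ X := (n1.resolve_left h0).resolve_left h1
      exact Or.inr (Or.inr (Or.inr (Or.inr ⟨by unfold ht353; rw [if_neg h0, if_neg h1], h0, h1, h2⟩)))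

theorem ht_inc353 {X Y : Set (Fin 3)} (hX : X.Nonempty) (hY : Y.Nonempty)
    (hX0 : ¬ (0 ∈ X ∧ 2 ∈ X)) (hY0 : ¬ (0 ∈ Y ∧ 2 ∈ Y)) (h : ¬ X ⊆ Y) (h' : ¬ Y ⊆ X) :
    2 ≤ ht353 Y - ht353 X ∨ ht353 Y - ht353 X ≤ -2 := by
  have k : ¬ ((0 ∈ X → 0 ∈ Y) ∧ (1 ∈ X → 1 ∈ Y) ∧ (2 ∈ X → 2 ∈ Y)) :=
    fun k => h (fin3_353 k.1 k.2.1 k.2.2)
  have k' : ¬ ((0 ∈ Y → 0 ∈ X) ∧ (1 ∈ Y → 1 ∈ X) ∧ (2 ∈ Y → 2 ∈ X)) :=
    fun k => h' (fin3_353 k.1 k.2.1 k.2.2)
  rcases ht_cases353 hX hX0 with ⟨e, a⟩ | ⟨e, a⟩ | ⟨e, a⟩ | ⟨e, a⟩ | ⟨e, a⟩ <;>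
    rcases ht_cases353 hY hY0 with ⟨e', a'⟩ | ⟨e', a'⟩ | ⟨e', a'⟩ | ⟨e', a'⟩ | ⟨e', a'⟩ <;>
    rw [e, e'] <;> first | omega | (exfalso; tauto)

/-- a function which is locally constant on a preconnected set -/
theorem const353 {S : Set ℝ} (hS : IsPreconnected S) {f : ℝ → ℤ}
    (hf : ∀ t ∈ S, ∀ᶠ s in 𝓝 t, s ∈ S → f s = f t) : ∀ s ∈ S, ∀ t ∈ S, f s = f t := by
  intro s hs t ht
  have hc : ContinuousOn f S := fun x hx =>
    (tendsto_const_nhds (x := f x)).congr' (by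
      rw [EventuallyEq, eventually_nhdsWithin_iff]
      exact (hf x hx).mono fun y hy hyS => (hy hyS).symm)
  exact hS.constant hc hs ht

variable {Q : ℝ → Set (Fin 3)} {p q δ : ℝ}

/-- the difference of heights -/
def df353 (Q : ℝ → Set (Fin 3)) (t : ℝ) : ℤ := ht353 (Q (t + 1)) - ht353 (Q t)

theorem Cv353.two (h : Cv353 Q p q δ) {t : ℝ} (h1 : p < t) (h2 : t + 1 < q) (h3 : t ≠ δ - 1)
    (h4 : t ≠ δ) : 2 ≤ df353 Q t ∨ df353 Q t ≤ -2 :=
  ht_inc353 (h.ne t ⟨h1, by linarith⟩) (h.ne (t + 1) ⟨by linarith, h2⟩)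
    (h.no t ⟨h1, by linarith⟩) (h.no (t + 1) ⟨by linarith, h2⟩) (h.inc t h1 h2 h3 h4)
    (h.inc' t h1 h2 h3 h4)

/-- the sign is constant on an interval without exceptional directions -/
theorem Cv353.sign (h : Cv353 Q p q δ) {S : Set ℝ} (hS : IsPreconnected S)
    (h1 : ∀ t ∈ S, p < t ∧ t + 1 < q ∧ t ≠ δ - 1 ∧ t ≠ δ) {s t : ℝ} (hs : s ∈ S) (ht : t ∈ S) :
    0 < df353 Q s ↔ 0 < df353 Q t := by
  classical
  have key := const353 hS (f := fun t => if 0 < df353 Q t then 1 else 0) (fun t ht => by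
    obtain ⟨a1, a2, a3, a4⟩ := h1 t ht
    have e1 := h.usc t ⟨a1, by linarith⟩
    have e2 : ∀ᶠ s in 𝓝 t, Q (s + 1) ⊆ Q (t + 1) := by
      have : Tendsto (fun s : ℝ => s + 1) (𝓝 t) (𝓝 (t + 1)) := by
        have : Continuous fun s : ℝ => s + 1 := by fun_prop
        exact this.tendsto t
      exact this.eventually (h.usc (t + 1) ⟨by linarith, a2⟩)
    filter_upwards [e1, e2] with s k1 k2 hs
    obtain ⟨b1, b2, b3, b4⟩ := h1 s hs
    have m1 := ht_sub353 (h.ne s ⟨b1, by linarith⟩) (h.no t ⟨a1, by linarith⟩) k1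
    have m2 := ht_sub353 (h.ne (s + 1) ⟨by linarith, b2⟩) (h.no (t + 1) ⟨by linarith, a2⟩) k2
    have m3 := h.two a1 a2 a3 a4
    have m4 := h.two b1 b2 b3 b4
    rw [abs_le] at m1 m2
    unfold df353 at m3 m4 ⊢
    split_ifs <;> omega)
  have k := key s hs t ht
  constructor
  · intro h5
    by_contra h6
    rw [if_pos h5, if_neg h6] at k
    omega
  · intro h5
    by_contra h6
    rw [if_pos h5, if_neg h6] at k
    omega

/-- no three equal signs in a row -/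
theorem Cv353.three (h : Cv353 Q p q δ) {t : ℝ} (h1 : p < t) (h2 : t + 3 < q)
    (h3 : t ≠ δ - 1) (h4 : t + 1 ≠ δ - 1) (h5 : t + 2 ≠ δ - 1) (h6 : t ≠ δ) (h7 : t + 1 ≠ δ)
    (h8 : t + 2 ≠ δ) (k1 : 0 < df353 Q t ↔ 0 < df353 Q (t + 1))
    (k2 : 0 < df353 Q (t + 1) ↔ 0 < df353 Q (t + 2)) : False := by
  have m1 := h.two h1 (by linarith) h3 h6
  have m2 := h.two (t := t + 1) (by linarith) (by linarith) h4 h7
  have m3 := h.two (t := t + 2) (by linarith) (by linarith) h5 h8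
  have r1 := ht_rng353 (Q t)
  have r2 := ht_rng353 (Q (t + 2 + 1))
  have e1 : t + 1 + 1 = t + 2 := by ring
  unfold df353 at m1 m2 m3 k1 k2
  rw [e1] at m2 k1 k2
  omega

/-- **The end of a chain.** -/
theorem Cv353.right (h : Cv353 Q p q δ) {t : ℝ} (h1 : p + 5 < t) (h2 : t < q) (h3 : t ≠ δ + 2)
    (h4 : t ≠ δ + 3) : 1 ∉ Q t := by
  have e1 : t - 5 + 1 = t - 4 := by ring
  have e2 : t - 5 + 2 = t - 3 := by ring
  have e3 : t - 3 + 1 = t - 2 := by ring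
  have e4 : t - 3 + 2 = t - 1 := by ring
  rcases lt_trichotomy t (δ + 2) with h5 | h5 | h5
  · exfalso
    have k : ∀ u ∈ Icc (t - 5) (t - 3), p < u ∧ u + 1 < q ∧ u ≠ δ - 1 ∧ u ≠ δ := fun u hu =>
      ⟨by linarith [hu.1], by linarith [hu.2], ne_of_lt (by linarith [hu.2]),
        ne_of_lt (by linarith [hu.2])⟩
    refine h.three (t := t - 5) (by linarith) (by linarith) (ne_of_lt (by linarith))
      (ne_of_lt (by linarith)) (ne_of_lt (by linarith)) (ne_of_lt (by linarith))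
      (ne_of_lt (by linarith)) (ne_of_lt (by linarith)) ?_ ?_
    · exact h.sign isPreconnected_Icc k ⟨by linarith, by linarith⟩ ⟨by linarith, by linarith⟩
    · exact h.sign isPreconnected_Icc k ⟨by linarith, by linarith⟩ ⟨by linarith, by linarith⟩
  · exact absurd h5 h3
  rcases lt_trichotomy t (δ + 3) with h6 | h6 | h6
  · have k : ∀ u ∈ Icc (t - 2) (t - 1), p < u ∧ u + 1 < q ∧ u ≠ δ - 1 ∧ u ≠ δ := fun u hu =>
      ⟨by linarith [hu.1], by linarith [hu.2], ne_of_gt (by linarith [hu.1]),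
        ne_of_gt (by linarith [hu.1])⟩
    have s1 := h.sign isPreconnected_Icc k (s := t - 2) (t := t - 1) ⟨by linarith, by linarith⟩
      ⟨by linarith, by linarith⟩
    have m1 := h.two (t := t - 2) (by linarith) (by linarith) (ne_of_gt (by linarith))
      (ne_of_gt (by linarith))
    have m2 := h.two (t := t - 1) (by linarith) (by linarith) (ne_of_gt (by linarith))
      (ne_of_gt (by linarith))
    intro h7
    have r1 := ht_mem353 h7
    have r2 := ht_rng353 (Q (t - 2))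
    have e5 : t - 2 + 1 = t - 1 := by ring
    have e6 : t - 1 + 1 = t := by ring
    unfold df353 at s1 m1 m2
    rw [e5] at s1 m1
    rw [e6] at s1 m2
    omega
  · exact absurd h6 h4
  · exfalso
    have k : ∀ u ∈ Icc (t - 3) (t - 1), p < u ∧ u + 1 < q ∧ u ≠ δ - 1 ∧ u ≠ δ := fun u hu =>
      ⟨by linarith [hu.1], by linarith [hu.2], ne_of_gt (by linarith [hu.1]),
        ne_of_gt (by linarith [hu.1])⟩
    refine h.three (t := t - 3) (by linarith) (by linarith) (ne_of_gt (by linarith))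
      (ne_of_gt (by linarith)) (ne_of_gt (by linarith)) (ne_of_gt (by linarith))
      (ne_of_gt (by linarith)) (ne_of_gt (by linarith)) ?_ ?_
    · exact h.sign isPreconnected_Icc k ⟨by linarith, by linarith⟩ ⟨by linarith, by linarith⟩
    · exact h.sign isPreconnected_Icc k ⟨by linarith, by linarith⟩ ⟨by linarith, by linarith⟩

/-- reflection -/
theorem Cv353.neg (h : Cv353 Q p q δ) : Cv353 (fun t => Q (-t)) (-q) (-p) (-δ) where
  ne t ht := h.ne (-t) ⟨by linarith [ht.2], by linarith [ht.1]⟩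
  no t ht := h.no (-t) ⟨by linarith [ht.2], by linarith [ht.1]⟩
  usc t ht := by
    have : Tendsto (fun s : ℝ => -s) (𝓝 t) (𝓝 (-t)) := continuous_neg.tendsto t
    exact this.eventually (h.usc (-t) ⟨by linarith [ht.2], by linarith [ht.1]⟩)
  inc t h1 h2 h3 h4 := by
    have e1 : -t = -(t + 1) + 1 := by ring
    have k := h.inc' (-(t + 1)) (by linarith) (by linarith) (fun h5 => h4 (by linarith))
      (fun h5 => h3 (by linarith))
    rw [← e1] at k
    exact k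
  inc' t h1 h2 h3 h4 := by
    have e1 : -t = -(t + 1) + 1 := by ring
    have k := h.inc (-(t + 1)) (by linarith) (by linarith) (fun h5 => h4 (by linarith))
      (fun h5 => h3 (by linarith))
    rw [← e1] at k
    exact k

/-- **The start of a chain.** -/
theorem Cv353.left (h : Cv353 Q p q δ) {t : ℝ} (h1 : t < q - 5) (h2 : p < t) (h3 : t ≠ δ - 2)
    (h4 : t ≠ δ - 3) : 1 ∉ Q t := by
  have k := h.neg.right (t := -t) (by linarith) (by linarith) (fun h5 => h3 (by linarith))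
    (fun h5 => h4 (by linarith))
  simpa using k

/-- three heights in a row -/
theorem Cv353.ext (h : Cv353 Q p q δ) {t : ℝ} (h1 : p < t) (h2 : t + 2 < q) (h3 : t ≠ δ - 1)
    (h4 : t + 1 ≠ δ - 1) (h5 : t ≠ δ) (h6 : t + 1 ≠ δ)
    (k : 0 < df353 Q t ↔ 0 < df353 Q (t + 1)) :
    (0 < df353 Q t ∧ 2 ∈ Q (t + 2)) ∨ (¬ 0 < df353 Q t ∧ 2 ∈ Q t) := by
  have m1 := h.two h1 (by linarith) h3 h5
  have m2 := h.two (t := t + 1) (by linarith) (by linarith) h4 h6
  have r1 := ht_cases353 (h.ne t ⟨h1, by linarith⟩) (h.no t ⟨h1, by linarith⟩)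
  have r2 := ht_cases353 (h.ne (t + 2) ⟨by linarith, h2⟩) (h.no (t + 2) ⟨by linarith, h2⟩)
  have e1 : t + 1 + 1 = t + 2 := by ring
  unfold df353 at m1 m2 k ⊢
  rw [e1] at m2 k
  by_cases h7 : 0 < ht353 (Q (t + 1)) - ht353 (Q t)
  · left
    refine ⟨h7, ?_⟩
    have h8 := k.1 h7
    rcases r1 with r | r | r | r | r <;> rcases r2 with r' | r' | r' | r' | r' <;>
      first | exact r'.2.2.2 | (exfalso; omega)
  · right
    refine ⟨h7, ?_⟩
    have h8 : ¬ 0 < ht353 (Q (t + 2)) - ht353 (Q (t + 1)) := fun h9 => h7 (k.2 h9)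
    rcases r1 with r | r | r | r | r <;> rcases r2 with r' | r' | r' | r' | r' <;>
      first | exact r.2.2.2 | (exfalso; omega)

/-- **The interval of length five.** -/
theorem Cv353.five (h : Cv353 Q p (p + 5) δ) (hf : ∃ᶠ t in 𝓝[<] (p + 5), 1 ∈ Q t) :
    δ = p + 3 ∧ ((∀ t ∈ Ioo (p + 2) (p + 3), 2 ∈ Q t) ∨ ∀ t ∈ Ioo p (p + 1), 2 ∈ Q t) := by
  have hδ : δ = p + 3 := by
    rcases lt_trichotomy δ (p + 3) with h1 | h1 | h1
    · exfalso
      have e : ∀ᶠ t in 𝓝[<] (p + 5), δ + 2 < t ∧ p + 4 < t ∧ t < p + 5 := by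
        have e1 : ∀ᶠ t in 𝓝[<] (p + 5), t < p + 5 := self_mem_nhdsWithin
        have e2 : ∀ᶠ t in 𝓝[<] (p + 5), δ + 2 < t :=
          nhdsWithin_le_nhds (Ioi_mem_nhds (by linarith))
        have e3 : ∀ᶠ t in 𝓝[<] (p + 5), p + 4 < t :=
          nhdsWithin_le_nhds (Ioi_mem_nhds (by linarith))
        filter_upwards [e1, e2, e3] with t a b c using ⟨b, c, a⟩
      obtain ⟨t, h7, h2, h3, h4⟩ := (hf.and_eventually e).exists
      have k : ∀ u ∈ Icc (t - 2) (t - 1), p < u ∧ u + 1 < p + 5 ∧ u ≠ δ - 1 ∧ u ≠ δ := fun u hu =>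
        ⟨by linarith [hu.1], by linarith [hu.2], ne_of_gt (by linarith [hu.1]),
          ne_of_gt (by linarith [hu.1])⟩
      have s1 := h.sign isPreconnected_Icc k (s := t - 2) (t := t - 1) ⟨by linarith, by linarith⟩
        ⟨by linarith, by linarith⟩
      have m1 := h.two (t := t - 2) (by linarith) (by linarith) (ne_of_gt (by linarith))
        (ne_of_gt (by linarith))
      have m2 := h.two (t := t - 1) (by linarith) (by linarith) (ne_of_gt (by linarith))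
        (ne_of_gt (by linarith))
      have r1 := ht_mem353 h7
      have r2 := ht_rng353 (Q (t - 2))
      have e5 : t - 2 + 1 = t - 1 := by ring
      have e6 : t - 1 + 1 = t := by ring
      unfold df353 at s1 m1 m2
      rw [e5] at s1 m1
      rw [e6] at s1 m2
      omega
    · exact h1
    · exfalso
      obtain ⟨t, h2, h3⟩ := exists_between (show p < min (δ - 3) (p + 1) from
        lt_min (by linarith) (by linarith))
      have h4 : t < δ - 3 := h3.trans_le (min_le_left _ _)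
      have h5 : t < p + 1 := h3.trans_le (min_le_right _ _)
      have k : ∀ u ∈ Icc t (t + 2), p < u ∧ u + 1 < p + 5 ∧ u ≠ δ - 1 ∧ u ≠ δ := fun u hu =>
        ⟨by linarith [hu.1], by linarith [hu.2], ne_of_lt (by linarith [hu.2]),
          ne_of_lt (by linarith [hu.2])⟩
      refine h.three (t := t) (by linarith) (by linarith) (ne_of_lt (by linarith))
        (ne_of_lt (by linarith)) (ne_of_lt (by linarith)) (ne_of_lt (by linarith))
        (ne_of_lt (by linarith)) (ne_of_lt (by linarith)) ?_ ?_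
      · exact h.sign isPreconnected_Icc k ⟨by linarith, by linarith⟩ ⟨by linarith, by linarith⟩
      · exact h.sign isPreconnected_Icc k ⟨by linarith, by linarith⟩ ⟨by linarith, by linarith⟩
  refine ⟨hδ, ?_⟩
  have k : ∀ u ∈ Ioo p (p + 2), p < u ∧ u + 1 < p + 5 ∧ u ≠ δ - 1 ∧ u ≠ δ := fun u hu =>
    ⟨hu.1, by linarith [hu.2], ne_of_lt (by linarith [hu.2]), ne_of_lt (by linarith [hu.2])⟩
  have key : ∀ u ∈ Ioo p (p + 1), (0 < df353 Q u ∧ 2 ∈ Q (u + 2)) ∨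
      (¬ 0 < df353 Q u ∧ 2 ∈ Q u) := fun u hu =>
    h.ext hu.1 (by linarith [hu.2]) (ne_of_lt (by linarith [hu.2]))
      (ne_of_lt (by linarith [hu.2])) (ne_of_lt (by linarith [hu.2]))
      (ne_of_lt (by linarith [hu.2])) (h.sign isPreconnected_Ioo k
        ⟨hu.1, by linarith [hu.2]⟩ ⟨by linarith [hu.1], by linarith [hu.2]⟩)
  have hm : p + 1 / 2 ∈ Ioo p (p + 2) := ⟨by linarith, by linarith⟩
  by_cases h0 : 0 < df353 Q (p + 1 / 2)
  · left
    intro t ht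
    rcases key (t - 2) ⟨by linarith [ht.1], by linarith [ht.2]⟩ with h1 | h1
    · have := h1.2
      rwa [sub_add_cancel] at this
    · exact absurd ((h.sign isPreconnected_Ioo k hm
        ⟨by linarith [ht.1], by linarith [ht.2]⟩).1 h0) h1.1
  · right
    intro t ht
    rcases key t ht with h1 | h1
    · exact absurd ((h.sign isPreconnected_Ioo k hm
        ⟨by linarith [ht.1], by linarith [ht.2]⟩).2 h1.1) h0
    · exact h1.2

/-- mirror image -/
theorem Cv353.five' (h : Cv353 Q (q - 5) q δ) (hf : ∃ᶠ t in 𝓝[>] (q - 5), 1 ∈ Q t) :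
    δ = q - 3 ∧ ((∀ t ∈ Ioo (q - 3) (q - 2), 2 ∈ Q t) ∨ ∀ t ∈ Ioo (q - 1) q, 2 ∈ Q t) := by
  have e0 : -(q - 5) = -q + 5 := by ring
  have h' := h.neg
  rw [e0] at h'
  have hf' : ∃ᶠ t in 𝓝[<] (-q + 5), 1 ∈ Q (-t) := by
    intro hcon
    apply hf
    have e1 : Tendsto (fun s : ℝ => -s) (𝓝[>] (q - 5)) (𝓝[<] (-q + 5)) := by
      rw [← e0]
      refine tendsto_nhdsWithin_iff.2 ⟨(continuous_neg.tendsto (q - 5)).mono_left
        nhdsWithin_le_nhds, ?_⟩
      filter_upwards [self_mem_nhdsWithin] with s hs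
      have hs : q - 5 < s := hs
      show -s < -(q - 5)
      linarith
    filter_upwards [e1.eventually hcon] with s hs h1
    exact hs (by simpa using h1)
  obtain ⟨h1, h2⟩ := h'.five hf'
  refine ⟨by linarith, ?_⟩
  rcases h2 with h2 | h2
  · left
    intro t ht
    have := h2 (-t) ⟨by linarith [ht.2], by linarith [ht.1]⟩
    simpa using this
  · right
    intro t ht
    have := h2 (-t) ⟨by linarith [ht.2], by linarith [ht.1]⟩
    simpa using this

end Vale.Agent.P032.H353
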