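import Vale.Agent.P032.H353.HFlip
import Vale.Agent.P032.H187.OwnerB
import Vale.Agent.P032.H383.Letters
import Vale.Agent.P032.S5.H122.Cnt5
import Vale.Agent.P032.S5.H824.Two
import Vale.Agent.P032.H800.Typ

/-!
# P032: no `H` corner next to plain ends of one letter, degree at most two

`V` has the pairs `ab`, `cd`, `y` has the pairs `ab`, `ef`, `|y - V| = 1`, one common point of the two
circles is in the closure of the `ef`-arcs of `S(y)`, no plain end of `V` has the colour `f`, and no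
point of order at least four has three neighbours of order at least four: impossible.
-/

open Set Filter Topology Metric

noncomputable section

namespace Vale.Agent.P032.H353

open Vale.Agent.P032.Six Vale.Agent.P032.S5.H767 Vale.Agent.P032.H338 Vale.Agent.P032.H187
  Vale.Agent.P032.S5.H122 Vale.Agent.P032.Sweep
  Vale.Agent.P032.H780

variable {U : Fin 6 → Set ℂ} {T : ℂ → Set (Fin 6)} {V y u : ℂ} {a b c d e f : Fin 6}

/-- **No two closed arcs of 60 degrees at a point with four colours.** -/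
theorem full_arcs353 (h : Irr U T) {p : ℝ} (hT : T (pt V p) ⊆ {a, b, c, d})
    (h1 : ∀ t ∈ Icc (p - 1) p, {c, d} ⊆ T (pt V t))
    (h2 : ∀ t ∈ Icc p (p + 1), {a, b} ⊆ T (pt V t)) : False := by
  obtain ⟨r, hr, hrs⟩ := Metric.eventually_nhds_iff.1 (h.nhd (pt V p))
  set ε : ℝ := min (r / 2) (1 / 2) with hε
  have hε0 : 0 < ε := lt_min (by linarith) (by norm_num)
  have hε1 : ε ≤ 1 / 2 := min_le_right _ _
  have hε2 : ε < r := lt_of_le_of_lt (min_le_left _ _) (by linarith)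
  set v0 : ℂ := V + (1 + ε : ℝ) * (pt V p - V) with hv0
  have d0 : dist v0 (pt V p) = ε := by
    rw [dist_eq_norm]
    have e1 : v0 - pt V p = (ε : ℝ) * (pt V p - V) := by rw [hv0]; push_cast; ring
    rw [e1, norm_mul, ← dist_eq_norm, dist_pt, Complex.norm_real, Real.norm_of_nonneg hε0.le,
      mul_one]
  -- the two ends
  have far : ∀ w : ℂ, dist w V = 1 → dist (pt V p) w = 1 → 1 < dist v0 w := by
    intro w hw hpw
    have n1 : Complex.normSq (pt V p - V) = 1 := by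
      rw [Complex.normSq_eq_norm_sq, ← dist_eq_norm, dist_pt]; norm_num
    have n2 : Complex.normSq (w - V) = 1 := by
      rw [Complex.normSq_eq_norm_sq, ← dist_eq_norm, hw]; norm_num
    have n3 : Complex.normSq (pt V p - w) = 1 := by
      rw [Complex.normSq_eq_norm_sq, ← dist_eq_norm, hpw]; norm_num
    have n4 : Complex.normSq (v0 - w) = 1 + ε + ε ^ 2 := by
      rw [Complex.normSq_apply] at n1 n2 n3 ⊢
      simp only [hv0, Complex.sub_re, Complex.sub_im, Complex.add_re, Complex.add_im,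
        Complex.mul_re, Complex.mul_im, Complex.ofReal_re, Complex.ofReal_im] at n1 n2 n3 ⊢
      nlinarith [n1, n2, n3]
    rw [Complex.normSq_eq_norm_sq, ← dist_eq_norm] at n4
    by_contra hcon
    push Not at hcon
    have : dist v0 w ^ 2 ≤ 1 := pow_le_one₀ dist_nonneg hcon
    nlinarith
  have f1 : 1 < dist v0 (pt V (p - 1)) := by
    refine far _ (dist_pt _ _) ?_
    have := dist_pt_one V (p - 1)
    rw [sub_add_cancel] at this
    rw [dist_comm]; exact this
  have f2 : 1 < dist v0 (pt V (p + 1)) := far _ (dist_pt _ _) (dist_pt_one V p)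
  have hcont : ∀ w : ℂ, Continuous fun v : ℂ => dist v w := fun w => by fun_prop
  have hN : ∀ᶠ v in 𝓝 v0, dist v (pt V p) < r ∧ dist v (pt V p) < 1 ∧
      1 < dist v (pt V (p - 1)) ∧ 1 < dist v (pt V (p + 1)) := by
    filter_upwards [((hcont (pt V p)).tendsto v0).eventually (gt_mem_nhds (by rw [d0]; exact hε2)),
      ((hcont (pt V p)).tendsto v0).eventually
        (gt_mem_nhds (show dist v0 (pt V p) < 1 by rw [d0]; linarith)),
      ((hcont (pt V (p - 1))).tendsto v0).eventually (lt_mem_nhds f1),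
      ((hcont (pt V (p + 1))).tendsto v0).eventually (lt_mem_nhds f2)] with v k1 k2 k3 k4
    exact ⟨k1, k2, k3, k4⟩
  obtain ⟨i, hi⟩ := h.ne v0
  obtain ⟨w, hw, k1, k2, k3, k4⟩ := ((h.pure v0 i hi).and_eventually hN).exists
  have hwU : w ∈ U i := h.mem_of_single (by rw [hw])
  have hip : i ∈ T (pt V p) := hrs k1 (by rw [hw]; rfl)
  have hcw : Continuous fun t : ℝ => dist w (pt V t) := continuous_const.dist (continuous_pt V)
  rcases hT hip with hi' | hi' | hi'
  · obtain ⟨t, ht, ht1⟩ := intermediate_value_Icc (show p ≤ p + 1 by linarith) hcw.continuousOn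
      (show (1 : ℝ) ∈ Icc _ _ from ⟨k2.le, k4.le⟩)
    exact h.mx.notMem' hwU ht1 (h.sub _ (h2 t ht (by rw [hi']; simp)))
  · obtain ⟨t, ht, ht1⟩ := intermediate_value_Icc (show p ≤ p + 1 by linarith) hcw.continuousOn
      (show (1 : ℝ) ∈ Icc _ _ from ⟨k2.le, k4.le⟩)
    exact h.mx.notMem' hwU ht1 (h.sub _ (h2 t ht (by rw [hi']; simp)))
  · have hcd : i = c ∨ i = d := hi'
    obtain ⟨t, ht, ht1⟩ := intermediate_value_Icc' (show p - 1 ≤ p by linarith) hcw.continuousOn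
      (show (1 : ℝ) ∈ Icc _ _ from ⟨k2.le, k3.le⟩)
    refine h.mx.notMem' hwU ht1 (h.sub _ (h1 t ht ?_))
    rcases hcd with rfl | rfl <;> simp

/-- the data -/
structure HS353 (U : Fin 6 → Set ℂ) (T : ℂ → Set (Fin 6)) (V y u : ℂ) (a b c d e f : Fin 6) :
    Prop where
  irr : Irr U T
  mn : Mn338 U T
  le4 : ∀ z, (T z).ncard ≤ 4
  hV : DPt T V a b c d
  hY : DPt T y a b e f
  nd : [a, b, c, d, e, f].Nodup
  hyV : dist y V = 1
  huV : dist u V = 1
  hu : u ∈ closure (Ex T y {e, f})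
  n3 : ∀ z y1 y2 y3, 4 ≤ (T z).ncard → dist y1 z = 1 → dist y2 z = 1 → dist y3 z = 1 →
    4 ≤ (T y1).ncard → 4 ≤ (T y2).ncard → 4 ≤ (T y3).ncard → y1 = y2 ∨ y1 = y3 ∨ y2 = y3
  hA : ∀ x ∈ closure (Ex T V {a, b}), (T x).ncard ≤ 3 → f ∉ T x
  hC : ∀ x ∈ closure (Ex T V {c, d}), (T x).ncard ≤ 3 → f ∉ T x

namespace HS353

theorem ctr (S : HS353 U T V y u a b c d e f) : Ctr U T V a b c d e f where
  irr := S.irr
  pal := S.hV.pal
  nd := S.nd
  pairs := fun y hy hloc hsub => S.irr.twoPairs S.hV y hy hloc hsub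

theorem hh (S : HS353 U T V y u a b c d e f) : HH T y V a b e f c d where
  nd := by
    have h := S.nd
    simp only [List.nodup_cons, List.mem_cons, List.not_mem_nil, or_false, not_or,
      List.nodup_nil, and_true, not_false_eq_true] at h ⊢
    obtain ⟨⟨ab, ac, ad, ae, af⟩, ⟨bc, bd, be, bf⟩, ⟨cd, ce, cf⟩, ⟨de, df⟩, ef⟩ := h
    exact ⟨⟨ab, ae, af, ac, ad⟩, ⟨be, bf, bc, bd⟩, ⟨ef, Ne.symm ce, Ne.symm de⟩,
      ⟨Ne.symm cf, Ne.symm df⟩, cd⟩
  hz := S.hY
  hy := S.hV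
  hyz := by rw [dist_comm]; exact S.hyV

theorem four_y (S : HS353 U T V y u a b c d e f) : (T y).ncard = 4 := DPt.four187 S.hY

theorem four_V (S : HS353 U T V y u a b c d e f) : (T V).ncard = 4 := DPt.four187 S.hV

theorem pty (V y : ℂ) (s : ℝ) : pt y s = y + pt V s - V := by unfold pt; ring

theorem dist_pp (S : HS353 U T V y u a b c d e f) (s : ℝ) : dist (pt V s) (pt y s) = 1 := by
  rw [pty V y, dist_eq_norm]
  have : pt V s - (y + pt V s - V) = V - y := by ring
  rw [this, ← dist_eq_norm, dist_comm]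
  exact S.hyV

/-- a colour near a point of `S(V)` is absent at the parallel point of `S(y)` -/
theorem prodV (S : HS353 U T V y u a b c d e f) {s : ℝ} {t : Fin 6}
    (h3 : (T (pt V s)).ncard ≤ 3) (h3' : (T (pt y s)).ncard ≤ 3)
    (ht : ∀ᶠ q in 𝓝[sphere V 1] (pt V s), t ∈ T q) : t ∉ T (pt y s) := by
  intro hv
  rcases S.irr.third (dist_pt V s) ht (S.dist_pp s) hv with h1 | h1
  · rw [h1, S.four_V] at h3'
    omega
  · have h2 : pt V s = y := by
      rw [pty V y] at h1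
      linear_combination -h1
    rw [h2, S.four_y] at h3
    omega

/-- a colour near a point of `S(y)` is absent at the parallel point of `S(V)` -/
theorem prody (S : HS353 U T V y u a b c d e f) {s : ℝ} {t : Fin 6}
    (h3 : (T (pt V s)).ncard ≤ 3) (h3' : (T (pt y s)).ncard ≤ 3)
    (ht : ∀ᶠ q in 𝓝[sphere y 1] (pt y s), t ∈ T q) : t ∉ T (pt V s) := by
  intro hv
  rcases S.irr.third (dist_pt y s) ht (by rw [dist_comm]; exact S.dist_pp s) hv with h1 | h1
  · rw [h1, S.four_y] at h3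
    omega
  · have h2 : pt y s = V := by
      have h3 := pty V y s
      linear_combination -h1 - h3
    rw [h2, S.four_V] at h3'
    omega

theorem nd' (S : HS353 U T V y u a b c d e f) :
    (a ≠ b ∧ a ≠ c ∧ a ≠ d ∧ a ≠ e ∧ a ≠ f) ∧ (b ≠ c ∧ b ≠ d ∧ b ≠ e ∧ b ≠ f) ∧
      (c ≠ d ∧ c ≠ e ∧ c ≠ f) ∧ (d ≠ e ∧ d ≠ f) ∧ e ≠ f := by
  have h := S.nd
  simp only [List.nodup_cons, List.mem_cons, List.not_mem_nil, or_false, not_or, List.nodup_nil,
    and_true, not_false_eq_true] at h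
  exact h

/-- outside the closed `cd`-arcs, near a point of order at most three of them, there is `e` -/
theorem e_near (S : HS353 U T V y u a b c d e f) {s w : ℝ}
    (hs : pt V s ∈ closure (Ex T V {c, d})) (h3 : (T (pt V s)).ncard ≤ 3)
    (hsub : T (pt V w) ⊆ T (pt V s)) (hw : pt V w ∉ closure (Ex T V {c, d})) :
    e ∈ T (pt V w) := by
  obtain ⟨⟨ab, ac, ad, ae, af⟩, ⟨bc, bd, be, bf⟩, ⟨cd, ce, cf⟩, ⟨de, df⟩, ef⟩ := S.nd'
  have hf := S.hC _ hs h3
  have hcd := sub_of_closure S.irr hs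
  obtain ⟨l, hl⟩ := S.ctr.cover (dist_pt V w)
  have hcol := Lt_col S.irr hl
  fin_cases l
  · exact hl.2
  · exact absurd (hsub hl.2) hf
  · exfalso
    have h4 := four_le (s := T (pt V s)) (hsub (hcol (Or.inl rfl))) (hsub (hcol (Or.inr rfl)))
      (hcd (Or.inl rfl)) (hcd (Or.inr rfl)) (by simp [ab, ac, ad, bc, bd, cd])
    omega
  · exact absurd hl hw

/-- **A plain end of the `cd`-arcs is parallel to a point of order four.** -/
theorem end4 (S : HS353 U T V y u a b c d e f) {s : ℝ} (hs : pt V s ∈ closure (Ex T V {c, d}))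
    (hfr : ∃ᶠ w in 𝓝 s, pt V w ∉ closure (Ex T V {c, d})) (h3 : (T (pt V s)).ncard ≤ 3) :
    pt y s ∈ closure (Ex T y {e, f}) ∧ 4 ≤ (T (pt y s)).ncard := by
  obtain ⟨⟨ab, ac, ad, ae, af⟩, ⟨bc, bd, be, bf⟩, ⟨cd, ce, cf⟩, ⟨de, df⟩, ef⟩ := S.nd'
  have hp := S.hh.par S.irr S.mn S.huV S.hu hs
  refine ⟨hp, ?_⟩
  by_contra h4
  have h3' : (T (pt y s)).ncard ≤ 3 := by omega
  refine h4 (S.hh.end_four S.irr S.mn S.huV S.hu hs (fun hcd => ?_) h3).2
  have hev : ∀ᶠ w in 𝓝 s, (T (pt V w) ⊆ T (pt V s) ∧ T (pt y w) ⊆ T (pt y s)) ∧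
      {c, d} ⊆ T (pt V w) :=
    ((nhd_ang S.irr V s).and (nhd_ang S.irr y s)).and hcd
  obtain ⟨O, hO, hOo, hsO⟩ := _root_.mem_nhds_iff.1 hev
  obtain ⟨w0, hw0, hw0O⟩ := (hfr.and_eventually (hOo.mem_nhds hsO)).exists
  have hG : IsOpen (O ∩ {w | pt V w ∉ closure (Ex T V {c, d})} ∩ Lc T V) :=
    (hOo.inter (isClosed_closure.isOpen_compl.preimage (continuous_pt V))).inter (Lc_open V)
  have hGn : (O ∩ {w | pt V w ∉ closure (Ex T V {c, d})} ∩ Lc T V).Nonempty := by
    obtain ⟨w, h1, h2⟩ := (Lc_dense S.irr V).exists_mem_open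
      (hOo.inter (isClosed_closure.isOpen_compl.preimage (continuous_pt V))) ⟨w0, hw0O, hw0⟩
    exact ⟨w, h2, h1⟩
  obtain ⟨w, hwy, ⟨hwO, hwX⟩, hwV⟩ := (Lc_dense S.irr y).exists_mem_open hG hGn
  obtain ⟨⟨k1, k2⟩, k3⟩ := hO hwO
  have hEV : pt V w ∈ Ex T V (T (pt V w)) := ex_of_Lc hwV
  have hEy : pt y w ∈ Ex T y (T (pt y w)) := ex_of_Lc hwy
  have m1 : (T (pt V w)).ncard ≤ 3 := (Set.ncard_le_ncard k1 (Set.toFinite _)).trans h3
  have m2 : (T (pt y w)).ncard ≤ 3 := (Set.ncard_le_ncard k2 (Set.toFinite _)).trans h3'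
  have he := S.e_near hs h3 k1 hwX
  have hey : e ∉ T (pt y w) := S.prodV m1 m2 (hEV.2.mono fun q hq => by rw [hq]; exact he)
  have hef := sub_of_closure S.irr hp
  rcases letters187 S.irr S.mn S.hY (dist_pt y w) with ⟨i, hi, hiy⟩ | h5 | h5
  · have hi2 : i = c ∨ i = d := by
      rw [S.hY.pal] at hiy
      simp only [mem_insert_iff, mem_singleton_iff, not_or] at hiy
      rcases S.ctr.all i with h6 | h6 | h6 | h6 | h6 | h6
      · exact absurd h6 hiy.1
      · exact absurd h6 hiy.2.1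
      · exact Or.inl h6
      · exact Or.inr h6
      · exact absurd h6 hiy.2.2.1
      · exact absurd h6 hiy.2.2.2
    refine S.prody m1 m2 (hEy.2.mono fun q hq => by rw [hq]; exact hi) (k3 ?_)
    rcases hi2 with rfl | rfl <;> simp
  · have h6 := four_le (s := T (pt y s)) (k2 (h5 (Or.inl rfl))) (k2 (h5 (Or.inr rfl)))
      (hef (Or.inl rfl)) (hef (Or.inr rfl)) (by simp [ab, ae, af, be, bf, ef])
    omega
  · exact hey (h5 (Or.inl rfl))

/-- at most one plain end -/
theorem uniq3 (S : HS353 U T V y u a b c d e f) {s s' : ℝ}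
    (hs : pt V s ∈ closure (Ex T V {c, d}))
    (hfr : ∃ᶠ w in 𝓝 s, pt V w ∉ closure (Ex T V {c, d})) (h3 : (T (pt V s)).ncard ≤ 3)
    (hs' : pt V s' ∈ closure (Ex T V {c, d}))
    (hfr' : ∃ᶠ w in 𝓝 s', pt V w ∉ closure (Ex T V {c, d})) (h3' : (T (pt V s')).ncard ≤ 3) :
    pt V s = pt V s' := by
  obtain ⟨⟨ab, ac, ad, ae, af⟩, ⟨bc, bd, be, bf⟩, ⟨cd, ce, cf⟩, ⟨de, df⟩, ef⟩ := S.nd'
  obtain ⟨h1, h2⟩ := S.end4 hs hfr h3
  obtain ⟨h1', h2'⟩ := S.end4 hs' hfr' h3'
  have ne : ∀ {r : ℝ}, pt y r ∈ closure (Ex T y {e, f}) → V ≠ pt y r := by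
    intro r hr h4
    have h5 := sub_of_closure S.irr hr (show e ∈ ({e, f} : Set (Fin 6)) by simp)
    rw [← h4, S.hV.pal] at h5
    rcases h5 with h5 | h5 | h5 | h5
    · exact ae h5.symm
    · exact be h5.symm
    · exact ce h5.symm
    · exact de h5.symm
  rcases S.n3 y V (pt y s) (pt y s') S.four_y.ge (by rw [dist_comm]; exact S.hyV) (dist_pt _ _)
    (dist_pt _ _) S.four_V.ge h2 h2' with h5 | h5 | h5
  · exact absurd h5 (ne h1)
  · exact absurd h5 (ne h1')
  · rw [pty V y, pty V y] at h5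
    linear_combination h5

theorem ne_y (S : HS353 U T V y u a b c d e f) {s : ℝ}
    (hs : pt V s ∈ closure (Ex T V {c, d})) : y ≠ pt V s := by
  obtain ⟨⟨ab, ac, ad, ae, af⟩, ⟨bc, bd, be, bf⟩, ⟨cd, ce, cf⟩, ⟨de, df⟩, ef⟩ := S.nd'
  intro h4
  have h5 := sub_of_closure S.irr hs (show c ∈ ({c, d} : Set (Fin 6)) by simp)
  rw [← h4, S.hY.pal] at h5
  rcases h5 with h5 | h5 | h5 | h5
  · exact ac h5.symm
  · exact bc h5.symm
  · exact ce h5
  · exact cf h5

/-- at most one end of order four -/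
theorem uniq4 (S : HS353 U T V y u a b c d e f) {s s' : ℝ}
    (hs : pt V s ∈ closure (Ex T V {c, d})) (h4 : 4 ≤ (T (pt V s)).ncard)
    (hs' : pt V s' ∈ closure (Ex T V {c, d})) (h4' : 4 ≤ (T (pt V s')).ncard) :
    pt V s = pt V s' := by
  rcases S.n3 V y (pt V s) (pt V s') S.four_V.ge S.hyV (dist_pt _ _) (dist_pt _ _) S.four_y.ge
    h4 h4' with h5 | h5 | h5
  · exact absurd h5 (S.ne_y hs)
  · exact absurd h5 (S.ne_y hs')
  · exact h5

/-- the pair is not seen at `y` -/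
theorem y_notA (S : HS353 U T V y u a b c d e f) : y ∉ closure (Ex T V {a, b}) := by
  intro hy
  refine no_pair800 S.irr S.hY (y := V) (by rw [dist_comm]; exact S.hyV)
    (closure_mono (fun q hq => ?_) hy)
  exact ⟨hq.1, ex_self hq⟩

end HS353

/-- **The gap of a closed set of angles.** -/
theorem gap353 {X : Set ℝ} (hX : IsClosed X) (hper : ∀ s, s ∈ X → s + 6 ∈ X)
    (hper' : ∀ s, s ∈ X → s - 6 ∈ X) (hne : X.Nonempty) {w : ℝ} (hw : w ∉ X) :
    ∃ p q, p < w ∧ w < q ∧ q ≤ p + 6 ∧ p ∈ X ∧ q ∈ X ∧ ∀ t ∈ Ioo p q, t ∉ X := by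
  obtain ⟨s0, hs0⟩ := hne
  have e1 : ∀ n : ℕ, s0 + 6 * n ∈ X := by
    intro n
    induction n with
    | zero => simpa using hs0
    | succ n ih =>
      have := hper _ ih
      have e : s0 + 6 * ((n + 1 : ℕ) : ℝ) = s0 + 6 * n + 6 := by push_cast; ring
      rw [e]; exact this
  have e2 : ∀ n : ℕ, s0 - 6 * n ∈ X := by
    intro n
    induction n with
    | zero => simpa using hs0
    | succ n ih =>
      have := hper' _ ih
      have e : s0 - 6 * ((n + 1 : ℕ) : ℝ) = s0 - 6 * n - 6 := by push_cast; ring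
      rw [e]; exact this
  have n1 : (X ∩ Iic w).Nonempty := by
    obtain ⟨n, hn⟩ := exists_nat_ge (s0 - w)
    refine ⟨s0 - 6 * n, e2 n, ?_⟩
    have : (0 : ℝ) ≤ n := Nat.cast_nonneg n
    show s0 - 6 * n ≤ w
    linarith
  have n2 : (X ∩ Ici w).Nonempty := by
    obtain ⟨n, hn⟩ := exists_nat_ge (w - s0)
    refine ⟨s0 + 6 * n, e1 n, ?_⟩
    have : (0 : ℝ) ≤ n := Nat.cast_nonneg n
    show w ≤ s0 + 6 * n
    linarith
  have b1 : BddAbove (X ∩ Iic w) := ⟨w, fun x hx => hx.2⟩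
  have b2 : BddBelow (X ∩ Ici w) := ⟨w, fun x hx => hx.2⟩
  have hp := (hX.inter isClosed_Iic).csSup_mem n1 b1
  have hq := (hX.inter isClosed_Ici).csInf_mem n2 b2
  have hpw : sSup (X ∩ Iic w) < w := lt_of_le_of_ne hp.2 fun h => hw (h ▸ hp.1)
  have hwq : w < sInf (X ∩ Ici w) := lt_of_le_of_ne hq.2 fun h => hw (h ▸ hq.1)
  refine ⟨sSup (X ∩ Iic w), sInf (X ∩ Ici w), hpw, hwq, ?_, hp.1, hq.1, fun t ht htX => ?_⟩
  · have h1 := hper _ hp.1
    rcases le_or_gt w (sSup (X ∩ Iic w) + 6) with h2 | h2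
    · exact csInf_le b2 ⟨h1, h2⟩
    · have h3 := le_csSup b1 (show sSup (X ∩ Iic w) + 6 ∈ X ∩ Iic w from ⟨h1, h2.le⟩)
      linarith
  · rcases le_total t w with h1 | h1
    · have h2 := le_csSup b1 (show t ∈ X ∩ Iic w from ⟨htX, h1⟩)
      linarith [ht.1]
    · have h2 := csInf_le b2 (show t ∈ X ∩ Ici w from ⟨htX, h1⟩)
      linarith [ht.2]

namespace HS353

/-- a point of the exact arcs in a turn, with points of the arcs after it -/
theorem exists_in (S : HS353 U T V y u a b c d e f) (p : ℝ) :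
    ∃ t0, p ≤ t0 ∧ t0 < p + 6 ∧ ∀ᶠ t in 𝓝[>] t0, pt V t ∈ closure (Ex T V {c, d}) := by
  obtain ⟨g, hg⟩ := S.hV.arc2
  obtain ⟨s, hs⟩ := exists_cis (u := g - V) (by rw [← dist_eq_norm]; exact hg.1)
  have hpi := Real.pi_pos
  obtain ⟨s1, hs1⟩ : ∃ s1, g = pt V s1 := by
    refine ⟨s / (Real.pi / 3), ?_⟩
    unfold pt
    rw [div_mul_cancel₀ _ (by positivity), ← hs]
    ring
  -- the turn
  obtain ⟨n, hn, -⟩ := existsUnique_add_zsmul_mem_Ico (show (0 : ℝ) < 6 by norm_num) s1 p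
  have hper : pt V (s1 + n • (6 : ℝ)) = pt V s1 := by
    have : s1 + n • (6 : ℝ) = s1 + 6 * n := by rw [zsmul_eq_mul]; ring
    rw [this]
    unfold pt
    have e1 : (s1 + 6 * (n : ℝ)) * (Real.pi / 3) = s1 * (Real.pi / 3) + n * (2 * Real.pi) := by
      ring
    rw [e1]
    congr 1
    unfold cis
    have e2 : (((s1 * (Real.pi / 3) + (n : ℝ) * (2 * Real.pi) : ℝ) : ℂ) * Complex.I) =
        ((s1 * (Real.pi / 3) : ℝ) : ℂ) * Complex.I + n * (2 * Real.pi * Complex.I) := by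
      push_cast; ring
    rw [e2, Complex.exp_add, Complex.exp_int_mul_two_pi_mul_I, mul_one]
  refine ⟨s1 + n • (6 : ℝ), hn.1, hn.2, ?_⟩
  have h1 : pt V (s1 + n • (6 : ℝ)) ∈ Ex T V {c, d} := by
    rw [hper, ← hs1]
    exact hg
  have h2 := ex_open h1
  rw [eventually_nhdsWithin_iff] at h2
  have h3 := ((continuous_pt V).tendsto (s1 + n • (6 : ℝ))).eventually h2
  exact nhdsWithin_le_nhds (h3.mono fun t ht => subset_closure (ht (dist_pt V t)))

/-- a frontier point of the arcs: the two gaps -/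
theorem arc (S : HS353 U T V y u a b c d e f) {δ : ℝ} (hδ : pt V δ = y) :
    ∃ p q, p < δ ∧ δ < q ∧ p + 5 ≤ q ∧ q ≤ p + 6 ∧
      (∀ t ∈ Ioo p q, pt V t ∉ closure (Ex T V {c, d})) ∧
      (∀ t ∈ Icc q (p + 6), pt V t ∈ closure (Ex T V {c, d})) ∧
      (((T (pt V p)).ncard ≤ 3 ∧ 4 ≤ (T (pt V q)).ncard) ∨
        ((T (pt V q)).ncard ≤ 3 ∧ 4 ≤ (T (pt V p)).ncard)) := by
  set X : Set ℝ := {s | pt V s ∈ closure (Ex T V {c, d})} with hXdef
  have hX : IsClosed X := isClosed_closure.preimage (continuous_pt V)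
  have hper : ∀ s, s ∈ X → s + 6 ∈ X := fun s hs => by
    show pt V (s + 6) ∈ closure (Ex T V {c, d})
    rw [pt_six]; exact hs
  have hper' : ∀ s, s ∈ X → s - 6 ∈ X := fun s hs => by
    have h1 := pt_six V (s - 6)
    rw [sub_add_cancel] at h1
    show pt V (s - 6) ∈ closure (Ex T V {c, d})
    rw [← h1]; exact hs
  have hne : X.Nonempty := by
    obtain ⟨t0, -, -, h1⟩ := S.exists_in 0
    obtain ⟨t, ht⟩ := h1.exists
    exact ⟨t, ht⟩
  have gap : ∀ {w : ℝ}, w ∉ X → ∃ p q, p < w ∧ w < q ∧ q ≤ p + 6 ∧ p ∈ X ∧ q ∈ X ∧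
      (∀ t ∈ Ioo p q, t ∉ X) := fun hw => gap353 hX hper hper' hne hw
  -- frontier points
  have frp : ∀ {p q : ℝ}, p < q → (∀ t ∈ Ioo p q, t ∉ X) →
      ∃ᶠ w in 𝓝 p, pt V w ∉ closure (Ex T V {c, d}) := by
    intro p q hpq h1
    have h2 : ∀ᶠ w in 𝓝[>] p, w ∉ X := by
      filter_upwards [Ioo_mem_nhdsGT hpq] with w hw using h1 w hw
    exact h2.frequently.filter_mono nhdsWithin_le_nhds
  have frq : ∀ {p q : ℝ}, p < q → (∀ t ∈ Ioo p q, t ∉ X) →
      ∃ᶠ w in 𝓝 q, pt V w ∉ closure (Ex T V {c, d}) := by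
    intro p q hpq h1
    have h2 : ∀ᶠ w in 𝓝[<] q, w ∉ X := by
      filter_upwards [Ioo_mem_nhdsLT hpq] with w hw using h1 w hw
    exact h2.frequently.filter_mono nhdsWithin_le_nhds
  have hδX : δ ∉ X := fun h1 => S.ne_y h1 hδ.symm
  obtain ⟨p, q, hpδ, hδq, hq6, hpX, hqX, hgap⟩ := gap hδX
  have hpq : p < q := hpδ.trans hδq
  -- not everything else
  have hnot : ∀ r ∈ Ioo p (p + 6), ¬ ∀ t ∈ Ioo p (p + 6), t ≠ r → t ∉ X := by
    intro r hr h1
    obtain ⟨t0, h2, h3, h4⟩ := S.exists_in p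
    have h5 : ∀ᶠ t in 𝓝[>] t0, t ∈ Ioo p (p + 6) ∧ t ≠ r := by
      have k1 : ∀ᶠ t in 𝓝[>] t0, t ∈ Ioo t0 (p + 6) := Ioo_mem_nhdsGT h3
      have k2 : ∀ᶠ t in 𝓝[>] t0, t ≠ r := by
        by_cases h6 : t0 = r
        · filter_upwards [self_mem_nhdsWithin] with t ht
          have ht : t0 < t := ht
          rw [← h6]; exact ne_of_gt ht
        · exact nhdsWithin_le_nhds (isOpen_ne.mem_nhds h6)
      filter_upwards [k1, k2] with t a b
      exact ⟨⟨by linarith [a.1], a.2⟩, b⟩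
    obtain ⟨t, ht1, ht2, ht3⟩ := (h4.and h5).exists
    exact h1 t ht2 ht3 ht1
  have hne1 : pt V p ≠ pt V q := by
    intro h1
    obtain ⟨n, hn⟩ := pt_eq_iff h1.symm
    have h2 : (0 : ℝ) < n := by linarith
    have h3 : (0 : ℤ) < n := by exact_mod_cast h2
    have h4 : (1 : ℤ) ≤ n := by omega
    have h5 : (1 : ℝ) ≤ n := by exact_mod_cast h4
    have h6 : q = p + 6 := by linarith
    refine hnot (p + 1) ⟨by linarith, by linarith⟩ fun t ht _ => hgap t ?_
    rw [h6]; exact ht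
  have fp := frp hpq hgap
  have fq := frq hpq hgap
  have htype : ((T (pt V p)).ncard ≤ 3 ∧ 4 ≤ (T (pt V q)).ncard) ∨
      ((T (pt V q)).ncard ≤ 3 ∧ 4 ≤ (T (pt V p)).ncard) := by
    by_cases h1 : (T (pt V p)).ncard ≤ 3
    · left
      refine ⟨h1, ?_⟩
      by_contra h2
      exact hne1 (S.uniq3 hpX fp h1 hqX fq (by omega))
    · right
      refine ⟨?_, by omega⟩
      by_contra h2
      exact hne1 (S.uniq4 hpX (by omega) hqX (by omega))
  -- every frontier point is one of the two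
  have all : ∀ {r : ℝ}, r ∈ X → (∃ᶠ w in 𝓝 r, pt V w ∉ closure (Ex T V {c, d})) →
      pt V r = pt V p ∨ pt V r = pt V q := by
    intro r hr fr
    by_cases h1 : (T (pt V r)).ncard ≤ 3
    · rcases htype with h2 | h2
      · exact Or.inl (S.uniq3 hr fr h1 hpX fp h2.1)
      · exact Or.inr (S.uniq3 hr fr h1 hqX fq h2.1)
    · rcases htype with h2 | h2
      · exact Or.inr (S.uniq4 hr (by omega) hqX h2.2)
      · exact Or.inl (S.uniq4 hr (by omega) hpX h2.2)
  have harc : ∀ t ∈ Icc q (p + 6), t ∈ X := by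
    intro w hw
    by_contra hwX
    obtain ⟨p1, q1, h1, h2, h3, h4, h5, h6⟩ := gap hwX
    have hq1 : q ≤ p1 := by
      by_contra hc
      push Not at hc
      exact h6 q ⟨hc, lt_of_le_of_lt hw.1 h2⟩ hqX
    have hq2 : q1 ≤ p + 6 := by
      by_contra hc
      push Not at hc
      exact h6 (p + 6) ⟨lt_of_lt_of_le h1 hw.2, hc⟩ (hper p hpX)
    have hpq1 : p1 < q1 := h1.trans h2
    have e1 : p1 = q := by
      rcases all h4 (frp hpq1 h6) with h7 | h7
      · exfalso
        obtain ⟨n, hn⟩ := pt_eq_iff h7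
        have k1 : (0 : ℝ) < n := by linarith
        have k2 : (n : ℝ) < 1 := by linarith
        have k3 : (0 : ℤ) < n := by exact_mod_cast k1
        have k4 : n < (1 : ℤ) := by exact_mod_cast k2
        omega
      · obtain ⟨n, hn⟩ := pt_eq_iff h7
        have k1 : (-1 : ℝ) < n := by linarith
        have k2 : (n : ℝ) < 1 := by linarith
        have k3 : (-1 : ℤ) < n := by exact_mod_cast k1
        have k4 : n < (1 : ℤ) := by exact_mod_cast k2
        have k5 : n = 0 := by omega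
        rw [k5] at hn
        simpa using hn
    have e2 : q1 = p + 6 := by
      rcases all h5 (frq hpq1 h6) with h7 | h7
      · obtain ⟨n, hn⟩ := pt_eq_iff h7
        have k1 : (0 : ℝ) < n := by linarith
        have k3 : (0 : ℤ) < n := by exact_mod_cast k1
        have k4 : (1 : ℤ) ≤ n := by omega
        have k5 : (1 : ℝ) ≤ n := by exact_mod_cast k4
        linarith
      · exfalso
        obtain ⟨n, hn⟩ := pt_eq_iff h7
        have k1 : (0 : ℝ) < n := by linarith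
        have k2 : (n : ℝ) < 1 := by linarith
        have k3 : (0 : ℤ) < n := by exact_mod_cast k1
        have k4 : n < (1 : ℤ) := by exact_mod_cast k2
        omega
    refine hnot q ⟨hpq, by linarith⟩ fun t ht htq => ?_
    rcases lt_or_gt_of_ne htq with h7 | h7
    · exact hgap t ⟨ht.1, h7⟩
    · exact h6 t ⟨by rw [e1]; exact h7, by rw [e2]; exact ht.2⟩
  refine ⟨p, q, hpδ, hδq, ?_, hq6, hgap, harc, htype⟩
  -- length of the arc
  by_contra hlen
  push Not at hlen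
  set t : ℝ := (q + (p + 5)) / 2 with ht
  have h1 : q < t := by rw [ht]; linarith
  have h2 : t < p + 5 := by rw [ht]; linarith
  have h3 : ∀ᶠ w in 𝓝 t, c ∈ T (pt V w) := by
    filter_upwards [Ioo_mem_nhds h1 (show t < p + 6 by linarith)] with w hw
    exact sub_of_closure S.irr (harc w ⟨hw.1.le, hw.2.le⟩) (by simp)
  have h4 : c ∈ T (pt V (t + 1)) :=
    sub_of_closure S.irr (harc (t + 1) ⟨by linarith, by linarith⟩) (by simp)
  obtain ⟨k1, k2⟩ := tri (dist_pt V t) (dist_pt V (t + 1))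
  rcases S.irr.third (dist_pt V t) (ev_circle V (p := fun q => c ∈ T q) h3) (dist_pt_one V t) h4
    with h5 | h5
  · exact k1 h5.symm
  · exact k2 (by rw [add_comm]; exact h5)

/-- the labels `f`, `e`, `ab` -/
def Q (T : ℂ → Set (Fin 6)) (V : ℂ) (a b c d e f : Fin 6) (t : ℝ) : Set (Fin 3) :=
  {i | pt V t ∈ Lt T V a b c d e f (![1, 0, 2] i)}

/-- **the labels outside the `cd`-arc** -/
theorem cv (S : HS353 U T V y u a b c d e f) {p q δ : ℝ} (hδ : pt V δ = y)
    (hgap : ∀ t ∈ Ioo p q, pt V t ∉ closure (Ex T V {c, d}))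
    (hord : ∀ t ∈ Ioo p q, ¬ (T (pt V t)).ncard ≤ 3 → t = δ) :
    Cv353 (Q T V a b c d e f) p q δ := by
  have key : ∀ t t' : ℝ, t ∈ Ioo p q → t' ∈ Ioo p q → t ≠ δ → t' ≠ δ →
      dist (pt V t) (pt V t') = 1 → ¬ Q T V a b c d e f t ⊆ Q T V a b c d e f t' := by
    intro t t' ht ht' h1 h2 hd hsub
    have h3 : (T (pt V t)).ncard ≤ 3 := by
      by_contra h3
      exact h1 (hord t ht h3)
    have h3' : (T (pt V t')).ncard ≤ 3 := by
      by_contra h3
      exact h2 (hord t' ht' h3)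
    have hl : ∀ l, pt V t ∈ Lt T V a b c d e f l → pt V t' ∈ Lt T V a b c d e f l := by
      intro l hl
      fin_cases l
      · exact hsub (show (1 : Fin 3) ∈ Q T V a b c d e f t from hl)
      · exact hsub (show (0 : Fin 3) ∈ Q T V a b c d e f t from hl)
      · exact hsub (show (2 : Fin 3) ∈ Q T V a b c d e f t from hl)
      · exact absurd hl (hgap t ht)
    obtain ⟨l, hl0⟩ := S.ctr.cover (dist_pt V t)
    by_cases hm : ∀ m, pt V t ∈ Lt T V a b c d e f m → m = l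
    · exact S.ctr.int (dist_pt V t) hm (dist_pt V t') hd (hl l hl0)
    · push Not at hm
      obtain ⟨m, hm0, hml⟩ := hm
      exact S.ctr.noswap hml hd h3 h3' hm0 hl0 (hl m hm0) (hl l hl0)
  refine ⟨fun t ht => ?_, fun t ht => ?_, fun t ht => ?_, fun t h1 h2 h3 h4 => ?_,
    fun t h1 h2 h3 h4 => ?_⟩
  · obtain ⟨l, hl⟩ := S.ctr.cover (dist_pt V t)
    fin_cases l
    · exact ⟨1, hl⟩
    · exact ⟨0, hl⟩
    · exact ⟨2, hl⟩
    · exact absurd hl (hgap t ht)
  · rintro ⟨h0, h2⟩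
    have hf : f ∈ T (pt V t) := h0.2
    have hA : pt V t ∈ closure (Ex T V {a, b}) := h2
    by_cases h3 : (T (pt V t)).ncard ≤ 3
    · exact S.hA _ hA h3 hf
    · rw [hord t ht h3, hδ] at hA
      exact S.y_notA hA
  · have h1 : ∀ i, ∀ᶠ s in 𝓝 t, i ∈ Q T V a b c d e f s → i ∈ Q T V a b c d e f t := by
      intro i
      by_cases h2 : i ∈ Q T V a b c d e f t
      · exact Eventually.of_forall fun s _ => h2
      · have h3 : ∀ᶠ s in 𝓝 t, pt V s ∉ Lt T V a b c d e f (![1, 0, 2] i) :=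
          ((continuous_pt V).tendsto t).eventually
            ((Lt_closed S.irr _).isOpen_compl.mem_nhds h2)
        exact h3.mono fun s hs h4 => absurd h4 hs
    filter_upwards [eventually_all.2 h1] with s hs i hi using hs i hi
  · refine key t (t + 1) ⟨h1, by linarith⟩ ⟨by linarith, h2⟩ h4 (fun h5 => h3 (by linarith))
      (dist_pt_one V t)
  · refine key (t + 1) t ⟨by linarith, h2⟩ ⟨h1, by linarith⟩ (fun h5 => h3 (by linarith)) h4 ?_
    rw [dist_comm]; exact dist_pt_one V t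

/-- **No `H` corner.** -/
theorem false (S : HS353 U T V y u a b c d e f) : False := by
  obtain ⟨t0, ht0⟩ : ∃ δ, pt V δ = y := by
    obtain ⟨s, hs⟩ := exists_cis (u := y - V) (by rw [← dist_eq_norm]; exact S.hyV)
    have hpi := Real.pi_pos
    refine ⟨s / (Real.pi / 3), ?_⟩
    unfold pt
    rw [div_mul_cancel₀ _ (by positivity), ← hs]
    ring
  obtain ⟨p, q, hpδ, hδq, h5, h6, hgap, harc, htype⟩ := S.arc ht0
  have hpq : p < q := hpδ.trans hδq
  have hpX : pt V p ∈ closure (Ex T V {c, d}) := by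
    rw [← pt_six]; exact harc (p + 6) ⟨h6, le_rfl⟩
  have hqX : pt V q ∈ closure (Ex T V {c, d}) := harc q ⟨le_rfl, h6⟩
  have hord : ∀ t ∈ Ioo p q, ¬ (T (pt V t)).ncard ≤ 3 → t = t0 := by
    intro t ht h3
    have k : ∀ {r : ℝ}, pt V r ∈ closure (Ex T V {c, d}) → 4 ≤ (T (pt V r)).ncard → t = t0 := by
      intro r hr h4
      rcases S.n3 V y (pt V r) (pt V t) S.four_V.ge S.hyV (dist_pt _ _) (dist_pt _ _)
        S.four_y.ge h4 (by omega) with h7 | h7 | h7
      · exact absurd h7 (S.ne_y hr)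
      · rw [← ht0] at h7
        obtain ⟨n, hn⟩ := pt_eq_iff h7
        have k1 : (-1 : ℝ) < n := by linarith [ht.1, ht.2]
        have k2 : (n : ℝ) < 1 := by linarith [ht.1, ht.2]
        have k3 : (-1 : ℤ) < n := by exact_mod_cast k1
        have k4 : n < (1 : ℤ) := by exact_mod_cast k2
        have k5 : n = 0 := by omega
        rw [k5] at hn
        simp at hn
        exact hn.symm
      · exact absurd (h7 ▸ hr) (hgap t ht)
    rcases htype with h7 | h7
    · exact k hqX h7.2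
    · exact k hpX h7.2
  have hcv := S.cv ht0 hgap hord
  have hAy : ∀ {r s : ℝ}, r < s → (∀ t ∈ Ioo r s, 2 ∈ Q T V a b c d e f t) →
      ∀ t ∈ Icc r s, pt V t ∈ closure (Ex T V {a, b}) := by
    intro r s hrs h7 t ht
    have h8 : IsClosed {t | pt V t ∈ closure (Ex T V {a, b})} :=
      isClosed_closure.preimage (continuous_pt V)
    have h9 : closure (Ioo r s) ⊆ {t | pt V t ∈ closure (Ex T V {a, b})} :=
      closure_minimal (fun t ht => h7 t ht) h8
    rw [closure_Ioo hrs.ne] at h9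
    exact h9 ht
  rcases htype with ⟨h3, h4⟩ | ⟨h3, h4⟩
  · -- the plain end is `p`
    have hnear : ∀ᶠ t in 𝓝[>] p, 1 ∈ Q T V a b c d e f t := by
      filter_upwards [nhdsWithin_le_nhds (nhd_ang S.irr V p), Ioo_mem_nhdsGT hpq] with t k1 k2
      exact ⟨dist_pt V t, S.e_near hpX h3 k1 (hgap t k2)⟩
    rcases h5.lt_or_eq with h5 | h5
    · have k1 : ∀ᶠ t in 𝓝[>] p, t ∈ Ioo p (q - 5) := Ioo_mem_nhdsGT (by linarith)
      have k2 : ∀ x : ℝ, ∀ᶠ t in 𝓝[>] p, t ≠ x := by
        intro x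
        by_cases hx : p = x
        · filter_upwards [self_mem_nhdsWithin] with t ht
          have ht : p < t := ht
          rw [← hx]; exact ne_of_gt ht
        · exact nhdsWithin_le_nhds (isOpen_ne.mem_nhds hx)
      obtain ⟨t, m1, m2, m3, m4⟩ := (hnear.and (k1.and ((k2 (t0 - 2)).and (k2 (t0 - 3))))).exists
      exact hcv.left m2.2 m2.1 m3 m4 m1
    · have hq : p = q - 5 := by linarith
      rw [hq] at hcv hnear
      obtain ⟨k1, k2⟩ := hcv.five' hnear.frequently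
      rcases k2 with k2 | k2
      · have k3 := hAy (by linarith) k2 (q - 3) ⟨le_rfl, by linarith⟩
        rw [← k1, ht0] at k3
        exact S.y_notA k3
      · have k3 := hAy (by linarith) k2
        have m1 : ∀ t ∈ Icc (q - 1) q, {a, b} ⊆ T (pt V t) := fun t ht =>
          sub_of_closure S.irr (k3 t ht)
        have m2 : ∀ t ∈ Icc q (q + 1), {c, d} ⊆ T (pt V t) := fun t ht =>
          sub_of_closure S.irr (harc t ⟨ht.1, by linarith [ht.2]⟩)
        refine full_arcs353 (a := c) (b := d) (c := a) (d := b) S.irr ?_ m1 m2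
        obtain ⟨⟨ab, ac, ad, ae, af⟩, ⟨bc, bd, be, bf⟩, ⟨cd, ce, cf⟩, ⟨de, df⟩, ef⟩ := S.nd'
        have m3 : ({c, d, a, b} : Set (Fin 6)) ⊆ T (pt V q) := by
          rintro i (rfl | rfl | rfl | hi)
          · exact m2 q ⟨le_rfl, by linarith⟩ (by simp)
          · exact m2 q ⟨le_rfl, by linarith⟩ (by simp)
          · exact m1 q ⟨by linarith, le_rfl⟩ (by simp)
          · rw [mem_singleton_iff] at hi
            rw [hi]; exact m1 q ⟨by linarith, le_rfl⟩ (by simp)
        have m4 : ({c, d, a, b} : Set (Fin 6)).ncard = 4 := by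
          rw [Set.ncard_insert_of_notMem (by simp [cd, Ne.symm ac, Ne.symm bc]),
            Set.ncard_insert_of_notMem (by simp [Ne.symm ad, Ne.symm bd]), Set.ncard_pair ab]
        exact (Set.eq_of_subset_of_ncard_le m3 (by rw [m4]; exact S.le4 _)
          (Set.toFinite _)).symm.subset
  · -- the plain end is `q`
    have hnear : ∀ᶠ t in 𝓝[<] q, 1 ∈ Q T V a b c d e f t := by
      filter_upwards [nhdsWithin_le_nhds (nhd_ang S.irr V q), Ioo_mem_nhdsLT hpq] with t k1 k2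
      exact ⟨dist_pt V t, S.e_near hqX h3 k1 (hgap t k2)⟩
    rcases h5.lt_or_eq with h5 | h5
    · have k1 : ∀ᶠ t in 𝓝[<] q, t ∈ Ioo (p + 5) q := Ioo_mem_nhdsLT h5
      have k2 : ∀ x : ℝ, ∀ᶠ t in 𝓝[<] q, t ≠ x := by
        intro x
        by_cases hx : q = x
        · filter_upwards [self_mem_nhdsWithin] with t ht
          have ht : t < q := ht
          rw [← hx]; exact ne_of_lt ht
        · exact nhdsWithin_le_nhds (isOpen_ne.mem_nhds hx)
      obtain ⟨t, m1, m2, m3, m4⟩ := (hnear.and (k1.and ((k2 (t0 + 2)).and (k2 (t0 + 3))))).exists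
      exact hcv.right m2.1 m2.2 m3 m4 m1
    · rw [← h5] at hcv hnear
      obtain ⟨k1, k2⟩ := hcv.five hnear.frequently
      rcases k2 with k2 | k2
      · have k3 := hAy (by linarith) k2 (p + 3) ⟨by linarith, le_rfl⟩
        rw [← k1, ht0] at k3
        exact S.y_notA k3
      · have k3 := hAy (by linarith) k2
        have m2 : ∀ t ∈ Icc p (p + 1), {a, b} ⊆ T (pt V t) := fun t ht =>
          sub_of_closure S.irr (k3 t ht)
        have m1 : ∀ t ∈ Icc (p - 1) p, {c, d} ⊆ T (pt V t) := fun t ht => by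
          rw [← pt_six]
          exact sub_of_closure S.irr (harc (t + 6) ⟨by linarith [ht.1], by linarith [ht.2]⟩)
        refine full_arcs353 (a := a) (b := b) (c := c) (d := d) S.irr ?_ m1 m2
        obtain ⟨⟨ab, ac, ad, ae, af⟩, ⟨bc, bd, be, bf⟩, ⟨cd, ce, cf⟩, ⟨de, df⟩, ef⟩ := S.nd'
        have m3 : ({a, b, c, d} : Set (Fin 6)) ⊆ T (pt V p) := by
          rintro i (rfl | rfl | rfl | hi)
          · exact m2 p ⟨le_rfl, by linarith⟩ (by simp)
          · exact m2 p ⟨le_rfl, by linarith⟩ (by simp)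
          · exact m1 p ⟨by linarith, le_rfl⟩ (by simp)
          · rw [mem_singleton_iff] at hi
            rw [hi]; exact m1 p ⟨by linarith, le_rfl⟩ (by simp)
        have m4 : ({a, b, c, d} : Set (Fin 6)).ncard = 4 := by
          rw [Set.ncard_insert_of_notMem (by simp [ab, ac, ad]),
            Set.ncard_insert_of_notMem (by simp [bc, bd]), Set.ncard_pair cd]
        exact (Set.eq_of_subset_of_ncard_le m3 (by rw [m4]; exact S.le4 _)
          (Set.toFinite _)).symm.subset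

end HS353

end Vale.Agent.P032.H353
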