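import Vale.Agent.P032.H928.EndsQ
import Vale.Agent.P032.H460.RingV

/-!
# P032, helper353: the four-term sum (B3) at a quasi-full point (961's `QF0`)

`par353` : the sum of the four state values `{i, e, f}` at `V`, `i = a, b, m, n`, is `1` (460's
`sum_four_quasi` over 928's data of a quasi-full point).
-/

open Set Filter Topology Metric

noncomputable section

namespace Vale.Agent.P032.Six

open Vale.Agent.P032.S5.H767 Vale.Agent.P032.H961 Vale.Agent.P032.H460 Vale.Agent.P032.Carr

variable {U : Fin 6 → Set ℂ} {T : ℂ → Set (Fin 6)} {z V V1 V2 : ℂ} {a b c d m n e f : Fin 6}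

/-- a `J`/`K`-link has not both free colours -/
theorem jk_heg353 (hz : DPt T z a b c d) (hnd : [a, b, c, d, e, f].Nodup) {v : ℂ}
    (hv : JKEnd T z a b c d e f v) : ¬ (e ∈ T v ∧ f ∈ T v) := by
  simp only [List.nodup_cons, List.mem_cons, List.not_mem_nil, or_false, not_or, List.nodup_nil,
    and_true, not_false_eq_true] at hnd
  obtain ⟨⟨ab, ac, ad, ae, af⟩, ⟨bc, bd, be, bf⟩, ⟨cd, ce, cf⟩, ⟨de, df⟩, ef⟩ := hnd
  rcases hv with hv | ⟨x, x', y, g, hx, hy, hg, hD⟩
  · rw [hv, hz.pal]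
    simp [Ne.symm ae, Ne.symm be, Ne.symm ce, Ne.symm de]
  · rw [hD.pal]
    rcases hx with ⟨rfl, rfl⟩ | ⟨rfl, rfl⟩ <;> rcases hy with rfl | rfl <;>
      rcases hg with rfl | rfl <;>
      simp [Ne.symm ae, Ne.symm be, Ne.symm ce, Ne.symm de, Ne.symm af, Ne.symm bf, Ne.symm cf,
        Ne.symm df, ef, Ne.symm ef]

/-- a `J`/`K`-link is safe for the parity -/
theorem jk_safe353 (hnd : [a, b, c, d, e, f].Nodup) {v : ℂ}
    (hv : JKEnd T z a b c d e f v)
    (hap : ∀ x, dist x z = 1 → dist x v = 1 → (T x).ncard ≤ 3) : Safe T z e f v := by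
  simp only [List.nodup_cons, List.mem_cons, List.not_mem_nil, or_false, not_or, List.nodup_nil,
    and_true, not_false_eq_true] at hnd
  obtain ⟨⟨ab, ac, ad, ae, af⟩, ⟨bc, bd, be, bf⟩, ⟨cd, ce, cf⟩, ⟨de, df⟩, ef⟩ := hnd
  rcases hv with hv | ⟨x, x', y, g, hx, hy, hg, hD⟩
  · exact Or.inl hv
  · refine Or.inr ⟨⟨x, y, x', g, hD, fun hc => ?_, fun hc => ?_⟩, hap⟩
    · have h5 : e ∈ ({x, y} : Set (Fin 6)) := hc ▸ Or.inl rfl
      rcases h5 with h5 | h5
      · rcases hx with ⟨h6, -⟩ | ⟨h6, -⟩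
        · exact ae (h6.symm.trans h5.symm)
        · exact be (h6.symm.trans h5.symm)
      · rw [mem_singleton_iff] at h5
        rcases hy with h6 | h6
        · exact ce (h6.symm.trans h5.symm)
        · exact de (h6.symm.trans h5.symm)
    · have h5 : x' ∈ ({e, f} : Set (Fin 6)) := hc ▸ Or.inl rfl
      rcases h5 with h5 | h5
      · rcases hx with ⟨-, h6⟩ | ⟨-, h6⟩
        · exact be (h6.symm.trans h5)
        · exact ae (h6.symm.trans h5)
      · rw [mem_singleton_iff] at h5
        rcases hx with ⟨-, h6⟩ | ⟨-, h6⟩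
        · exact bf (h6.symm.trans h5)
        · exact af (h6.symm.trans h5)

variable {g : ℂ → Set (Fin 6)} {Z : Set ℂ} {o : ℂ} {R δ₀ : ℝ}

/-- **(B3)** at a quasi-full point -/
theorem par353 (D : DSt U T Z g o R δ₀) (hR : dist V o ≤ R - 1)
    (hV : QF0 T V a b m n e f V1 V2) :
    lamT T Z g δ₀ a V e f + lamT T Z g δ₀ b V e f + lamT T Z g δ₀ m V e f +
      lamT T Z g δ₀ n V e f = 1 := by
  have h := D.df.irr
  have hz := hV.dpt
  have hnd := hV.nd
  obtain ⟨u0, α, hα0, hα1, harc, honly, hl, hr, h4, -⟩ := hV.data928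
  have int6 : ∀ (n : ℤ) (x : ℝ), x = n * 6 → -6 < x → x < 6 → x = 0 := by
    intro n x hx h1 h2
    rw [hx] at h1 h2
    have c1 : (n : ℝ) < 1 := by linarith
    have c2 : (-1 : ℝ) < n := by linarith
    have c3 : n < (1 : ℤ) := by exact_mod_cast c1
    have c4 : (-1 : ℤ) < n := by exact_mod_cast c2
    have c5 : n = 0 := by omega
    rw [hx, c5]; simp
  have h3 : ∀ s : ℝ, -2 < s → s < 3 → s ≠ 0 → s ≠ α → (T (pt V (u0 + s))).ncard ≤ 3 := by
    intro s h1 h2 h5 h6
    by_contra hcc
    rcases h4 _ (dist_pt V (u0 + s)) (by omega) with h7 | h7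
    · obtain ⟨n, hn⟩ := pt_inj460 h7
      exact h5 (int6 n s (by linarith) (by linarith) (by linarith))
    · obtain ⟨n, hn⟩ := pt_inj460 h7
      have := int6 n (s - α) (by linarith) (by linarith) (by linarith)
      exact h6 (by linarith)
  have hlt : dist (pt V u0) (pt V (u0 + α)) ≠ 1 := by
    have h1 := H383.dist_pt_lt V (s := u0) (t := u0 + α)
      (abs_lt.2 ⟨by linarith, by linarith⟩)
    exact h1.ne
  refine D.sum_four_quasi hR hz hnd hα0 hα1.le harc honly ?_ ?_ (fun y hy hy4 => ?_)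
    (fun y hy hy4 => ?_)
  · refine hl.pend h hz hnd (dist_pt V _) (dist_pt V _) ?_ ?_
    · have := dist_pt_one V (u0 - 1)
      rwa [sub_add_cancel] at this
    · rw [sub_eq_add_neg]
      exact h3 (-1) (by norm_num) (by norm_num) (by norm_num) (by linarith)
  · refine hr.pend h hz hnd (dist_pt V _) (dist_pt V _) ?_ ?_
    · rw [dist_comm]; exact dist_pt_one V _
    · rw [add_assoc]
      exact h3 (α + 1) (by linarith) (by linarith) (by linarith) (by linarith)
  · rcases h4 y hy hy4 with rfl | rfl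
    · refine jk_safe353 hnd hl fun x hx hxv => ?_
      by_contra hcc
      rcases h4 x hx (by omega) with rfl | rfl
      · rw [dist_self] at hxv; exact zero_ne_one hxv
      · exact hlt (by rw [dist_comm]; exact hxv)
    · refine jk_safe353 hnd hr fun x hx hxv => ?_
      by_contra hcc
      rcases h4 x hx (by omega) with rfl | rfl
      · exact hlt hxv
      · rw [dist_self] at hxv; exact zero_ne_one hxv
  · rcases h4 y hy hy4 with rfl | rfl
    · exact jk_heg353 hz hnd hl
    · exact jk_heg353 hz hnd hr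

end Vale.Agent.P032.Six
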